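import Mathlib

set_option autoImplicit false

namespace Crest.Agent.GADLib

/-- Output entropy of a pure input with excited population `p`. -/
noncomputable def gadF (γ ν p : ℝ) : ℝ :=
  Real.binEntropy ((1 + Real.sqrt (1 - 4 * (γ * ν * (1 - ν) + γ * (1 - γ) * (p - ν) ^ 2))) / 2)

private lemma L_lower {r : ℝ} (h0 : 0 < r) (h1 : r < 1) :
    2 * r ≤ Real.log (1 + r) - Real.log (1 - r) := by
  have h := Real.hasSum_log_sub_log_of_abs_lt_one (x := r) (by rw [abs_of_pos h0]; exact h1)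
  have := le_hasSum h 0 (fun j _ => by positivity)
  simpa using this

private lemma L_upper {r : ℝ} (h0 : 0 < r) (h1 : r < 1) :
    Real.log (1 + r) - Real.log (1 - r) ≤ 2 * r / (1 - r ^ 2) := by
  have h := Real.hasSum_log_sub_log_of_abs_lt_one (x := r) (by rw [abs_of_pos h0]; exact h1)
  have hr2 : r ^ 2 < 1 := by nlinarith
  have hg := (hasSum_geometric_of_lt_one (r := r ^ 2) (by positivity) hr2).mul_left (2 * r)
  have key : ∀ k : ℕ, 2 * (1 / (2 * (k : ℕ) + 1 : ℝ)) * r ^ (2 * k + 1) ≤ 2 * r * (r ^ 2) ^ k := by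
    intro k
    have hk : (1 : ℝ) ≤ 2 * (k : ℝ) + 1 := by
      have : (0 : ℝ) ≤ k := Nat.cast_nonneg k
      linarith
    have hk' : 1 / (2 * (k : ℝ) + 1) ≤ 1 := by
      rw [div_le_one (by linarith)]; exact hk
    have hp : 0 ≤ r ^ (2 * k + 1) := by positivity
    have e : 2 * r * (r ^ 2) ^ k = 2 * 1 * r ^ (2 * k + 1) := by
      rw [← pow_mul, pow_succ]; ring
    rw [e]
    exact mul_le_mul_of_nonneg_right (by linarith) hp
  have := hasSum_le key h hg
  simpa [div_eq_mul_inv, mul_comm, mul_left_comm, mul_assoc] using this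

private lemma hasDerivAt_H {r : ℝ} (h0 : -1 < r) (h1 : r < 1) :
    HasDerivAt (fun s : ℝ => Real.binEntropy ((1 + s) / 2))
      (-(Real.log (1 + r) - Real.log (1 - r)) / 2) r := by
  have hq0 : (1 + r) / 2 ≠ 0 := by
    have : 0 < 1 + r := by linarith
    positivity
  have hq1 : (1 + r) / 2 ≠ 1 := by
    intro h; linarith
  have hin : HasDerivAt (fun s : ℝ => (1 + s) / 2) (1 / 2) r :=
    ((hasDerivAt_id' r).const_add 1).div_const 2
  have h : HasDerivAt (fun s : ℝ => Real.binEntropy ((1 + s) / 2))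
      ((Real.log (1 - (1 + r) / 2) - Real.log ((1 + r) / 2)) * (1 / 2)) r :=
    (by
      have hb : HasDerivAt Real.binEntropy (Real.log (1 - (1 + r) / 2) - Real.log ((1 + r) / 2)) ((1 + r) / 2) := by
        rw [← Real.deriv_binEntropy]
        exact (Real.differentiableAt_binEntropy hq0 hq1).hasDerivAt
      exact hb.comp r hin)
  refine h.congr_deriv ?_
  have e1 : 1 - (1 + r) / 2 = (1 - r) / 2 := by ring
  rw [e1, Real.log_div (by linarith) (by norm_num), Real.log_div (by linarith) (by norm_num)]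
  ring

private lemma hasDerivAt_L {r : ℝ} (h0 : -1 < r) (h1 : r < 1) :
    HasDerivAt (fun s : ℝ => Real.log (1 + s) - Real.log (1 - s))
      (2 / (1 - r ^ 2)) r := by
  have h01 : (1 + r) ≠ 0 := by linarith
  have h02 : (1 - r) ≠ 0 := by linarith
  have a := ((hasDerivAt_id' r).const_add 1).log h01
  have b := ((hasDerivAt_id' r).const_sub 1).log h02
  refine (a.sub b).congr_deriv ?_
  have : 1 - r ^ 2 = (1 + r) * (1 - r) := by ring
  rw [this]
  field_simp
  ring

theorem gadF_convexOn {γ ν : ℝ} (hγ : γ ∈ Set.Icc (0 : ℝ) 1) (hν : ν ∈ Set.Icc (0 : ℝ) 1) :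
    ConvexOn ℝ (Set.Icc (0 : ℝ) 1) (gadF γ ν) := by
  obtain ⟨hγ0, hγ1⟩ := hγ
  obtain ⟨hν0, hν1⟩ := hν
  rcases eq_or_lt_of_le hγ0 with rfl | hγ0'
  · have : gadF 0 ν = fun _ => Real.binEntropy ((1 + Real.sqrt 1) / 2) := by
      funext p; unfold gadF; norm_num
    rw [this]; exact convexOn_const _ (convex_Icc _ _)
  rcases eq_or_lt_of_le hγ1 with rfl | hγ1'
  · have : gadF 1 ν = fun _ => Real.binEntropy ((1 + Real.sqrt (1 - 4 * (1 * ν * (1 - ν)))) / 2) := by
      funext p; unfold gadF; norm_num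
    rw [this]; exact convexOn_const _ (convex_Icc _ _)
  -- main case
  obtain ⟨α, hα⟩ : ∃ α, α = γ * (1 - γ) := ⟨_, rfl⟩
  obtain ⟨β, hβ⟩ : ∃ β, β = γ * ν * (1 - ν) := ⟨_, rfl⟩
  have hαpos : 0 < α := by rw [hα]; exact mul_pos hγ0' (by linarith)
  have hβ0 : 0 ≤ β := by rw [hβ]; exact mul_nonneg (mul_nonneg hγ0 hν0) (by linarith)
  let y : ℝ → ℝ := fun p => 1 - 4 * (β + α * (p - ν) ^ 2)
  let r : ℝ → ℝ := fun p => Real.sqrt (y p)
  let L : ℝ → ℝ := fun s => Real.log (1 + s) - Real.log (1 - s)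
  have gadF_eq : gadF γ ν = fun p => Real.binEntropy ((1 + r p) / 2) := by
    funext p
    simp only [gadF, r, y, hα, hβ]
  have hypos : ∀ p ∈ Set.Ioo (0 : ℝ) 1, 0 < y p := by
    intro p hp
    have e : y p = 4 * (1 - γ) * (p * (1 - p)) + (1 - 2 * ((1 - γ) * p + γ * ν)) ^ 2 := by
      simp only [y, hα, hβ]; ring
    rw [e]
    have : 0 < 4 * (1 - γ) * (p * (1 - p)) :=
      mul_pos (by linarith) (mul_pos hp.1 (by linarith [hp.2]))
    positivity
  have hylt : ∀ p ∈ Set.Ioo (0 : ℝ) 1, y p < 1 := by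
    intro p hp
    have hv : 0 < β + α * (p - ν) ^ 2 := by
      by_cases hx : p = ν
      · have hν0' : 0 < ν := by rw [← hx]; exact hp.1
        have hν1' : ν < 1 := by rw [← hx]; exact hp.2
        have : 0 < β := by
          rw [hβ]; exact mul_pos (mul_pos hγ0' hν0') (by linarith)
        have h2 : 0 ≤ α * (p - ν) ^ 2 := by positivity
        linarith
      · have : 0 < α * (p - ν) ^ 2 := by
          have : p - ν ≠ 0 := sub_ne_zero.mpr hx
          positivity
        linarith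
    simp only [y]; linarith
  have hrpos : ∀ p ∈ Set.Ioo (0 : ℝ) 1, 0 < r p := fun p hp => Real.sqrt_pos.mpr (hypos p hp)
  have hrsq : ∀ p ∈ Set.Ioo (0 : ℝ) 1, r p ^ 2 = y p := fun p hp => Real.sq_sqrt (hypos p hp).le
  have hrlt : ∀ p ∈ Set.Ioo (0 : ℝ) 1, r p < 1 := by
    intro p hp
    have := hrsq p hp
    have h1 := hylt p hp
    have h0 := hrpos p hp
    nlinarith
  have hdy : ∀ p, HasDerivAt y (-(8 * α * (p - ν))) p := by
    intro p
    have h1 : HasDerivAt (fun p : ℝ => (p - ν) ^ 2) (2 * (p - ν)) p := by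
      have := ((hasDerivAt_id' p).sub_const ν).pow 2
      refine this.congr_deriv ?_
      simp
    have h2 := ((h1.const_mul α).const_add β).const_mul 4
    have h3 := h2.const_sub 1
    refine h3.congr_deriv ?_
    ring
  have hdr : ∀ p ∈ Set.Ioo (0 : ℝ) 1, HasDerivAt r (-(4 * α * (p - ν)) / r p) p := by
    intro p hp
    have := (hdy p).sqrt (hypos p hp).ne'
    refine this.congr_deriv ?_
    have h0 := (hrpos p hp).ne'
    show -(8 * α * (p - ν)) / (2 * r p) = _
    field_simp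
    ring
  let f1 : ℝ → ℝ := fun p => 2 * α * (p - ν) * (L (r p) / r p)
  let f2 : ℝ → ℝ := fun p => 2 * α * (L (r p) / r p)
    - 2 * α * (4 * α * (p - ν) ^ 2) * (2 / (r p ^ 2 * (1 - r p ^ 2)) - L (r p) / r p ^ 3)
  have hd1 : ∀ p ∈ Set.Ioo (0 : ℝ) 1, HasDerivAt (gadF γ ν) (f1 p) p := by
    intro p hp
    rw [gadF_eq]
    have h0 := hrpos p hp
    have h1 := hrlt p hp
    have h := (hasDerivAt_H (r := r p) (by linarith) h1).comp p (hdr p hp)
    refine h.congr_deriv ?_
    show (-(Real.log (1 + r p) - Real.log (1 - r p)) / 2) * (-(4 * α * (p - ν)) / r p)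
      = 2 * α * (p - ν) * ((Real.log (1 + r p) - Real.log (1 - r p)) / r p)
    field_simp
    ring
  have hd2 : ∀ p ∈ Set.Ioo (0 : ℝ) 1, HasDerivAt f1 (f2 p) p := by
    intro p hp
    have h0 := hrpos p hp
    have h1 := hrlt p hp
    have h0' := h0.ne'
    have hLd := (hasDerivAt_L (r := r p) (by linarith) h1).comp p (hdr p hp)
    have hq := hLd.div (hdr p hp) h0'
    have hx : HasDerivAt (fun p : ℝ => 2 * α * (p - ν)) (2 * α) p := by
      have := ((hasDerivAt_id' p).sub_const ν).const_mul (2 * α)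
      refine this.congr_deriv ?_
      ring
    have := hx.mul hq
    refine this.congr_deriv ?_
    have h2 : 1 - r p ^ 2 ≠ 0 := by nlinarith
    show 2 * α * (L (r p) / r p) + 2 * α * (p - ν) *
        ((2 / (1 - r p ^ 2) * (-(4 * α * (p - ν)) / r p) * r p
          - L (r p) * (-(4 * α * (p - ν)) / r p)) / r p ^ 2) = _
    simp only [f2]
    field_simp
    ring
  have hder : ∀ p ∈ Set.Ioo (0 : ℝ) 1, deriv (gadF γ ν) p = f1 p := fun p hp => (hd1 p hp).deriv
  have hdd : ∀ p ∈ Set.Ioo (0 : ℝ) 1, HasDerivAt (deriv (gadF γ ν)) (f2 p) p := by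
    intro p hp
    refine (hd2 p hp).congr_of_eventuallyEq ?_
    filter_upwards [Ioo_mem_nhds hp.1 hp.2] with q hq using hder q hq
  refine convexOn_of_deriv2_nonneg (convex_Icc 0 1) ?_ ?_ ?_ ?_
  · have : Continuous (gadF γ ν) := by
      unfold gadF
      fun_prop
    exact this.continuousOn
  · rw [interior_Icc]
    exact fun p hp => (hd1 p hp).differentiableAt.differentiableWithinAt
  · rw [interior_Icc]
    exact fun p hp => (hdd p hp).differentiableAt.differentiableWithinAt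
  · rw [interior_Icc]
    intro p hp
    have hval : deriv^[2] (gadF γ ν) p = f2 p := by
      show deriv (deriv (gadF γ ν)) p = f2 p
      exact (hdd p hp).deriv
    rw [hval]
    have h0 := hrpos p hp
    have h1 := hrlt p hp
    have h1' : 0 < 1 - r p ^ 2 := by nlinarith
    have hLlow : 2 * r p ≤ L (r p) := L_lower h0 h1
    have hLup : L (r p) ≤ 2 * r p / (1 - r p ^ 2) := L_upper h0 h1
    -- B ≥ 0
    have hB : 0 ≤ 2 / (r p ^ 2 * (1 - r p ^ 2)) - L (r p) / r p ^ 3 := by
      have e : 2 / (r p ^ 2 * (1 - r p ^ 2)) = (2 * r p / (1 - r p ^ 2)) / r p ^ 3 := by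
        field_simp
      rw [e, sub_nonneg]
      exact div_le_div_of_nonneg_right hLup (by positivity)
    -- 4 α x² ≤ 1 - r²
    have hx2 : 4 * α * (p - ν) ^ 2 ≤ 1 - r p ^ 2 := by
      rw [hrsq p hp]; simp only [y]; nlinarith
    have hmain : 0 ≤ L (r p) / r p - (1 - r p ^ 2) * (2 / (r p ^ 2 * (1 - r p ^ 2)) - L (r p) / r p ^ 3) := by
      have e : L (r p) / r p - (1 - r p ^ 2) * (2 / (r p ^ 2 * (1 - r p ^ 2)) - L (r p) / r p ^ 3)
          = (L (r p) - 2 * r p) / r p ^ 3 := by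
        field_simp
        ring
      rw [e]
      exact div_nonneg (by linarith) (by positivity)
    have hmul : (4 * α * (p - ν) ^ 2) * (2 / (r p ^ 2 * (1 - r p ^ 2)) - L (r p) / r p ^ 3)
        ≤ (1 - r p ^ 2) * (2 / (r p ^ 2 * (1 - r p ^ 2)) - L (r p) / r p ^ 3) :=
      mul_le_mul_of_nonneg_right hx2 hB
    have : f2 p = 2 * α * (L (r p) / r p
        - (4 * α * (p - ν) ^ 2) * (2 / (r p ^ 2 * (1 - r p ^ 2)) - L (r p) / r p ^ 3)) := by
      simp only [f2]; ring
    rw [this]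
    exact mul_nonneg (by positivity) (by linarith)

end Crest.Agent.GADLib
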