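import Mathlib

set_option autoImplicit false
set_option linter.unusedVariables false

namespace Crest.Agent.GADLib

open Real

/-- Density of the first dual function attached to the scalars `a b c e`. -/
noncomputable def phiD (a b c e τ : ℝ) : ℝ :=
  if b < a / τ then 1 / (1 + τ + c / (a / τ - b + e)) else 0

/-- First dual function. -/
noncomputable def geeD (a b c e u : ℝ) : ℝ := ∫ τ in (0 : ℝ)..u, phiD a b c e τ

theorem phiD_measurable (a b c e : ℝ) : Measurable (phiD a b c e) := by
  unfold phiD
  apply Measurable.ite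
  · exact measurableSet_lt measurable_const (measurable_const.div measurable_id)
  · fun_prop
  · fun_prop

theorem phiD_nonneg {a b c e τ : ℝ} (ha : 0 ≤ a) (hb : 0 ≤ b) (hc : 0 ≤ c) (he : 0 ≤ e)
    (hτ : 0 < τ) : 0 ≤ phiD a b c e τ := by
  unfold phiD
  split_ifs with h
  · have h1 : 0 < a / τ - b + e := by linarith
    have h2 : 0 ≤ c / (a / τ - b + e) := div_nonneg hc h1.le
    apply div_nonneg zero_le_one
    linarith
  · exact le_rfl

theorem phiD_le {a b c e τ : ℝ} (ha : 0 ≤ a) (hb : 0 ≤ b) (hc : 0 ≤ c) (he : 0 ≤ e)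
    (hτ : 0 < τ) : phiD a b c e τ ≤ 1 / (1 + τ) := by
  unfold phiD
  split_ifs with h
  · have h1 : 0 < a / τ - b + e := by linarith
    have h2 : 0 ≤ c / (a / τ - b + e) := div_nonneg hc h1.le
    apply one_div_le_one_div_of_le (by linarith)
    linarith
  · positivity

lemma phiD_le_one {a b c e τ : ℝ} (ha : 0 ≤ a) (hb : 0 ≤ b) (hc : 0 ≤ c) (he : 0 ≤ e)
    (hτ : 0 < τ) : phiD a b c e τ ≤ 1 := by
  refine (phiD_le ha hb hc he hτ).trans ?_
  rw [div_le_one (by linarith)]
  linarith

lemma phiD_intervalIntegrable {a b c e : ℝ} (ha : 0 ≤ a) (hb : 0 ≤ b) (hc : 0 ≤ c) (he : 0 ≤ e)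
    {x y : ℝ} (hx : 0 ≤ x) (hy : 0 ≤ y) :
    IntervalIntegrable (phiD a b c e) MeasureTheory.volume x y := by
  rw [intervalIntegrable_iff]
  refine MeasureTheory.Measure.integrableOn_of_bounded (M := 1)
    (by simp [Set.uIoc]) (phiD_measurable a b c e).aestronglyMeasurable ?_
  filter_upwards [MeasureTheory.ae_restrict_mem measurableSet_uIoc] with τ hτ
  have hτ0 : 0 < τ := by
    have h1 : min x y < τ := hτ.1
    have h2 : 0 ≤ min x y := le_min hx hy
    linarith
  rw [Real.norm_of_nonneg (phiD_nonneg ha hb hc he hτ0)]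
  exact phiD_le_one ha hb hc he hτ0

/-- Key monotonicity lemma: integrate a pointwise bound of the density against the logarithm. -/
lemma geeD_sub_le {a b c e u v v' : ℝ} (ha : 0 ≤ a) (hb : 0 ≤ b) (hc : 0 ≤ c) (he : 0 ≤ e)
    (hu : 0 ≤ u) (hv' : 0 ≤ v') (hvv : v' ≤ v)
    (h : ∀ τ, v' < τ → τ ≤ v → phiD c e a b τ ≤ 1 / (1 + u + τ)) :
    geeD c e a b v - geeD c e a b v' ≤ Real.log (1 + u + v) - Real.log (1 + u + v') := by
  have hv : 0 ≤ v := hv'.trans hvv
  have h1 : geeD c e a b v - geeD c e a b v' = ∫ τ in v'..v, phiD c e a b τ := by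
    unfold geeD
    rw [intervalIntegral.integral_interval_sub_left
      (phiD_intervalIntegrable hc he ha hb le_rfl hv)
      (phiD_intervalIntegrable hc he ha hb le_rfl hv')]
  have hcont : ContinuousOn (fun τ : ℝ => 1 / (1 + u + τ)) (Set.uIcc v' v) := by
    apply ContinuousOn.div continuousOn_const (by fun_prop)
    intro τ hτ
    rw [Set.uIcc_of_le hvv] at hτ
    have h3 := hτ.1
    have h4 : 0 < 1 + u + τ := by linarith
    exact h4.ne'
  have h2 : Real.log (1 + u + v) - Real.log (1 + u + v') = ∫ τ in v'..v, 1 / (1 + u + τ) := by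
    rw [intervalIntegral.integral_eq_sub_of_hasDerivAt (f := fun τ => Real.log (1 + u + τ))]
    · intro τ hτ
      rw [Set.uIcc_of_le hvv] at hτ
      have hpos : 0 < 1 + u + τ := by have := hτ.1; linarith
      have := ((hasDerivAt_id τ).const_add (1 + u)).log hpos.ne'
      simpa using this
    · exact hcont.intervalIntegrable
  rw [h1, h2]
  apply intervalIntegral.integral_mono_on_of_le_Ioo hvv
    (phiD_intervalIntegrable hc he ha hb hv' hv) hcont.intervalIntegrable
  intro τ hτ
  exact h τ hτ.1 hτ.2.le

lemma geeD_zero (a b c e : ℝ) : geeD a b c e 0 = 0 := by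
  simp [geeD]

lemma geeD_le_log {a b c e v : ℝ} (ha : 0 ≤ a) (hb : 0 ≤ b) (hc : 0 ≤ c) (he : 0 ≤ e)
    (hv : 0 ≤ v) : geeD c e a b v ≤ Real.log (1 + v) := by
  have := geeD_sub_le (u := 0) (v := v) (v' := 0) ha hb hc he le_rfl le_rfl hv ?_
  · simpa [geeD_zero] using this
  · intro τ hτ _
    refine (phiD_le hc he ha hb hτ).trans ?_
    simp

lemma geeD_nonneg {a b c e u : ℝ} (ha : 0 ≤ a) (hb : 0 ≤ b) (hc : 0 ≤ c) (he : 0 ≤ e)
    (hu : 0 ≤ u) : 0 ≤ geeD a b c e u := by
  unfold geeD
  rw [intervalIntegral.integral_of_le hu]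
  apply MeasureTheory.setIntegral_nonneg measurableSet_Ioc
  intro τ hτ
  exact phiD_nonneg ha hb hc he hτ.1

lemma phiD_continuousAt {a b c e s : ℝ} (ha : 0 < a) (hb : 0 ≤ b) (hc : 0 ≤ c) (he : 0 ≤ e)
    (hs : 0 < s) : ContinuousAt (phiD a b c e) (a / (s + b)) := by
  have hsb : 0 < s + b := by linarith
  have hu0 : 0 < a / (s + b) := div_pos ha hsb
  have hau : a / (a / (s + b)) = s + b := by field_simp
  have hcont : ContinuousAt (fun τ : ℝ => a / τ) (a / (s + b)) :=
    continuousAt_const.div continuousAt_id hu0.ne'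
  have hev : ∀ᶠ τ in nhds (a / (s + b)), b < a / τ := by
    apply hcont.eventually_const_lt
    show b < a / (a / (s + b))
    rw [hau]; linarith
  have heq : phiD a b c e =ᶠ[nhds (a / (s + b))]
      fun τ => 1 / (1 + τ + c / (a / τ - b + e)) := by
    filter_upwards [hev] with τ hτ
    simp [phiD, hτ]
  refine ContinuousAt.congr ?_ heq.symm
  have hd : a / (a / (s + b)) - b + e = s + e := by rw [hau]; ring
  have hse : 0 < s + e := by linarith
  have hX : ContinuousAt (fun τ : ℝ => a / τ - b + e) (a / (s + b)) :=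
    (hcont.sub continuousAt_const).add continuousAt_const
  apply ContinuousAt.div continuousAt_const
  · apply ContinuousAt.add (by fun_prop)
    apply ContinuousAt.div continuousAt_const hX
    rw [hd]; exact hse.ne'
  · rw [hd]
    have : 0 ≤ c / (s + e) := div_nonneg hc hse.le
    have : 0 < 1 + a / (s + b) + c / (s + e) := by linarith
    exact this.ne'

lemma phiD_curve {a b c e s : ℝ} (ha : 0 < a) (hb : 0 ≤ b) (hs : 0 < s) :
    phiD a b c e (a / (s + b)) = 1 / (1 + a / (s + b) + c / (s + e)) := by
  have hsb : 0 < s + b := by linarith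
  have hau : a / (a / (s + b)) = s + b := by field_simp
  unfold phiD
  rw [hau, if_pos (by linarith)]
  congr 3
  ring

lemma hasDerivAt_u0 (a b : ℝ) {s : ℝ} (hsb : 0 < s + b) :
    HasDerivAt (fun s => a / (s + b)) (-(a / (s + b) ^ 2)) s := by
  have h := (hasDerivAt_const s a).div ((hasDerivAt_id' s).add_const b) hsb.ne'
  have h2 : (0 * (s + b) - a * 1) / (s + b) ^ 2 = -(a / (s + b) ^ 2) := by ring
  rw [h2] at h
  exact h

lemma hasDerivAt_geeD_curve {a b c e s : ℝ} (ha : 0 ≤ a) (hb : 0 ≤ b) (hc : 0 ≤ c) (he : 0 ≤ e)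
    (hs : 0 < s) :
    HasDerivAt (fun s => geeD a b c e (a / (s + b)))
      (-(a / (s + b) ^ 2) * (1 / (1 + a / (s + b) + c / (s + e)))) s := by
  rcases ha.eq_or_lt with rfl | ha'
  · have h : (fun s => geeD 0 b c e (0 / (s + b))) = fun _ => 0 := by
      funext s
      simp [geeD_zero]
    rw [h]
    simpa using hasDerivAt_const s (0 : ℝ)
  · have hsb : 0 < s + b := by linarith
    have hu0 : 0 < a / (s + b) := div_pos ha' hsb
    have hF : HasDerivAt (geeD a b c e) (phiD a b c e (a / (s + b))) (a / (s + b)) := by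
      unfold geeD
      apply intervalIntegral.integral_hasDerivAt_right
        (phiD_intervalIntegrable ha hb hc he le_rfl hu0.le)
        ((phiD_measurable a b c e).stronglyMeasurable.stronglyMeasurableAtFilter)
        (phiD_continuousAt ha' hb hc he hs)
    have h3 := hF.comp s (hasDerivAt_u0 a b hsb)
    rw [phiD_curve ha' hb hs, mul_comm] at h3
    exact h3

theorem geeD_add_curve {a b c e s : ℝ} (ha : 0 ≤ a) (hb : 0 ≤ b) (hc : 0 ≤ c) (he : 0 ≤ e)
    (hs : 0 < s) :
    geeD a b c e (a / (s + b)) + geeD c e a b (c / (s + e)) =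
      Real.log (1 + a / (s + b) + c / (s + e)) := by
  set H : ℝ → ℝ := fun s => geeD a b c e (a / (s + b)) + geeD c e a b (c / (s + e)) -
      Real.log (1 + a / (s + b) + c / (s + e)) with hH
  -- derivative zero
  have hderiv : ∀ s, 0 < s → HasDerivAt H 0 s := by
    intro s hs
    have hsb : 0 < s + b := by linarith
    have hse : 0 < s + e := by linarith
    have h1 := hasDerivAt_geeD_curve ha hb hc he hs
    have h2 := hasDerivAt_geeD_curve hc he ha hb hs
    have hD : 0 < 1 + a / (s + b) + c / (s + e) := by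
      have := div_nonneg ha hsb.le
      have := div_nonneg hc hse.le
      linarith
    have h3 : HasDerivAt (fun s => Real.log (1 + a / (s + b) + c / (s + e)))
        ((-(a / (s + b) ^ 2) + -(c / (s + e) ^ 2)) / (1 + a / (s + b) + c / (s + e))) s := by
      have h5 : HasDerivAt (fun s => 1 + a / (s + b) + c / (s + e))
          (-(a / (s + b) ^ 2) + -(c / (s + e) ^ 2)) s :=
        ((hasDerivAt_u0 a b hsb).const_add 1).add (hasDerivAt_u0 c e hse)
      exact h5.log hD.ne'
    have hD' : 1 + c / (s + e) + a / (s + b) = 1 + a / (s + b) + c / (s + e) := by ring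
    rw [hD'] at h2
    have h6 := (h1.add h2).sub h3
    have h7 : -(a / (s + b) ^ 2) * (1 / (1 + a / (s + b) + c / (s + e))) +
        -(c / (s + e) ^ 2) * (1 / (1 + a / (s + b) + c / (s + e))) -
        (-(a / (s + b) ^ 2) + -(c / (s + e) ^ 2)) / (1 + a / (s + b) + c / (s + e)) = 0 := by
      ring
    rw [h7] at h6
    exact h6
  -- constancy
  have hconst : ∀ s, 0 < s → H s = H 1 := by
    intro s hs
    have hdiff : DifferentiableOn ℝ H (Set.Ioi 0) := fun x hx =>
      (hderiv x hx).differentiableAt.differentiableWithinAt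
    apply IsOpen.is_const_of_deriv_eq_zero isOpen_Ioi isPreconnected_Ioi hdiff ?_
      (Set.mem_Ioi.2 hs) (Set.mem_Ioi.2 zero_lt_one)
    intro x hx
    exact (hderiv x hx).deriv
  -- limit
  have hlim : Filter.Tendsto H Filter.atTop (nhds 0) := by
    have hu : Filter.Tendsto (fun s : ℝ => a / (s + b)) Filter.atTop (nhds 0) :=
      Filter.Tendsto.const_div_atTop (Filter.tendsto_atTop_add_const_right _ _ Filter.tendsto_id) a
    have hv : Filter.Tendsto (fun s : ℝ => c / (s + e)) Filter.atTop (nhds 0) :=
      Filter.Tendsto.const_div_atTop (Filter.tendsto_atTop_add_const_right _ _ Filter.tendsto_id) c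
    have hlog1 : Filter.Tendsto (fun s : ℝ => Real.log (1 + a / (s + b))) Filter.atTop (nhds 0) := by
      have : Filter.Tendsto (fun s : ℝ => 1 + a / (s + b)) Filter.atTop (nhds (1 + 0)) :=
        tendsto_const_nhds.add hu
      have h2 := (Real.continuousAt_log (by norm_num : (1 + 0 : ℝ) ≠ 0)).tendsto.comp this
      simpa [Function.comp_def] using h2
    have hlog2 : Filter.Tendsto (fun s : ℝ => Real.log (1 + c / (s + e))) Filter.atTop (nhds 0) := by
      have : Filter.Tendsto (fun s : ℝ => 1 + c / (s + e)) Filter.atTop (nhds (1 + 0)) :=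
        tendsto_const_nhds.add hv
      have h2 := (Real.continuousAt_log (by norm_num : (1 + 0 : ℝ) ≠ 0)).tendsto.comp this
      simpa [Function.comp_def] using h2
    have hlog3 : Filter.Tendsto (fun s : ℝ => Real.log (1 + a / (s + b) + c / (s + e)))
        Filter.atTop (nhds 0) := by
      have : Filter.Tendsto (fun s : ℝ => 1 + a / (s + b) + c / (s + e)) Filter.atTop
          (nhds (1 + 0 + 0)) := (tendsto_const_nhds.add hu).add hv
      have h2 := (Real.continuousAt_log (by norm_num : (1 + 0 + 0 : ℝ) ≠ 0)).tendsto.comp this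
      simpa [Function.comp_def] using h2
    have hg1 : Filter.Tendsto (fun s : ℝ => geeD a b c e (a / (s + b))) Filter.atTop (nhds 0) := by
      refine tendsto_of_tendsto_of_tendsto_of_le_of_le' tendsto_const_nhds hlog1 ?_ ?_
      · filter_upwards [Filter.eventually_gt_atTop (0 : ℝ)] with s hs
        exact geeD_nonneg ha hb hc he (div_nonneg ha (by linarith))
      · filter_upwards [Filter.eventually_gt_atTop (0 : ℝ)] with s hs
        exact geeD_le_log hc he ha hb (div_nonneg ha (by linarith))
    have hg2 : Filter.Tendsto (fun s : ℝ => geeD c e a b (c / (s + e))) Filter.atTop (nhds 0) := by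
      refine tendsto_of_tendsto_of_tendsto_of_le_of_le' tendsto_const_nhds hlog2 ?_ ?_
      · filter_upwards [Filter.eventually_gt_atTop (0 : ℝ)] with s hs
        exact geeD_nonneg hc he ha hb (div_nonneg hc (by linarith))
      · filter_upwards [Filter.eventually_gt_atTop (0 : ℝ)] with s hs
        exact geeD_le_log ha hb hc he (div_nonneg hc (by linarith))
    have := (hg1.add hg2).sub hlog3
    simpa [hH] using this
  have hH1 : H 1 = 0 := by
    have h2 : Filter.Tendsto H Filter.atTop (nhds (H 1)) := by
      apply Filter.Tendsto.congr' _ tendsto_const_nhds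
      filter_upwards [Filter.eventually_gt_atTop (0 : ℝ)] with s hs
      exact (hconst s hs).symm
    exact tendsto_nhds_unique h2 hlim
  have := hconst s hs
  rw [hH1] at this
  simp only [hH] at this
  linarith

/-- Case `s₁ ≥ s₂`, `s₁ > 0` of the dual inequality. -/
lemma geeD_add_le_aux {a b c e u v : ℝ} (ha : 0 ≤ a) (hb : 0 ≤ b) (hc : 0 ≤ c) (he : 0 ≤ e)
    (hu : 0 < u) (hv : 0 < v) (hs1 : 0 < a / u - b) (hs12 : c / v - e ≤ a / u - b) :
    geeD a b c e u + geeD c e a b v ≤ Real.log (1 + u + v) := by
  set s := a / u - b with hs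
  have hsb : s + b = a / u := by rw [hs]; ring
  have hau : 0 < a / u := by rw [← hsb]; linarith
  have ha' : 0 < a := by
    by_contra hh
    have : a = 0 := le_antisymm (not_lt.1 hh) ha
    rw [this] at hau
    simp at hau
  have hcurve := geeD_add_curve (s := s) ha hb hc he hs1
  have hu_eq : a / (s + b) = u := by rw [hsb]; field_simp
  rw [hu_eq] at hcurve
  have hse : 0 < s + e := by linarith
  set v' := c / (s + e) with hv'
  have hv'0 : 0 ≤ v' := div_nonneg hc hse.le
  have hvv : v' ≤ v := by
    rw [hv', div_le_iff₀ hse]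
    have : c / v ≤ s + e := by linarith
    rw [div_le_iff₀ hv] at this
    linarith
  have hmain := geeD_sub_le (a := a) (b := b) (c := c) (e := e) (u := u) (v := v) (v' := v')
    ha hb hc he hu.le hv'0 hvv ?_
  · linarith
  · intro τ hτ1 hτ2
    have hτ0 : 0 < τ := lt_of_le_of_lt hv'0 hτ1
    have hpos : 0 < 1 + u + τ := by linarith
    unfold phiD
    split_ifs with h
    · have hX : 0 < c / τ - e := by linarith
      have hXb : 0 < c / τ - e + b := by linarith
      have hle : c / τ - e + b ≤ a / u := by
        have : c / τ ≤ s + e := by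
          rw [div_le_iff₀ hτ0]
          rw [hv', div_lt_iff₀ hse] at hτ1
          linarith
        rw [← hsb]; linarith
      have hle2 : u ≤ a / (c / τ - e + b) := by
        rw [le_div_iff₀ hXb]
        rw [le_div_iff₀ hu] at hle
        linarith
      apply one_div_le_one_div_of_le hpos
      linarith
    · positivity

/-- Case `s₁ ≤ 0`, `s₂ ≤ 0` of the dual inequality. -/
lemma geeD_add_le_case3 {a b c e u v : ℝ} (ha : 0 ≤ a) (hb : 0 ≤ b) (hc : 0 ≤ c) (he : 0 ≤ e)
    (hu : 0 < u) (hv : 0 < v) (hs1 : a / u - b ≤ 0) (hs2 : c / v - e ≤ 0) :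
    geeD a b c e u + geeD c e a b v ≤ Real.log (1 + u + v) := by
  rcases ha.eq_or_lt with rfl | ha'
  · -- `a = 0`: the first function vanishes
    have h0 : geeD 0 b c e u = 0 := by
      unfold geeD
      apply intervalIntegral.integral_zero_ae
      filter_upwards with τ _
      simp [phiD, hb.not_gt]
    rw [h0, zero_add]
    refine (geeD_le_log (a := 0) (b := b) le_rfl hb hc he hv.le).trans ?_
    apply Real.log_le_log (by linarith) (by linarith)
  · have hb' : 0 < b := by
      have := div_pos ha' hu
      linarith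
    -- vanishing beyond `a / b`
    have hab : 0 < a / b := div_pos ha' hb'
    have hub : a / b ≤ u := by
      rw [div_le_iff₀ hb']
      have : a / u ≤ b := by linarith
      rw [div_le_iff₀ hu] at this
      linarith
    have hzero : ∀ τ, a / b ≤ τ → phiD a b c e τ = 0 := by
      intro τ hτ
      have hτ0 : 0 < τ := lt_of_lt_of_le hab hτ
      unfold phiD
      rw [if_neg]
      rw [not_lt, div_le_iff₀ hτ0]
      rw [div_le_iff₀ hb'] at hτ
      linarith
    have hgu : geeD a b c e u = geeD a b c e (a / b) := by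
      have h1 : geeD a b c e u - geeD a b c e (a / b) = ∫ τ in (a / b)..u, phiD a b c e τ := by
        unfold geeD
        rw [intervalIntegral.integral_interval_sub_left
          (phiD_intervalIntegrable ha hb hc he le_rfl hu.le)
          (phiD_intervalIntegrable ha hb hc he le_rfl hab.le)]
      have h2 : ∫ τ in (a / b)..u, phiD a b c e τ = 0 := by
        rw [intervalIntegral.integral_of_le hub]
        apply MeasureTheory.setIntegral_eq_zero_of_forall_eq_zero
        intro τ hτ
        exact hzero τ hτ.1.le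
      linarith
    -- approximate from inside
    apply le_of_forall_pos_le_add
    intro ε hε
    set s : ℝ := ε * b ^ 2 / a with hsdef
    have hs : 0 < s := by positivity
    have hsb : 0 < s + b := by linarith
    set u' := a / (s + b) with hu'def
    have hu'pos : 0 < u' := div_pos ha' hsb
    have hu'le : u' ≤ a / b := by
      apply div_le_div_of_nonneg_left ha'.le hb'
      linarith
    have hu'u : u' ≤ u := hu'le.trans hub
    have hgap : a / b - u' ≤ ε := by
      have h1 : a / b - u' = a * s / (b * (s + b)) := by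
        rw [hu'def]
        field_simp
        ring
      rw [h1, div_le_iff₀ (by positivity)]
      have h2 : a * s = ε * b ^ 2 := by
        rw [hsdef]; field_simp
      rw [h2]
      have : 0 ≤ ε * b * s := by positivity
      nlinarith
    have hstep : geeD a b c e (a / b) - geeD a b c e u' ≤ a / b - u' := by
      have h1 : geeD a b c e (a / b) - geeD a b c e u' = ∫ τ in u'..(a / b), phiD a b c e τ := by
        unfold geeD
        rw [intervalIntegral.integral_interval_sub_left
          (phiD_intervalIntegrable ha hb hc he le_rfl hab.le)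
          (phiD_intervalIntegrable ha hb hc he le_rfl hu'pos.le)]
      have h2 : ∫ τ in u'..(a / b), phiD a b c e τ ≤ ∫ τ in u'..(a / b), (1 : ℝ) := by
        apply intervalIntegral.integral_mono_on_of_le_Ioo hu'le
          (phiD_intervalIntegrable ha hb hc he hu'pos.le hab.le) (by simp)
        intro τ hτ
        exact phiD_le_one ha hb hc he (hu'pos.trans hτ.1)
      rw [h1]
      simpa using h2
    have hs1' : a / u' - b = s := by
      rw [hu'def]
      field_simp
      ring
    have hmain : geeD a b c e u' + geeD c e a b v ≤ Real.log (1 + u' + v) := by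
      apply geeD_add_le_aux ha hb hc he hu'pos hv
      · rw [hs1']; exact hs
      · rw [hs1']; linarith
    have hlog : Real.log (1 + u' + v) ≤ Real.log (1 + u + v) :=
      Real.log_le_log (by linarith) (by linarith)
    linarith

/-- Dual inequality. -/
theorem geeD_add_le {a b c e u v : ℝ} (ha : 0 ≤ a) (hb : 0 ≤ b) (hc : 0 ≤ c) (he : 0 ≤ e)
    (hu : 0 ≤ u) (hv : 0 ≤ v) :
    geeD a b c e u + geeD c e a b v ≤ Real.log (1 + u + v) := by
  rcases hu.eq_or_lt with rfl | hu'
  · have := geeD_le_log (a := a) (b := b) (c := c) (e := e) (v := v) ha hb hc he hv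
    simpa [geeD_zero] using this
  rcases hv.eq_or_lt with rfl | hv'
  · have := geeD_le_log (a := c) (b := e) (c := a) (e := b) (v := u) hc he ha hb hu
    simpa [geeD_zero] using this
  -- main cases
  by_cases hs1 : 0 < a / u - b
  · by_cases hs12 : c / v - e ≤ a / u - b
    · exact geeD_add_le_aux ha hb hc he hu' hv' hs1 hs12
    · push Not at hs12
      have := geeD_add_le_aux hc he ha hb hv' hu' (by linarith) hs12.le
      have h3 : 1 + v + u = 1 + u + v := by ring
      rw [h3] at this
      linarith
  by_cases hs2 : 0 < c / v - e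
  · push Not at hs1
    have := geeD_add_le_aux hc he ha hb hv' hu' hs2 (by linarith)
    have h3 : 1 + v + u = 1 + u + v := by ring
    rw [h3] at this
    linarith
  push Not at hs1 hs2
  -- both nonpositive
  exact geeD_add_le_case3 ha hb hc he hu' hv' hs1 hs2

end Crest.Agent.GADLib
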