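import Crest.Agent.Lib.GAD.Jensen
import Crest.Prelude.Def_QChannel

set_option autoImplicit false
set_option linter.unusedSectionVars false

namespace Crest.Agent.GADLib

open Matrix Finset Crest.Quantum
open scoped ComplexOrder Kronecker

variable {n m e : Type*} [Fintype n] [DecidableEq n] [Fintype m] [DecidableEq m]
  [Fintype e] [DecidableEq e]

theorem vnEntropy_eq_sum {M : Matrix n n ℂ} (hM : M.IsHermitian) :
    vnEntropy M = ∑ i, Real.negMulLog (hM.eigenvalues i) := by
  unfold vnEntropy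
  rw [dif_pos hM, ← Finset.sum_neg_distrib]
  refine Finset.sum_congr rfl fun i _ => ?_
  simp [Real.negMulLog]

/-- The eigenvalue sum through the roots of the characteristic polynomial. -/
private lemma sum_eigenvalues_eq_roots {M : Matrix n n ℂ} (hM : M.IsHermitian) (f : ℝ → ℝ) :
    ∑ i, f (hM.eigenvalues i) = (M.charpoly.roots.map fun z => f z.re).sum := by
  rw [hM.roots_charpoly_eq_eigenvalues, Multiset.map_map]
  show (univ.val.map fun i => f (hM.eigenvalues i)).sum = _
  congr 1

/-- Sums over the eigenvalues depend only on the characteristic polynomial. -/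
theorem sum_eigenvalues_congr {M : Matrix n n ℂ} {N : Matrix m m ℂ} (hM : M.IsHermitian)
    (hN : N.IsHermitian) (h : M.charpoly = N.charpoly) (f : ℝ → ℝ) :
    ∑ i, f (hM.eigenvalues i) = ∑ j, f (hN.eigenvalues j) := by
  rw [sum_eigenvalues_eq_roots, sum_eigenvalues_eq_roots, h]

/-- Eigenvalues read off from a unitary diagonalisation. -/
theorem sum_eigenvalues_of_diag {M U : Matrix n n ℂ} (hM : M.IsHermitian) (hU : IsUni U)
    (d : n → ℝ) (hMU : M = U * diagonal (fun i => (d i : ℂ)) * star U) (f : ℝ → ℝ) :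
    ∑ i, f (hM.eigenvalues i) = ∑ i, f (d i) := by
  have hchar : M.charpoly = ∏ i, (Polynomial.X - Polynomial.C (d i : ℂ)) := by
    rw [hMU, charpoly_mul_comm, ← Matrix.mul_assoc, hU.star_mul, Matrix.one_mul, charpoly_diagonal]
  have hroots : (∏ i, (Polynomial.X - Polynomial.C (d i : ℂ))).roots =
      Multiset.map (fun i => (d i : ℂ)) univ.val := by
    rw [Polynomial.roots_prod]
    · simp
    · simp [Finset.prod_ne_zero_iff, Polynomial.X_sub_C_ne_zero]
  rw [sum_eigenvalues_eq_roots, hchar, hroots, Multiset.map_map]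
  show _ = (univ.val.map fun i => f (d i)).sum
  congr 1

theorem vnEntropy_submatrix_equiv (E : m ≃ n) (M : Matrix n n ℂ) :
    vnEntropy (M.submatrix E E) = vnEntropy M := by
  by_cases hM : M.IsHermitian
  · have hN : (M.submatrix E E).IsHermitian := hM.submatrix E
    rw [vnEntropy_eq_sum hM, vnEntropy_eq_sum hN]
    refine sum_eigenvalues_congr hN hM ?_ _
    have := charpoly_reindex E.symm M
    simpa [reindex_apply] using this
  · have hN : ¬ (M.submatrix E E).IsHermitian := by
      intro h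
      apply hM
      have := h.submatrix E.symm
      simpa using this
    simp [vnEntropy, hM, hN]

/-- Entropy minus the entropy of the total weight: `(Tr Z) S(Z / Tr Z)`. -/
noncomputable def condS (Z : Matrix n n ℂ) : ℝ := vnEntropy Z - Real.negMulLog Z.trace.re

private lemma trace_re_eq_sum {Z : Matrix n n ℂ} (hZ : Z.IsHermitian) :
    Z.trace.re = ∑ i, hZ.eigenvalues i := by
  rw [hZ.trace_eq_sum_eigenvalues]
  simp

theorem condS_smul {Z : Matrix n n ℂ} (hZ : Z.PosSemidef) {t : ℝ} (ht : 0 ≤ t) :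
    condS ((t : ℂ) • Z) = t * condS Z := by
  have hH := hZ.isHermitian
  have hH' : ((t : ℂ) • Z).IsHermitian := by
    have := (hZ.smul (α := ℝ) ht).isHermitian
    simpa using this
  have hdiag : (t : ℂ) • Z = evU hH * diagonal (fun i => ((t * hH.eigenvalues i : ℝ) : ℂ)) *
      star (evU hH) := by
    conv_lhs => rw [spectral hH]
    have : diagonal (fun i => ((t * hH.eigenvalues i : ℝ) : ℂ)) =
        (t : ℂ) • diagonal (fun i => (hH.eigenvalues i : ℂ)) := by
      ext i j
      by_cases h : i = j <;> simp [h]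
    rw [this, Matrix.mul_smul, Matrix.smul_mul]
  unfold condS
  rw [vnEntropy_eq_sum hH', vnEntropy_eq_sum hH,
    sum_eigenvalues_of_diag hH' (isUni_evU hH) _ hdiag]
  simp only [trace_smul, smul_eq_mul, Complex.mul_re, Complex.ofReal_re, Complex.ofReal_im,
    zero_mul, sub_zero]
  rw [Real.negMulLog_mul, trace_re_eq_sum hH]
  simp only [Real.negMulLog_mul, Finset.sum_add_distrib, ← Finset.sum_mul, ← Finset.mul_sum]
  ring

private lemma qf_column_trace {Z W : Matrix n n ℂ} (hW : IsUni W) :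
    ∑ l, qf Z (W *ᵥ Pi.single l 1) = Z.trace.re := by
  have h1 : ∀ l, qf Z (W *ᵥ Pi.single l 1) = ((star W * Z * W) l l).re := by
    intro l
    rw [star_eq_conjTranspose, ← qf_conj]
    simp [qf, dotProduct, Pi.single_apply]
  simp only [h1]
  rw [← Complex.re_sum]
  have : ∑ l, (star W * Z * W) l l = (star W * Z * W).trace := rfl
  rw [this, Matrix.trace_mul_comm, ← Matrix.mul_assoc, hW.mul_star, Matrix.one_mul]

/-- Log-sum inequality in the form needed for concavity. -/
private lemma logsum {z₁ z₂ w₁ w₂ : ℝ} (h₁ : 0 ≤ z₁) (h₂ : 0 ≤ z₂) (hw₁ : 0 < w₁) (hw₂ : 0 < w₂)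
    (hw : w₁ + w₂ = 1) :
    Real.negMulLog z₁ + Real.negMulLog z₂ + z₁ * Real.log w₁ + z₂ * Real.log w₂ ≤
      Real.negMulLog (z₁ + z₂) := by
  rcases eq_or_lt_of_le h₁ with h₁' | h₁'
  · subst h₁'
    simp only [Real.negMulLog_zero, zero_add, zero_mul]
    have : z₂ * Real.log w₂ ≤ 0 :=
      mul_nonpos_of_nonneg_of_nonpos h₂ (Real.log_nonpos hw₂.le (by linarith))
    linarith
  rcases eq_or_lt_of_le h₂ with h₂' | h₂'
  · subst h₂'
    simp only [Real.negMulLog_zero, add_zero, zero_mul]
    have : z₁ * Real.log w₁ ≤ 0 :=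
      mul_nonpos_of_nonneg_of_nonpos h₁ (Real.log_nonpos hw₁.le (by linarith))
    linarith
  have hy : 0 < z₁ + z₂ := by linarith
  have key : ∀ z w : ℝ, 0 < z → 0 < w →
      z * (Real.log w + Real.log (z₁ + z₂) - Real.log z) ≤ w * (z₁ + z₂) - z := by
    intro z w hz hw
    have hlog : Real.log (w * (z₁ + z₂) / z) ≤ w * (z₁ + z₂) / z - 1 :=
      Real.log_le_sub_one_of_pos (by positivity)
    rw [Real.log_div (by positivity) hz.ne', Real.log_mul hw.ne' hy.ne'] at hlog
    have := mul_le_mul_of_nonneg_left hlog hz.le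
    have e : z * (w * (z₁ + z₂) / z - 1) = w * (z₁ + z₂) - z := by field_simp
    rw [e] at this
    linarith
  have k1 := key z₁ w₁ h₁' hw₁
  have k2 := key z₂ w₂ h₂' hw₂
  simp only [Real.negMulLog]
  have e : w₁ * (z₁ + z₂) - z₁ + (w₂ * (z₁ + z₂) - z₂) = (w₁ + w₂ - 1) * (z₁ + z₂) := by ring
  rw [hw] at e
  nlinarith

private lemma condS_zero : condS (0 : Matrix n n ℂ) = 0 := by
  have h0 : (0 : Matrix n n ℂ).IsHermitian := Matrix.isHermitian_zero
  have h1 : h0.eigenvalues = 0 := h0.eigenvalues_eq_zero_iff.mpr rfl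
  unfold condS
  rw [vnEntropy_eq_sum h0, h1]
  simp

/-- Concavity of the entropy, in additive form. -/
theorem condS_add {Z₁ Z₂ : Matrix n n ℂ} (h₁ : Z₁.PosSemidef) (h₂ : Z₂.PosSemidef) :
    condS Z₁ + condS Z₂ ≤ condS (Z₁ + Z₂) := by
  by_cases hT₁ : Z₁.trace = 0
  · have : Z₁ = 0 := (h₁.trace_eq_zero_iff).mp hT₁
    subst this
    simp [condS_zero]
  by_cases hT₂ : Z₂.trace = 0
  · have : Z₂ = 0 := (h₂.trace_eq_zero_iff).mp hT₂
    subst this
    simp [condS_zero]
  have hYpsd := h₁.add h₂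
  have hY := hYpsd.isHermitian
  set W := evU hY with hWdef
  have hW : IsUni W := isUni_evU hY
  have hz₁ : ∀ l, 0 ≤ qf Z₁ (W *ᵥ Pi.single l 1) := fun l => qf_nonneg h₁ _
  have hz₂ : ∀ l, 0 ≤ qf Z₂ (W *ᵥ Pi.single l 1) := fun l => qf_nonneg h₂ _
  have hy : ∀ l, hY.eigenvalues l =
      qf Z₁ (W *ᵥ Pi.single l 1) + qf Z₂ (W *ᵥ Pi.single l 1) := by
    intro l
    rw [← qf_column_self hY l, qf_add]
  set T₁ := Z₁.trace.re with hT₁def
  set T₂ := Z₂.trace.re with hT₂def
  have hT₁pos : 0 < T₁ := by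
    have h0 : 0 ≤ T₁ := by rw [hT₁def, trace_re_eq_sum h₁.isHermitian]; exact Finset.sum_nonneg fun i _ => h₁.eigenvalues_nonneg i
    refine lt_of_le_of_ne h0 fun h => hT₁ ?_
    have := h₁.trace_eq_zero_iff
    apply Complex.ext
    · simpa using h.symm
    · have h3 := h₁.isHermitian.trace_eq_sum_eigenvalues
      rw [h3]; simp
  have hT₂pos : 0 < T₂ := by
    have h0 : 0 ≤ T₂ := by rw [hT₂def, trace_re_eq_sum h₂.isHermitian]; exact Finset.sum_nonneg fun i _ => h₂.eigenvalues_nonneg i
    refine lt_of_le_of_ne h0 fun h => hT₂ ?_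
    apply Complex.ext
    · simpa using h.symm
    · have h3 := h₂.isHermitian.trace_eq_sum_eigenvalues
      rw [h3]; simp
  have hT : (Z₁ + Z₂).trace.re = T₁ + T₂ := by simp [Matrix.trace_add, hT₁def, hT₂def]
  have hTpos : 0 < T₁ + T₂ := by linarith
  have hS₁ : vnEntropy Z₁ ≤ ∑ l, Real.negMulLog (qf Z₁ (W *ᵥ Pi.single l 1)) := by
    rw [vnEntropy_eq_sum h₁.isHermitian]
    exact sum_concave_le h₁.isHermitian hW Real.concaveOn_negMulLog (fun i => h₁.eigenvalues_nonneg i)
  have hS₂ : vnEntropy Z₂ ≤ ∑ l, Real.negMulLog (qf Z₂ (W *ᵥ Pi.single l 1)) := by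
    rw [vnEntropy_eq_sum h₂.isHermitian]
    exact sum_concave_le h₂.isHermitian hW Real.concaveOn_negMulLog (fun i => h₂.eigenvalues_nonneg i)
  set w₁ := T₁ / (T₁ + T₂) with hw₁
  set w₂ := T₂ / (T₁ + T₂) with hw₂
  have hw₁pos : 0 < w₁ := by positivity
  have hw₂pos : 0 < w₂ := by positivity
  have hw : w₁ + w₂ = 1 := by rw [hw₁, hw₂]; field_simp
  have hpt := fun l => logsum (hz₁ l) (hz₂ l) hw₁pos hw₂pos hw
  have hsum := Finset.sum_le_sum (s := univ) fun l _ => hpt l
  simp only [Finset.sum_add_distrib, ← Finset.sum_mul, ← hy] at hsum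
  rw [← vnEntropy_eq_sum hY, qf_column_trace hW, qf_column_trace hW] at hsum
  unfold condS
  rw [hT]
  have hl₁ : Real.log w₁ = Real.log T₁ - Real.log (T₁ + T₂) :=
    Real.log_div hT₁pos.ne' hTpos.ne'
  have hl₂ : Real.log w₂ = Real.log T₂ - Real.log (T₁ + T₂) :=
    Real.log_div hT₂pos.ne' hTpos.ne'
  rw [hl₁, hl₂] at hsum
  have e₁ : Real.negMulLog T₁ = -T₁ * Real.log T₁ := rfl
  have e₂ : Real.negMulLog T₂ = -T₂ * Real.log T₂ := rfl
  have e₃ : Real.negMulLog (T₁ + T₂) = -(T₁ + T₂) * Real.log (T₁ + T₂) := rfl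
  rw [e₁, e₂, e₃]
  have e₄ : T₁ * (Real.log T₁ - Real.log (T₁ + T₂)) + T₂ * (Real.log T₂ - Real.log (T₁ + T₂)) =
      T₁ * Real.log T₁ + T₂ * Real.log T₂ - (T₁ + T₂) * Real.log (T₁ + T₂) := by ring
  linarith

/-- The block-diagonal unitary on a qubit index. -/
private noncomputable def blockUni (U : Bool → Matrix e e ℂ) : Matrix (Bool × e) (Bool × e) ℂ :=
  Matrix.of fun p q => if p.1 = q.1 then U q.1 p.2 q.2 else 0

private lemma blockUni_star_mul {U : Bool → Matrix e e ℂ} (hU : ∀ b, IsUni (U b)) :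
    star (blockUni U) * blockUni U = 1 := by
  ext ⟨b, i⟩ ⟨c, j⟩
  have h := fun b => congrFun (congrFun (hU b).star_mul i) j
  simp only [mul_apply, star_apply, RCLike.star_def, one_apply] at h
  simp only [mul_apply, star_apply, blockUni, of_apply, Fintype.sum_prod_type, Fintype.sum_bool]
  cases b <;> cases c <;> simp [one_apply, h]

private lemma blockUni_mul_star {U : Bool → Matrix e e ℂ} (hU : ∀ b, IsUni (U b)) :
    blockUni U * star (blockUni U) = 1 := by
  ext ⟨b, i⟩ ⟨c, j⟩
  have h := fun b => congrFun (congrFun (hU b).mul_star i) j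
  simp only [mul_apply, star_apply, RCLike.star_def, one_apply] at h
  simp only [mul_apply, star_apply, blockUni, of_apply, Fintype.sum_prod_type, Fintype.sum_bool]
  cases b <;> cases c <;> simp [one_apply, h]

private lemma qf_blockUni (O : Matrix (Bool × e) (Bool × e) ℂ) (U : Bool → Matrix e e ℂ)
    (c : Bool) (j : e) :
    qf O (blockUni U *ᵥ Pi.single (c, j) 1) = qf (block O c c) (U c *ᵥ Pi.single j 1) := by
  have h1 : blockUni U *ᵥ Pi.single (c, j) 1 = fun p => if p.1 = c then U c p.2 j else 0 := by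
    rw [mulVec_single_one]; rfl
  have h2 : U c *ᵥ Pi.single j 1 = fun i => U c i j := by
    rw [mulVec_single_one]; rfl
  rw [h1, h2]
  simp only [qf, dotProduct, mulVec, Pi.star_apply, block, of_apply, Fintype.sum_prod_type,
    Fintype.sum_bool]
  cases c <;> simp

/-- The diagonal blocks of a positive semidefinite matrix are positive semidefinite. -/
theorem block_posSemidef {O : Matrix (Bool × e) (Bool × e) ℂ} (hO : O.PosSemidef) (b : Bool) :
    (block O b b).PosSemidef := by
  have := hO.submatrix (fun i : e => (b, i))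
  exact this

/-- Pinching to the diagonal blocks of a qubit index raises the entropy. -/
theorem vnEntropy_le_blocks {O : Matrix (Bool × e) (Bool × e) ℂ} (hO : O.PosSemidef) :
    vnEntropy O ≤ vnEntropy (block O false false) + vnEntropy (block O true true) := by
  have hb : ∀ b, (block O b b).IsHermitian := fun b => (block_posSemidef hO b).isHermitian
  let U : Bool → Matrix e e ℂ := fun b => evU (hb b)
  have hU : ∀ b, IsUni (U b) := fun b => isUni_evU (hb b)
  have hW : IsUni (blockUni U) := ⟨blockUni_star_mul hU, blockUni_mul_star hU⟩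
  have hle := sum_concave_le hO.isHermitian hW Real.concaveOn_negMulLog
    (fun i => hO.eigenvalues_nonneg i)
  rw [vnEntropy_eq_sum hO.isHermitian, vnEntropy_eq_sum (hb false), vnEntropy_eq_sum (hb true)]
  refine hle.trans (le_of_eq ?_)
  have key : ∀ c j, qf O (blockUni U *ᵥ Pi.single (c, j) 1) = (hb c).eigenvalues j := by
    intro c j
    rw [qf_blockUni]
    exact qf_column_self (hb c) j
  rw [Fintype.sum_prod_type, Fintype.sum_bool]
  simp only [key]
  ring

/-- Additivity of the entropy on tensor products of density matrices, on a qubit index. -/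
theorem vnEntropy_kronecker {X : Matrix Bool Bool ℂ} {Y : Matrix e e ℂ} (hX : IsDensity X)
    (hY : IsDensity Y) : vnEntropy (X ⊗ₖ Y) = vnEntropy X + vnEntropy Y := by
  have hXH := hX.1.isHermitian
  have hYH := hY.1.isHermitian
  have hK : (X ⊗ₖ Y).IsHermitian := (hX.1.kronecker hY.1).isHermitian
  have hstar : star (evU hXH ⊗ₖ evU hYH) = star (evU hXH) ⊗ₖ star (evU hYH) := by
    simp [star_eq_conjTranspose, conjTranspose_kronecker]
  have huni : IsUni (evU hXH ⊗ₖ evU hYH) := by
    constructor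
    · rw [hstar, ← mul_kronecker_mul, evU_star_mul, evU_star_mul, one_kronecker_one]
    · rw [hstar, ← mul_kronecker_mul, evU_mul_star, evU_mul_star, one_kronecker_one]
  have hd : X ⊗ₖ Y = (evU hXH ⊗ₖ evU hYH) *
      diagonal (fun p : Bool × e => ((hXH.eigenvalues p.1 * hYH.eigenvalues p.2 : ℝ) : ℂ)) *
      star (evU hXH ⊗ₖ evU hYH) := by
    have hdiag : diagonal (fun p : Bool × e => ((hXH.eigenvalues p.1 * hYH.eigenvalues p.2 : ℝ) : ℂ))
        = diagonal (fun i => (hXH.eigenvalues i : ℂ)) ⊗ₖ diagonal (fun j => (hYH.eigenvalues j : ℂ)) := by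
      rw [diagonal_kronecker_diagonal]
      congr 1
      funext p
      simp
    conv_lhs => rw [spectral hXH, spectral hYH]
    rw [hstar, hdiag, ← mul_kronecker_mul, ← mul_kronecker_mul]
  rw [vnEntropy_eq_sum hK, vnEntropy_eq_sum hXH, vnEntropy_eq_sum hYH,
    sum_eigenvalues_of_diag hK huni _ hd, Fintype.sum_prod_type]
  simp only [Real.negMulLog_mul, Finset.sum_add_distrib, ← Finset.sum_mul, ← Finset.mul_sum]
  have h1 : ∑ i, hXH.eigenvalues i = 1 := by
    rw [← trace_re_eq_sum hXH, hX.2]; simp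
  have h2 : ∑ i, hYH.eigenvalues i = 1 := by
    rw [← trace_re_eq_sum hYH, hY.2]; simp
  rw [h2, h1]
  ring

/-- The entropy of a qubit density matrix through its determinant. -/
theorem vnEntropy_qubit {X : Matrix Bool Bool ℂ} (hX : IsDensity X) :
    vnEntropy X = Real.binEntropy ((1 + Real.sqrt (1 - 4 * X.det.re)) / 2) := by
  have hH := hX.1.isHermitian
  have hsum : hH.eigenvalues false + hH.eigenvalues true = 1 := by
    have := trace_re_eq_sum hH
    rw [hX.2, Fintype.sum_bool] at this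
    simp at this
    linarith
  have hdet : X.det.re = hH.eigenvalues false * hH.eigenvalues true := by
    rw [hH.det_eq_prod_eigenvalues, Fintype.prod_bool]
    simp [mul_comm]
  set a := hH.eigenvalues false with ha
  set b := hH.eigenvalues true with hb
  have hb' : b = 1 - a := by linarith
  have hsq : 1 - 4 * X.det.re = (a - b) ^ 2 := by
    rw [hdet, hb']; ring
  rw [hsq, Real.sqrt_sq_eq_abs, vnEntropy_eq_sum hH, Fintype.sum_bool, ← ha, ← hb]
  rcases le_total b a with hle | hle
  · rw [abs_of_nonneg (by linarith)]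
    have e : (1 + (a - b)) / 2 = a := by rw [hb']; ring
    rw [e, Real.binEntropy_eq_negMulLog_add_negMulLog_one_sub, ← hb', add_comm]
  · rw [abs_of_nonpos (by linarith)]
    have e : (1 + -(a - b)) / 2 = b := by rw [hb']; ring
    have e2 : 1 - b = a := by linarith
    rw [e, Real.binEntropy_eq_negMulLog_add_negMulLog_one_sub, e2]

/-- The entropy of a diagonal matrix. -/
theorem vnEntropy_diagonal (d : n → ℝ) :
    vnEntropy (diagonal fun i => (d i : ℂ)) = ∑ i, Real.negMulLog (d i) := by
  have hH : (diagonal fun i => (d i : ℂ)).IsHermitian := by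
    rw [Matrix.IsHermitian, diagonal_conjTranspose]
    congr 1
    funext i
    simp
  rw [vnEntropy_eq_sum hH]
  have hone : IsUni (1 : Matrix n n ℂ) := ⟨by simp, by simp⟩
  exact sum_eigenvalues_of_diag hH hone d (by simp) _

end Crest.Agent.GADLib
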