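import Mathlib

/-!
The integral representation of `y - y log y`.
-/

set_option autoImplicit false

namespace Crest.Agent.GADLib

open MeasureTheory Set Filter Topology

lemma hasDerivAt_F1 {y s : ℝ} (hy : 0 < y) (hs : 0 < s) :
    HasDerivAt (fun s => s * Real.log (s + y) - s * Real.log s)
      (Real.log (1 + y / s) - y / (y + s)) s := by
  have hsy : 0 < s + y := by linarith
  have h1 : HasDerivAt (fun s => s * Real.log (s + y))
      (1 * Real.log (s + y) + s * (1 / (s + y))) s := by
    have := ((hasDerivAt_id s).add_const y).log hsy.ne'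
    exact (hasDerivAt_id s).mul (by simpa using this)
  have h2 : HasDerivAt (fun s => s * Real.log s) (1 * Real.log s + s * (1 / s)) s := by
    have := (hasDerivAt_id s).log hs.ne'
    exact (hasDerivAt_id s).mul (by simpa using this)
  refine (h1.sub h2).congr_deriv ?_
  have h3 : 1 + y / s = (s + y) / s := by field_simp
  rw [h3, Real.log_div hsy.ne' hs.ne']
  field_simp
  ring

lemma first_nonneg {y s : ℝ} (hy : 0 < y) (hs : 0 < s) :
    0 ≤ Real.log (1 + y / s) - y / (y + s) := by
  have h1 : 0 < 1 + y / s := by positivity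
  have := Real.one_sub_inv_le_log_of_pos h1
  have h3 : 1 - (1 + y / s)⁻¹ = y / (y + s) := by
    field_simp
    ring
  linarith

lemma tendsto_F1 (y : ℝ) (hy : 0 < y) :
    Tendsto (fun s => s * Real.log (s + y) - s * Real.log s) atTop (𝓝 y) := by
  have h := Real.tendsto_mul_log_one_add_div_atTop y
  refine h.congr' ?_
  filter_upwards [eventually_gt_atTop 0] with s hs
  have hsy : 0 < s + y := by linarith
  have h3 : 1 + y / s = (s + y) / s := by field_simp
  rw [h3, Real.log_div hsy.ne' hs.ne']
  ring

lemma continuous_F1 (y : ℝ) (hy : 0 < y) :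
    ContinuousWithinAt (fun s => s * Real.log (s + y) - s * Real.log s) (Ici 0) 0 := by
  refine ContinuousWithinAt.sub ?_ Real.continuous_mul_log.continuousWithinAt
  refine ContinuousWithinAt.mul continuousWithinAt_id ?_
  refine ContinuousAt.continuousWithinAt ?_
  refine ContinuousAt.log (continuousAt_id.add continuousAt_const) ?_
  simpa using hy.ne'

lemma integrableOn_first {y : ℝ} (hy : 0 < y) :
    IntegrableOn (fun s => Real.log (1 + y / s) - y / (y + s)) (Ioi 0) :=
  integrableOn_Ioi_deriv_of_nonneg (continuous_F1 y hy) (fun _ hs => hasDerivAt_F1 hy hs)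
    (fun _ hs => first_nonneg hy hs) (tendsto_F1 y hy)

lemma integral_first {y : ℝ} (hy : 0 < y) :
    ∫ s in Ioi (0 : ℝ), (Real.log (1 + y / s) - y / (y + s)) = y := by
  have := integral_Ioi_of_hasDerivAt_of_tendsto (continuous_F1 y hy)
    (fun _ hs => hasDerivAt_F1 hy hs) (integrableOn_first hy) (tendsto_F1 y hy)
  rw [this]
  simp

lemma hasDerivAt_F2 {y s : ℝ} (hy : 0 < y) (hs : 0 < s) :
    HasDerivAt (fun s => y * Real.log (s + y) - y * Real.log (1 + s))
      (y / (y + s) - y / (1 + s)) s := by
  have hsy : 0 < s + y := by linarith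
  have hs1 : 0 < 1 + s := by linarith
  have h1 : HasDerivAt (fun s => y * Real.log (s + y)) (y * (1 / (s + y))) s := by
    have := ((hasDerivAt_id s).add_const y).log hsy.ne'
    exact (by simpa using this : HasDerivAt (fun s => Real.log (s + y)) (1 / (s + y)) s).const_mul y
  have h2 : HasDerivAt (fun s => y * Real.log (1 + s)) (y * (1 / (1 + s))) s := by
    have := ((hasDerivAt_id s).const_add 1).log hs1.ne'
    exact (by simpa using this : HasDerivAt (fun s => Real.log (1 + s)) (1 / (1 + s)) s).const_mul y
  refine (h1.sub h2).congr_deriv ?_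
  rw [add_comm y s]
  ring

lemma tendsto_F2 (y : ℝ) (hy : 0 < y) :
    Tendsto (fun s => y * Real.log (s + y) - y * Real.log (1 + s)) atTop (𝓝 0) := by
  have hlim : Tendsto (fun s : ℝ => (s + y) / (1 + s)) atTop (𝓝 1) := by
    have h1 : Tendsto (fun s : ℝ => 1 + (y - 1) * (1 + s)⁻¹) atTop (𝓝 (1 + (y - 1) * 0)) := by
      refine Tendsto.add tendsto_const_nhds (Tendsto.mul tendsto_const_nhds ?_)
      exact tendsto_inv_atTop_zero.comp (tendsto_atTop_add_const_left _ _ tendsto_id)
    simp only [mul_zero, add_zero] at h1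
    refine h1.congr' ?_
    filter_upwards [eventually_gt_atTop 0] with s hs
    have : 1 + s ≠ 0 := by positivity
    field_simp
    ring
  have h2 : Tendsto (fun s : ℝ => y * Real.log ((s + y) / (1 + s))) atTop (𝓝 (y * Real.log 1)) :=
    (Tendsto.log hlim one_ne_zero).const_mul y
  simp only [Real.log_one, mul_zero] at h2
  refine h2.congr' ?_
  filter_upwards [eventually_gt_atTop 0] with s hs
  have hsy : 0 < s + y := by linarith
  have hs1 : 0 < 1 + s := by linarith
  rw [Real.log_div hsy.ne' hs1.ne']
  ring

lemma continuous_F2 (y : ℝ) (hy : 0 < y) :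
    ContinuousWithinAt (fun s => y * Real.log (s + y) - y * Real.log (1 + s)) (Ici 0) 0 := by
  refine ContinuousAt.continuousWithinAt ?_
  refine ContinuousAt.sub (ContinuousAt.mul continuousAt_const ?_)
    (ContinuousAt.mul continuousAt_const ?_)
  · refine ContinuousAt.log (continuousAt_id.add continuousAt_const) ?_
    simpa using hy.ne'
  · refine ContinuousAt.log (continuousAt_const.add continuousAt_id) ?_
    simp

lemma integrableOn_second {y : ℝ} (hy : 0 < y) :
    IntegrableOn (fun s => y / (y + s) - y / (1 + s)) (Ioi 0) := by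
  have hsign : ∀ s, 0 < s → y / (y + s) - y / (1 + s) = y * (1 - y) / ((y + s) * (1 + s)) := by
    intro s hs
    have h1 : y + s ≠ 0 := by positivity
    have h2 : 1 + s ≠ 0 := by positivity
    field_simp
    ring
  rcases le_total y 1 with h | h
  · refine integrableOn_Ioi_deriv_of_nonneg (continuous_F2 y hy)
      (fun _ hs => hasDerivAt_F2 hy hs) (fun s hs => ?_) (tendsto_F2 y hy)
    rw [hsign s hs]
    have : 0 < s := hs
    have h3 : 0 ≤ 1 - y := by linarith
    positivity
  · refine integrableOn_Ioi_deriv_of_nonpos (continuous_F2 y hy)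
      (fun _ hs => hasDerivAt_F2 hy hs) (fun s hs => ?_) (tendsto_F2 y hy)
    rw [hsign s hs]
    have : 0 < s := hs
    have h3 : 0 ≤ y - 1 := by linarith
    have : y * (1 - y) / ((y + s) * (1 + s)) = -(y * (y - 1) / ((y + s) * (1 + s))) := by ring
    rw [this]
    have : 0 ≤ y * (y - 1) / ((y + s) * (1 + s)) := by positivity
    linarith

lemma integral_second {y : ℝ} (hy : 0 < y) :
    ∫ s in Ioi (0 : ℝ), (y / (y + s) - y / (1 + s)) = Real.negMulLog y := by
  have := integral_Ioi_of_hasDerivAt_of_tendsto (continuous_F2 y hy)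
    (fun _ hs => hasDerivAt_F2 hy hs) (integrableOn_second hy) (tendsto_F2 y hy)
  rw [this]
  simp [Real.negMulLog]

/-- Integrability of the basic integrand. -/
theorem integrableOn_log_sub {y : ℝ} (hy : 0 ≤ y) :
    IntegrableOn (fun s => Real.log (1 + y / s) - y / (1 + s)) (Ioi 0) := by
  rcases hy.eq_or_lt with rfl | hy
  · simp
  · have := (integrableOn_first hy).add (integrableOn_second hy)
    refine this.congr_fun (fun s _ => ?_) measurableSet_Ioi
    simp only [Pi.add_apply]
    ring

/-- The basic integral. -/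
theorem integral_log_sub {y : ℝ} (hy : 0 ≤ y) :
    ∫ s in Ioi (0 : ℝ), (Real.log (1 + y / s) - y / (1 + s)) = y + Real.negMulLog y := by
  rcases hy.eq_or_lt with rfl | hy
  · simp
  · have h : (fun s => Real.log (1 + y / s) - y / (1 + s)) =
        fun s => (Real.log (1 + y / s) - y / (y + s)) + (y / (y + s) - y / (1 + s)) := by
      funext s
      ring
    rw [h, integral_add (integrableOn_first hy) (integrableOn_second hy), integral_first hy,
      integral_second hy]

end Crest.Agent.GADLib
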