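import Crest.Agent.Lib.GAD.Spec

/-!
Doubly stochastic weights from unitary matrices and the determinant inequalities they give.
-/

set_option autoImplicit false
set_option linter.unusedSectionVars false

namespace Crest.Agent.GADLib

open Matrix Finset
open scoped ComplexOrder

variable {n : Type*} [Fintype n] [DecidableEq n]

/-- A matrix with orthonormal columns and rows. -/
structure IsUni (W : Matrix n n ℂ) : Prop where
  star_mul : star W * W = 1
  mul_star : W * star W = 1

lemma isUni_evU {X : Matrix n n ℂ} (hX : X.IsHermitian) : IsUni (evU hX) :=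
  ⟨evU_star_mul hX, evU_mul_star hX⟩

lemma IsUni.star {W : Matrix n n ℂ} (h : IsUni W) : IsUni (star W) :=
  ⟨by rw [star_star]; exact h.mul_star, by rw [star_star]; exact h.star_mul⟩

lemma IsUni.mul {W V : Matrix n n ℂ} (hW : IsUni W) (hV : IsUni V) : IsUni (W * V) := by
  constructor
  · rw [StarMul.star_mul, Matrix.mul_assoc, ← Matrix.mul_assoc (Star.star W), hW.star_mul,
      Matrix.one_mul, hV.star_mul]
  · rw [StarMul.star_mul, Matrix.mul_assoc, ← Matrix.mul_assoc V, hV.mul_star, Matrix.one_mul,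
      hW.mul_star]

lemma IsUni.sum_row {W : Matrix n n ℂ} (h : IsUni W) (i : n) :
    ∑ l, Complex.normSq (W i l) = 1 := by
  have := congrFun (congrFun h.mul_star i) i
  simp only [mul_apply, star_apply, one_apply_eq] at this
  have h2 : (∑ l, (Complex.normSq (W i l) : ℂ)) = 1 := by
    rw [← this]
    refine Finset.sum_congr rfl fun l _ => ?_
    rw [Complex.normSq_eq_conj_mul_self]
    simp [mul_comm]
  exact_mod_cast h2

lemma IsUni.sum_col {W : Matrix n n ℂ} (h : IsUni W) (l : n) :
    ∑ i, Complex.normSq (W i l) = 1 := by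
  have := congrFun (congrFun h.star_mul l) l
  simp only [mul_apply, star_apply, one_apply_eq] at this
  have h2 : (∑ i, (Complex.normSq (W i l) : ℂ)) = 1 := by
    rw [← this]
    refine Finset.sum_congr rfl fun i _ => ?_
    rw [Complex.normSq_eq_conj_mul_self]
    simp
  exact_mod_cast h2

/-- The weights attached to a Hermitian matrix and a unitary matrix. -/
noncomputable def wt {X : Matrix n n ℂ} (hX : X.IsHermitian) (W : Matrix n n ℂ) (i l : n) : ℝ :=
  Complex.normSq ((star (evU hX) * W) i l)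

lemma wt_nonneg {X : Matrix n n ℂ} (hX : X.IsHermitian) (W : Matrix n n ℂ) (i l : n) :
    0 ≤ wt hX W i l := Complex.normSq_nonneg _

lemma wt_sum_left {X : Matrix n n ℂ} (hX : X.IsHermitian) {W : Matrix n n ℂ} (hW : IsUni W)
    (l : n) : ∑ i, wt hX W i l = 1 :=
  (((isUni_evU hX).star).mul hW).sum_col l

lemma wt_sum_right {X : Matrix n n ℂ} (hX : X.IsHermitian) {W : Matrix n n ℂ} (hW : IsUni W)
    (i : n) : ∑ l, wt hX W i l = 1 :=
  (((isUni_evU hX).star).mul hW).sum_row i

/-- The diagonal of `Wᴴ X W` in terms of the weights. -/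
lemma qf_column {X : Matrix n n ℂ} (hX : X.IsHermitian) (W : Matrix n n ℂ) (l : n) :
    qf X (W *ᵥ Pi.single l 1) = ∑ i, hX.eigenvalues i * wt hX W i l := by
  rw [qf_expand hX]
  refine Finset.sum_congr rfl fun i _ => ?_
  rw [mulVec_mulVec, mulVec_single_one]
  rfl

/-- The eigenvalue as a value of the quadratic form. -/
lemma qf_column_self {X : Matrix n n ℂ} (hX : X.IsHermitian) (l : n) :
    qf X (evU hX *ᵥ Pi.single l 1) = hX.eigenvalues l := by
  rw [qf_expand hX, mulVec_star_evU]
  rw [Finset.sum_eq_single l]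
  · simp
  · intro b _ hb
    simp [hb]
  · simp

/-- Jensen for concave functions: the diagonal in another basis does at least as well. -/
theorem sum_concave_le {X : Matrix n n ℂ} (hX : X.IsHermitian) {W : Matrix n n ℂ} (hW : IsUni W)
    {f : ℝ → ℝ} {S : Set ℝ} (hf : ConcaveOn ℝ S f) (hS : ∀ i, hX.eigenvalues i ∈ S) :
    ∑ i, f (hX.eigenvalues i) ≤ ∑ l, f (qf X (W *ᵥ Pi.single l 1)) := by
  have key : ∀ l, ∑ i, wt hX W i l * f (hX.eigenvalues i) ≤ f (qf X (W *ᵥ Pi.single l 1)) := by
    intro l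
    rw [qf_column hX]
    have := hf.le_map_sum (t := univ) (w := fun i => wt hX W i l)
      (p := fun i => hX.eigenvalues i) (fun i _ => wt_nonneg hX W i l)
      (wt_sum_left hX hW l) (fun i _ => hS i)
    simpa [smul_eq_mul, mul_comm] using this
  calc ∑ i, f (hX.eigenvalues i)
      = ∑ i, ∑ l, wt hX W i l * f (hX.eigenvalues i) := by
        refine Finset.sum_congr rfl fun i _ => ?_
        rw [← Finset.sum_mul, wt_sum_right hX hW i, one_mul]
    _ = ∑ l, ∑ i, wt hX W i l * f (hX.eigenvalues i) := Finset.sum_comm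
    _ ≤ _ := Finset.sum_le_sum fun l _ => key l

lemma posSemidef_eigenvalues_nonneg {X : Matrix n n ℂ} (hX : X.PosSemidef) (i : n) :
    0 ≤ hX.isHermitian.eigenvalues i := hX.eigenvalues_nonneg i

/-- The determinant of a positive semidefinite matrix `1 + Y`, through eigenvalues. -/
lemma log_det_eq_sum {Ω : Matrix n n ℂ} (hΩ : Ω.IsHermitian) (hpos : ∀ i, 0 < hΩ.eigenvalues i) :
    Real.log (Ω.det.re) = ∑ i, Real.log (hΩ.eigenvalues i) := by
  have : Ω.det = ((∏ i, hΩ.eigenvalues i : ℝ) : ℂ) := by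
    rw [hΩ.det_eq_prod_eigenvalues]; simp
  rw [this, Complex.ofReal_re, Real.log_prod]
  intro i _
  exact (hpos i).ne'

/-- The determinant inequality of Fiedler in dual (Kantorovich) form. -/
theorem logdet_ge_sum {U V : Matrix n n ℂ} (hU : U.PosSemidef) (hV : V.PosSemidef)
    {g₁ g₂ : ℝ → ℝ} (h : ∀ u v, 0 ≤ u → 0 ≤ v → g₁ u + g₂ v ≤ Real.log (1 + u + v)) :
    ∑ i, g₁ (hU.isHermitian.eigenvalues i) + ∑ j, g₂ (hV.isHermitian.eigenvalues j) ≤
      Real.log ((1 + U + V).det.re) := by
  classical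
  have hΩpsd : (1 + U + V).PosSemidef := (PosSemidef.one.add hU).add hV
  set hΩ := hΩpsd.isHermitian with hΩdef
  set W := evU hΩ with hW
  have hWu : IsUni W := isUni_evU hΩ
  set hU' := hU.isHermitian with hU'def
  set hV' := hV.isHermitian with hV'def
  -- the diagonal entries
  have hω : ∀ l, hΩ.eigenvalues l =
      1 + ∑ i, hU'.eigenvalues i * wt hU' W i l + ∑ j, hV'.eigenvalues j * wt hV' W j l := by
    intro l
    rw [← qf_column_self hΩ l, qf_add, qf_add, qf_one, qf_column hU', qf_column hV']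
    congr 2
    rw [nsq_expand hΩ, mulVec_star_evU]
    simp [nsq, Finset.sum_eq_single l, Pi.single_apply]
  have hu0 : ∀ i, 0 ≤ hU'.eigenvalues i := fun i => hU.eigenvalues_nonneg i
  have hv0 : ∀ j, 0 ≤ hV'.eigenvalues j := fun j => hV.eigenvalues_nonneg j
  have hωpos : ∀ l, 0 < hΩ.eigenvalues l := by
    intro l
    rw [hω l]
    have h1 : 0 ≤ ∑ i, hU'.eigenvalues i * wt hU' W i l :=
      Finset.sum_nonneg fun i _ => mul_nonneg (hu0 i) (wt_nonneg _ _ _ _)
    have h2 : 0 ≤ ∑ j, hV'.eigenvalues j * wt hV' W j l :=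
      Finset.sum_nonneg fun i _ => mul_nonneg (hv0 i) (wt_nonneg _ _ _ _)
    linarith
  rw [log_det_eq_sum hΩ hωpos]
  -- pointwise Jensen
  have key : ∀ l, ∑ i, wt hU' W i l * g₁ (hU'.eigenvalues i) +
      ∑ j, wt hV' W j l * g₂ (hV'.eigenvalues j) ≤ Real.log (hΩ.eigenvalues l) := by
    intro l
    have hsumP : ∑ p : n × n, wt hU' W p.1 l * wt hV' W p.2 l = 1 := by
      rw [Fintype.sum_prod_type]
      simp only [← Finset.mul_sum, wt_sum_left hV' hWu l, mul_one, wt_sum_left hU' hWu l]
    have hconc := (strictConcaveOn_log_Ioi.concaveOn).le_map_sum (t := (univ : Finset (n × n)))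
      (w := fun p => wt hU' W p.1 l * wt hV' W p.2 l)
      (p := fun p => 1 + hU'.eigenvalues p.1 + hV'.eigenvalues p.2)
      (fun p _ => mul_nonneg (wt_nonneg _ _ _ _) (wt_nonneg _ _ _ _)) hsumP
      (fun p _ => by
        have := hu0 p.1
        have := hv0 p.2
        simp only [Set.mem_Ioi]
        linarith)
    have hmean : ∑ p : n × n, (wt hU' W p.1 l * wt hV' W p.2 l) •
        (1 + hU'.eigenvalues p.1 + hV'.eigenvalues p.2) = hΩ.eigenvalues l := by
      rw [hω l, Fintype.sum_prod_type]
      simp only [smul_eq_mul, mul_add, Finset.sum_add_distrib, mul_one]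
      have e1 : ∑ x, ∑ y, wt hU' W x l * wt hV' W y l = 1 := by
        simp only [← Finset.mul_sum, wt_sum_left hV' hWu l, mul_one, wt_sum_left hU' hWu l]
      have e2 : ∑ x, ∑ y, wt hU' W x l * wt hV' W y l * hU'.eigenvalues x =
          ∑ i, hU'.eigenvalues i * wt hU' W i l := by
        refine Finset.sum_congr rfl fun x _ => ?_
        rw [← Finset.sum_mul, ← Finset.mul_sum, wt_sum_left hV' hWu l]
        ring
      have e3 : ∑ x, ∑ y, wt hU' W x l * wt hV' W y l * hV'.eigenvalues y =
          ∑ j, hV'.eigenvalues j * wt hV' W j l := by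
        simp only [mul_assoc, ← Finset.mul_sum]
        rw [← Finset.sum_mul, wt_sum_left hU' hWu l, one_mul]
        refine Finset.sum_congr rfl fun y _ => ?_
        ring
      rw [e1, e2, e3]
    rw [hmean] at hconc
    refine le_trans ?_ hconc
    have hexp : ∑ p : n × n, (wt hU' W p.1 l * wt hV' W p.2 l) •
        (g₁ (hU'.eigenvalues p.1) + g₂ (hV'.eigenvalues p.2)) =
        ∑ i, wt hU' W i l * g₁ (hU'.eigenvalues i) +
        ∑ j, wt hV' W j l * g₂ (hV'.eigenvalues j) := by
      rw [Fintype.sum_prod_type]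
      simp only [smul_eq_mul, mul_add, Finset.sum_add_distrib]
      congr 1
      · refine Finset.sum_congr rfl fun x _ => ?_
        have : ∑ y, wt hU' W x l * wt hV' W y l * g₁ (hU'.eigenvalues x) =
            wt hU' W x l * g₁ (hU'.eigenvalues x) * ∑ y, wt hV' W y l := by
          rw [Finset.mul_sum]
          refine Finset.sum_congr rfl fun y _ => ?_
          ring
        rw [this, wt_sum_left hV' hWu l, mul_one]
      · simp only [mul_assoc, ← Finset.mul_sum]
        rw [← Finset.sum_mul, wt_sum_left hU' hWu l, one_mul]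
    rw [← hexp]
    refine Finset.sum_le_sum fun p _ => ?_
    refine smul_le_smul_of_nonneg_left (h _ _ (hu0 _) (hv0 _))
      (mul_nonneg (wt_nonneg _ _ _ _) (wt_nonneg _ _ _ _))
  calc ∑ i, g₁ (hU'.eigenvalues i) + ∑ j, g₂ (hV'.eigenvalues j)
      = ∑ l, (∑ i, wt hU' W i l * g₁ (hU'.eigenvalues i) +
          ∑ j, wt hV' W j l * g₂ (hV'.eigenvalues j)) := by
        rw [Finset.sum_add_distrib]
        congr 1
        · rw [Finset.sum_comm]
          refine Finset.sum_congr rfl fun i _ => ?_
          rw [← Finset.sum_mul, wt_sum_right hU' hWu i, one_mul]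
        · rw [Finset.sum_comm]
          refine Finset.sum_congr rfl fun i _ => ?_
          rw [← Finset.sum_mul, wt_sum_right hV' hWu i, one_mul]
    _ ≤ _ := Finset.sum_le_sum fun l _ => key l

end Crest.Agent.GADLib
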