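import Mathlib
import Crest.Prelude.Def_QState
import Crest.Prelude.Def_QChannel
import Crest.Prelude.Def_AmpDamp

set_option autoImplicit false
set_option linter.unusedSectionVars false
set_option linter.unusedSimpArgs false

namespace Crest.Agent.GADLib

open Crest.Quantum Crest.MathPhysics.AmpDamp Matrix
open scoped ComplexOrder

/-- The equivalence splitting off the first qubit. -/
abbrev consE (n : ℕ) : Bool × (Fin n → Bool) ≃ (Fin (n + 1) → Bool) :=
  Fin.consEquiv (fun _ => Bool)

private theorem sum_consE {n : ℕ} (F : (Fin (n + 1) → Bool) → ℂ) :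
    ∑ σ, F σ = ∑ s, ∑ f, F (consE n (s, f)) := by
  rw [← Equiv.sum_comp (consE n), Fintype.sum_prod_type]

/-- `qubitPower (n+1)` is `qubitTensor Φ (qubitPower n Φ)` up to relabelling. -/
theorem qubitPower_succ (Φ : Matrix Bool Bool ℂ → Matrix Bool Bool ℂ) (n : ℕ)
    (M : Matrix (Fin (n + 1) → Bool) (Fin (n + 1) → Bool) ℂ) :
    (qubitPower (n + 1) Φ M).submatrix (consE n) (consE n) =
      qubitTensor Φ (qubitPower n Φ) (M.submatrix (consE n) (consE n)) := by
  ext ⟨b, f⟩ ⟨c, g⟩
  simp only [submatrix_apply, qubitPower, qubitTensor, of_apply, block]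
  rw [sum_consE]
  refine Finset.sum_congr rfl fun s' _ => ?_
  simp only [Finset.mul_sum]
  have h1 : ∀ (f' : Fin n → Bool),
      (∑ τ' : Fin (n + 1) → Bool, (∏ i, qubitCoeff Φ ((consE n (b, f)) i) ((consE n (c, g)) i)
        ((consE n (s', f')) i) (τ' i)) * M (consE n (s', f')) τ') =
      ∑ t', ∑ g', qubitCoeff Φ b c s' t' * ((∏ i, qubitCoeff Φ (f i) (g i) (f' i) (g' i)) *
        M (consE n (s', f')) (consE n (t', g'))) := by
    intro f'
    rw [sum_consE]
    refine Finset.sum_congr rfl fun t' _ => Finset.sum_congr rfl fun g' _ => ?_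
    rw [Fin.prod_univ_succ]
    simp [mul_assoc]
  simp only [h1]
  rw [Finset.sum_comm]

/-! ### Auxiliary levels of any finite type -/

section Aux

variable {d e : Type} [Fintype d] [Fintype e] [DecidableEq d] [DecidableEq e]

/-- Complete positivity with auxiliary levels indexed by any finite type. -/
theorem cp_aux {Ψ : Matrix d d ℂ → Matrix e e ℂ} (hΨ : IsCompletelyPositive Ψ)
    {k : Type} [Fintype k] [DecidableEq k] (N : Matrix (k × d) (k × d) ℂ) (hN : N.PosSemidef) :
    (blockwise (k := k) Ψ N).PosSemidef := by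
  classical
  let eqv := Fintype.equivFin k
  let e2 : Fin (Fintype.card k) × d ≃ k × d := (eqv.symm.prodCongr (Equiv.refl d))
  let N' : Matrix (Fin (Fintype.card k) × d) (Fin (Fintype.card k) × d) ℂ := N.submatrix e2 e2
  have hN' : N'.PosSemidef := hN.submatrix _
  have h := hΨ _ N' hN'
  let e3 : k × e ≃ Fin (Fintype.card k) × e := (eqv.prodCongr (Equiv.refl e))
  have h3 : blockwise (k := k) Ψ N = (blockwise (k := Fin (Fintype.card k)) Ψ N').submatrix e3 e3 := by
    ext ⟨a, i⟩ ⟨b, j⟩
    have : block N' (eqv a) (eqv b) = block N a b := by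
      ext x y
      simp [block, N', e2]
    simp [blockwise, e3, this]
  rw [h3]
  exact h.submatrix _

/-- Kraus lift on `k × d`. -/
private def krausLift {k : Type} [DecidableEq k] (K : Matrix e d ℂ) :
    Matrix (k × e) (k × d) ℂ :=
  Matrix.of fun p q => if p.1 = q.1 then K p.2 q.2 else 0

private theorem krausLift_entry {k : Type} [Fintype k] [DecidableEq k] (K : Matrix e d ℂ)
    (M : Matrix (k × d) (k × d) ℂ) (a b : k) (i j : e) :
    (krausLift (k := k) K * M * (krausLift (k := k) K)ᴴ) (a, i) (b, j) =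
      (K * block M a b * Kᴴ) i j := by
  simp only [Matrix.mul_apply, Fintype.sum_prod_type, krausLift, conjTranspose_apply, of_apply,
    block]
  simp [Finset.sum_mul, Finset.mul_sum, apply_ite, ite_mul, mul_ite]

/-- A map in Kraus form is completely positive. -/
theorem cp_of_kraus {ι : Type} [Fintype ι] (K : ι → Matrix e d ℂ)
    (Φ : Matrix d d ℂ → Matrix e e ℂ) (h : ∀ M, Φ M = ∑ m, K m * M * (K m)ᴴ) :
    IsCompletelyPositive Φ := by
  intro k M hM
  have : blockwise (k := Fin k) Φ M = ∑ m, krausLift (k := Fin k) (K m) * M * (krausLift (k := Fin k) (K m))ᴴ := by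
    ext ⟨a, i⟩ ⟨b, j⟩
    simp only [blockwise, of_apply, h, Matrix.sum_apply, krausLift_entry]
  rw [this]
  exact posSemidef_sum _ fun m _ => hM.mul_mul_conjTranspose_same _

/-- Kraus lift for the tensor product with a qubit map. -/
private def tensorLift {k : Type} [DecidableEq k] (K : Matrix Bool Bool ℂ) :
    Matrix (k × (Bool × e)) ((k × Bool) × e) ℂ :=
  Matrix.of fun p q => if p.1 = q.1.1 then (if p.2.2 = q.2 then K p.2.1 q.1.2 else 0) else 0

private theorem tensorLift_entry {k : Type} [Fintype k] [DecidableEq k] (K : Matrix Bool Bool ℂ)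
    (σ : Matrix ((k × Bool) × e) ((k × Bool) × e) ℂ) (a b : k) (s t : Bool) (i j : e) :
    (tensorLift (k := k) (e := e) K * σ * (tensorLift (k := k) (e := e) K)ᴴ) (a, (s, i)) (b, (t, j)) =
      ∑ s' : Bool, ∑ t' : Bool, K s s' * star (K t t') * σ ((a, s'), i) ((b, t'), j) := by
  simp only [Matrix.mul_apply, Fintype.sum_prod_type, tensorLift, conjTranspose_apply, of_apply]
  simp [Finset.sum_mul, Finset.mul_sum, apply_ite, ite_mul, mul_ite]
  ring

/-- Tensoring a qubit map in Kraus form with a completely positive map is completely positive. -/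
theorem cp_qubitTensor_of_kraus {ι : Type} [Fintype ι] (K : ι → Matrix Bool Bool ℂ)
    (Φ : Matrix Bool Bool ℂ → Matrix Bool Bool ℂ)
    (hΦ : ∀ s t s' t', qubitCoeff Φ s t s' t' = ∑ m, K m s s' * star (K m t t'))
    {Ψ : Matrix d d ℂ → Matrix e e ℂ} (hΨ : IsCompletelyPositive Ψ) :
    IsCompletelyPositive (qubitTensor Φ Ψ) := by
  intro k M hM
  -- reassociate the input
  let E : (Fin k × Bool) × d ≃ Fin k × (Bool × d) := Equiv.prodAssoc _ _ _
  let N : Matrix ((Fin k × Bool) × d) ((Fin k × Bool) × d) ℂ := M.submatrix E E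
  have hN : N.PosSemidef := hM.submatrix _
  let σ := blockwise (k := Fin k × Bool) Ψ N
  have hσ : σ.PosSemidef := cp_aux hΨ N hN
  have key : blockwise (k := Fin k) (qubitTensor Φ Ψ) M =
      ∑ m, tensorLift (k := Fin k) (e := e) (K m) * σ * (tensorLift (k := Fin k) (e := e) (K m))ᴴ := by
    ext ⟨a, s, i⟩ ⟨b, t, j⟩
    simp only [Matrix.sum_apply, tensorLift_entry]
    simp only [blockwise, qubitTensor, of_apply, hΦ]
    have hb : ∀ s' t', block (block M a b) s' t' = block N (a, s') (b, t') := by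
      intro s' t'
      ext x y
      simp [block, N, E]
    simp only [hb, σ, blockwise, of_apply, Finset.sum_mul, Fintype.sum_bool,
      Finset.sum_add_distrib]
  rw [key]
  exact posSemidef_sum _ fun m _ => hσ.mul_mul_conjTranspose_same _

/-- Linearity of the tensor product. -/
theorem isLinearMap_qubitTensor (Φ : Matrix Bool Bool ℂ → Matrix Bool Bool ℂ)
    {Ψ : Matrix d d ℂ → Matrix e e ℂ} (hΨ : IsLinearMap ℂ Ψ) :
    IsLinearMap ℂ (qubitTensor Φ Ψ) := by
  constructor
  · intro M N
    ext p q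
    have hb : ∀ s' t', block (M + N) s' t' = block M s' t' + block N s' t' := by
      intro s' t'; ext x y; simp [block]
    simp [qubitTensor, hb, hΨ.map_add, mul_add, Finset.sum_add_distrib]
  · intro c M
    ext p q
    have hb : ∀ s' t', block (c • M) s' t' = c • block M s' t' := by
      intro s' t'; ext x y; simp [block]
    simp only [qubitTensor, of_apply, hb, hΨ.map_smul, Matrix.smul_apply, smul_eq_mul,
      Finset.mul_sum]
    refine Finset.sum_congr rfl fun s' _ => Finset.sum_congr rfl fun t' _ => ?_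
    ring

/-- Trace preservation of the tensor product. -/
theorem tp_qubitTensor {Φ : Matrix Bool Bool ℂ → Matrix Bool Bool ℂ}
    (hΦ : IsTracePreserving Φ) {Ψ : Matrix d d ℂ → Matrix e e ℂ} (hΨ : IsTracePreserving Ψ) :
    IsTracePreserving (qubitTensor Φ Ψ) := by
  intro M
  have h1 : ∀ s' t' : Bool, ∑ s : Bool, qubitCoeff Φ s s s' t' = if s' = t' then 1 else 0 := by
    intro s' t'
    have := hΦ (Matrix.single s' t' 1)
    simp only [Matrix.trace, Matrix.diag] at this
    simp only [qubitCoeff]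
    rw [this]
    cases s' <;> cases t' <;> simp [Matrix.single]
  have h2 : ∀ s' t' : Bool, ∑ i, Ψ (block M s' t') i i = ∑ i, block M s' t' i i := by
    intro s' t'
    have := hΨ (block M s' t')
    simpa only [Matrix.trace, Matrix.diag] using this
  simp only [Matrix.trace, Matrix.diag, qubitTensor, of_apply, Fintype.sum_prod_type]
  calc ∑ s : Bool, ∑ i : e, ∑ s' : Bool, ∑ t' : Bool, qubitCoeff Φ s s s' t' * Ψ (block M s' t') i i
      = ∑ s' : Bool, ∑ t' : Bool, (∑ s : Bool, qubitCoeff Φ s s s' t') * ∑ i, Ψ (block M s' t') i i := by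
        simp only [Fin.sum_univ_two, Fintype.sum_bool, Finset.mul_sum, Finset.sum_mul,
          Finset.sum_add_distrib, add_mul]
        ring
    _ = ∑ s' : Bool, ∑ i : d, M (s', i) (s', i) := by
        simp only [h1, h2]
        simp [block, Fintype.sum_bool]

/-- Transport of channels through relabellings. -/
theorem isChannel_of_reindex {d' e' : Type} [Fintype d'] [Fintype e'] [DecidableEq d']
    [DecidableEq e'] (E : d ≃ d') (F : e ≃ e') {Q : Matrix d d ℂ → Matrix e e ℂ}
    (hQ : IsChannel Q) {T : Matrix d' d' ℂ → Matrix e' e' ℂ}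
    (hT : ∀ M, (T M).submatrix F F = Q (M.submatrix E E)) : IsChannel T := by
  have hT' : ∀ M i j, T M i j = Q (M.submatrix E E) (F.symm i) (F.symm j) := by
    intro M i j
    rw [← hT M]
    simp
  refine ⟨⟨?_, ?_⟩, ?_, ?_⟩
  · intro M N
    ext i j
    have : (M + N).submatrix E E = M.submatrix E E + N.submatrix E E := by
      ext x y; simp
    simp [hT', this, hQ.1.map_add]
  · intro c M
    ext i j
    have : (c • M).submatrix E E = c • M.submatrix E E := by
      ext x y; simp
    simp [hT', this, hQ.1.map_smul]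
  · intro k M hM
    let E2 : Fin k × d ≃ Fin k × d' := (Equiv.refl _).prodCongr E
    let M' := M.submatrix E2 E2
    have hM' : M'.PosSemidef := hM.submatrix _
    have h := hQ.2.1 k M' hM'
    let F2 : Fin k × e' ≃ Fin k × e := (Equiv.refl _).prodCongr F.symm
    have : blockwise (k := Fin k) T M = (blockwise (k := Fin k) Q M').submatrix F2 F2 := by
      ext ⟨a, i⟩ ⟨b, j⟩
      have hb : (block M a b).submatrix E E = block M' a b := by
        ext x y
        simp [block, M', E2]
      simp [blockwise, hT', hb, F2]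
    rw [this]
    exact h.submatrix _
  · intro M
    have h1 : (T M).trace = (Q (M.submatrix E E)).trace := by
      rw [← hT M]
      simp only [Matrix.trace, Matrix.diag, submatrix_apply]
      exact (Equiv.sum_comp F fun i => T M i i).symm
    rw [h1, hQ.2.2]
    simp only [Matrix.trace, Matrix.diag, submatrix_apply]
    exact Equiv.sum_comp E fun i => M i i

end Aux

/-! ### The generalized amplitude damping map -/

section GAD

/-- Real Kraus coefficients of the generalized amplitude damping map. -/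
private noncomputable def krausR (γ ν : ℝ) : Fin 4 → Bool → Bool → ℝ
  | 0, false, false => Real.sqrt (1 - ν)
  | 0, true, true => Real.sqrt (1 - ν) * Real.sqrt (1 - γ)
  | 1, false, true => Real.sqrt (1 - ν) * Real.sqrt γ
  | 2, false, false => Real.sqrt ν * Real.sqrt (1 - γ)
  | 2, true, true => Real.sqrt ν
  | 3, true, false => Real.sqrt ν * Real.sqrt γ
  | _, _, _ => 0

private noncomputable def krausC (γ ν : ℝ) (m : Fin 4) : Matrix Bool Bool ℂ :=
  Matrix.of fun s s' => ((krausR γ ν m s s' : ℝ) : ℂ)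

private theorem gad_coeff {γ ν : ℝ} (hγ : γ ∈ Set.Icc (0 : ℝ) 1) (hν : ν ∈ Set.Icc (0 : ℝ) 1)
    (s t s' t' : Bool) :
    qubitCoeff (gadMap γ ν) s t s' t' = ∑ m, krausC γ ν m s s' * star (krausC γ ν m t t') := by
  have ha : Real.sqrt (1 - ν) * Real.sqrt (1 - ν) = 1 - ν :=
    Real.mul_self_sqrt (by linarith [hν.2])
  have hb : Real.sqrt (1 - γ) * Real.sqrt (1 - γ) = 1 - γ :=
    Real.mul_self_sqrt (by linarith [hγ.2])
  have hc : Real.sqrt γ * Real.sqrt γ = γ := Real.mul_self_sqrt hγ.1
  have hd : Real.sqrt ν * Real.sqrt ν = ν := Real.mul_self_sqrt hν.1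
  have ha' : ((Real.sqrt (1 - ν) : ℝ) : ℂ) * ((Real.sqrt (1 - ν) : ℝ) : ℂ) = 1 - (ν : ℂ) := by
    exact_mod_cast ha
  have hb' : ((Real.sqrt (1 - γ) : ℝ) : ℂ) * ((Real.sqrt (1 - γ) : ℝ) : ℂ) = 1 - (γ : ℂ) := by
    exact_mod_cast hb
  have hc' : ((Real.sqrt γ : ℝ) : ℂ) * ((Real.sqrt γ : ℝ) : ℂ) = (γ : ℂ) := by
    exact_mod_cast hc
  have hd' : ((Real.sqrt ν : ℝ) : ℂ) * ((Real.sqrt ν : ℝ) : ℂ) = (ν : ℂ) := by
    exact_mod_cast hd
  cases s <;> cases t <;> cases s' <;> cases t' <;>
    simp [qubitCoeff, gadMap, krausC, krausR, Fin.sum_univ_four, Matrix.single]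
  · linear_combination -ha' - ((Real.sqrt (1 - γ) : ℝ) : ℂ) ^ 2 * hd' - (ν : ℂ) * hb'
  · linear_combination -((Real.sqrt γ : ℝ) : ℂ) ^ 2 * ha' - (1 - (ν : ℂ)) * hc'
  · linear_combination -((Real.sqrt (1 - γ) : ℝ) : ℂ) * ha' - ((Real.sqrt (1 - γ) : ℝ) : ℂ) * hd'
  · linear_combination -((Real.sqrt (1 - γ) : ℝ) : ℂ) * ha' - ((Real.sqrt (1 - γ) : ℝ) : ℂ) * hd'
  · linear_combination -((Real.sqrt γ : ℝ) : ℂ) ^ 2 * hd' - (ν : ℂ) * hc'
  · linear_combination -((Real.sqrt (1 - γ) : ℝ) : ℂ) ^ 2 * ha' - hd' - (1 - (ν : ℂ)) * hb'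

private theorem gad_kraus {γ ν : ℝ} (hγ : γ ∈ Set.Icc (0 : ℝ) 1) (hν : ν ∈ Set.Icc (0 : ℝ) 1)
    (M : Matrix Bool Bool ℂ) :
    gadMap γ ν M = ∑ m, krausC γ ν m * M * (krausC γ ν m)ᴴ := by
  have hl : ∀ (N : Matrix Bool Bool ℂ) (s t : Bool),
      (∑ m, krausC γ ν m * N * (krausC γ ν m)ᴴ) s t =
        ∑ s' : Bool, ∑ t' : Bool, (∑ m, krausC γ ν m s s' * star (krausC γ ν m t t')) * N s' t' := by
    intro N s t
    simp only [Matrix.sum_apply, Matrix.mul_apply, conjTranspose_apply, Fintype.sum_bool,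
      Fin.sum_univ_four]
    ring
  have hg : ∀ (s t : Bool), gadMap γ ν M s t =
      ∑ s' : Bool, ∑ t' : Bool, qubitCoeff (gadMap γ ν) s t s' t' * M s' t' := by
    intro s t
    cases s <;> cases t <;> simp [qubitCoeff, gadMap, Matrix.single, Fintype.sum_bool] <;> ring
  ext s t
  rw [hg, hl]
  simp only [gad_coeff hγ hν]

/-- The generalized amplitude-damping map is linear. -/
theorem isLinearMap_gadMap (γ ν : ℝ) : IsLinearMap ℂ (gadMap γ ν) := by
  constructor
  · intro M N
    ext s t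
    cases s <;> cases t <;> simp [gadMap] <;> ring
  · intro c M
    ext s t
    cases s <;> cases t <;> simp [gadMap] <;> ring

/-- The generalized amplitude-damping map preserves the trace. -/
theorem tp_gadMap (γ ν : ℝ) : IsTracePreserving (gadMap γ ν) := by
  intro M
  simp [Matrix.trace, Fintype.sum_bool, gadMap]
  ring

/-- The generalized amplitude-damping map is a channel. -/
theorem isChannel_gadMap {γ ν : ℝ} (hγ : γ ∈ Set.Icc (0 : ℝ) 1) (hν : ν ∈ Set.Icc (0 : ℝ) 1) :
    IsChannel (gadMap γ ν) :=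
  ⟨isLinearMap_gadMap γ ν, cp_of_kraus (krausC γ ν) _ (gad_kraus hγ hν), tp_gadMap γ ν⟩

/-- Tensoring with the amplitude-damping map preserves channels. -/
theorem isChannel_qubitTensor_gadMap {γ ν : ℝ} (hγ : γ ∈ Set.Icc (0 : ℝ) 1)
    (hν : ν ∈ Set.Icc (0 : ℝ) 1) {d e : Type} [Fintype d] [Fintype e] [DecidableEq d]
    [DecidableEq e] {Ψ : Matrix d d ℂ → Matrix e e ℂ} (hΨ : IsChannel Ψ) :
    IsChannel (qubitTensor (gadMap γ ν) Ψ) :=
  ⟨isLinearMap_qubitTensor _ hΨ.1,
    cp_qubitTensor_of_kraus (krausC γ ν) _ (gad_coeff hγ hν) hΨ.2.1,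
    tp_qubitTensor (tp_gadMap γ ν) hΨ.2.2⟩

/-- The zero-th tensor power is the identity. -/
private theorem qubitPower_zero (Φ : Matrix Bool Bool ℂ → Matrix Bool Bool ℂ)
    (M : Matrix (Fin 0 → Bool) (Fin 0 → Bool) ℂ) : qubitPower 0 Φ M = M := by
  ext σ τ
  simp [qubitPower]
  congr 1 <;> exact Subsingleton.elim _ _

/-- All tensor powers of the amplitude-damping map are channels. -/
theorem isChannel_qubitPower {γ ν : ℝ} (hγ : γ ∈ Set.Icc (0 : ℝ) 1) (hν : ν ∈ Set.Icc (0 : ℝ) 1)
    (n : ℕ) : IsChannel (qubitPower n (gadMap γ ν)) := by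
  induction n with
  | zero =>
    have hid : qubitPower 0 (gadMap γ ν) = id := funext fun M => qubitPower_zero _ M
    rw [hid]
    refine ⟨⟨fun _ _ => rfl, fun _ _ => rfl⟩, ?_, fun M => rfl⟩
    intro k M hM
    have : blockwise (k := Fin k) (id : Matrix (Fin 0 → Bool) (Fin 0 → Bool) ℂ → _) M = M := by
      ext ⟨a, i⟩ ⟨b, j⟩
      simp [blockwise, block]
    rw [this]
    exact hM
  | succ n ih =>
    exact isChannel_of_reindex (consE n) (consE n) (isChannel_qubitTensor_gadMap hγ hν ih)
      (qubitPower_succ (gadMap γ ν) n)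

end GAD

end Crest.Agent.GADLib
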