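import Crest.Agent.Lib.GAD.Tree
import Crest.Agent.Lib.GAD.Power
import Crest.Agent.Lib.GAD.Convex
import Crest.Prelude.Def_AmpDamp

set_option autoImplicit false
set_option linter.unusedSectionVars false

namespace Crest.Agent.GADLib

open Matrix Crest.Quantum Crest.MathPhysics.AmpDamp
open scoped ComplexOrder

/-- A factorisation of a positive semidefinite matrix. -/
lemma exists_factor {n : Type*} [Fintype n] [DecidableEq n] {X : Matrix n n ℂ}
    (hX : X.PosSemidef) : ∃ Z : Matrix n n ℂ, X = Z * Zᴴ := by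
  refine ⟨evU hX.isHermitian *
    diagonal (fun i => ((Real.sqrt (hX.isHermitian.eigenvalues i) : ℝ) : ℂ)), ?_⟩
  rw [conjTranspose_mul, Matrix.mul_assoc, ← Matrix.mul_assoc (diagonal _), diagonal_conjTranspose]
  have hd : diagonal (fun i => ((Real.sqrt (hX.isHermitian.eigenvalues i) : ℝ) : ℂ)) *
      diagonal (star (fun i => ((Real.sqrt (hX.isHermitian.eigenvalues i) : ℝ) : ℂ))) =
      diagonal (fun i => (hX.isHermitian.eigenvalues i : ℂ)) := by
    rw [diagonal_mul_diagonal]
    congr 1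
    funext i
    simp only [Pi.star_apply, Complex.star_def, Complex.conj_ofReal]
    rw [← Complex.ofReal_mul, Real.mul_self_sqrt (hX.eigenvalues_nonneg i)]
  rw [hd, ← Matrix.mul_assoc]
  exact spectral hX.isHermitian

variable {d e : Type} [Fintype d] [Fintype e] [DecidableEq d] [DecidableEq e]

/-- The entries of the output of the channel. -/
lemma qubitTensor_gad_apply (γ ν : ℝ) (Ψ : Matrix d d ℂ → Matrix e e ℂ)
    (ρ : Matrix (Bool × d) (Bool × d) ℂ) (i j : e) :
    qubitTensor (gadMap γ ν) Ψ ρ (false, i) (false, j) =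
        ((1 - γ * ν : ℝ) : ℂ) * Ψ (block ρ false false) i j +
          ((γ * (1 - ν) : ℝ) : ℂ) * Ψ (block ρ true true) i j ∧
    qubitTensor (gadMap γ ν) Ψ ρ (true, i) (true, j) =
        ((γ * ν : ℝ) : ℂ) * Ψ (block ρ false false) i j +
          ((1 - γ + γ * ν : ℝ) : ℂ) * Ψ (block ρ true true) i j ∧
    qubitTensor (gadMap γ ν) Ψ ρ (false, i) (true, j) =
        ((Real.sqrt (1 - γ) : ℝ) : ℂ) * Ψ (block ρ false true) i j ∧
    qubitTensor (gadMap γ ν) Ψ ρ (true, i) (false, j) =
        ((Real.sqrt (1 - γ) : ℝ) : ℂ) * Ψ (block ρ true false) i j := by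
  simp [qubitTensor, qubitCoeff, gadMap, Matrix.single]
  constructor <;> ring

/-- The trace of a matrix on a qubit index splits over the two diagonal blocks. -/
lemma trace_split_blocks (ρ : Matrix (Bool × d) (Bool × d) ℂ) :
    ρ.trace = (block ρ false false).trace + (block ρ true true).trace := by
  simp only [trace, diag, block, of_apply, Fintype.sum_prod_type, Fintype.sum_bool]
  ring

/-- The polynomial identity of the determinant. -/
lemma gad_det_identity (γ ν p : ℝ) :
    ((1 - γ * ν) * (1 - p) + γ * (1 - ν) * p) * ((1 - γ * (1 - ν)) * p + γ * ν * (1 - p)) -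
      (1 - γ) * (p * (1 - p)) = γ * ν * (1 - ν) + γ * (1 - γ) * (p - ν) ^ 2 := by
  ring

/-- The key inequality: the output entropy of the amplitude-damping channel tensored with a channel. -/
theorem key_lemma {γ ν : ℝ} (hγ : γ ∈ Set.Icc (0 : ℝ) 1) (hν : ν ∈ Set.Icc (0 : ℝ) 1)
    {Ψ : Matrix d d ℂ → Matrix e e ℂ} (hΨ : IsChannel Ψ) {ρ : Matrix (Bool × d) (Bool × d) ℂ}
    (hρ : IsDensity ρ) :
    gadF γ ν (block ρ true true).trace.re + condS (Ψ (block ρ false false)) +
        condS (Ψ (block ρ true true)) ≤ vnEntropy (qubitTensor (gadMap γ ν) Ψ ρ) := by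
  classical
  obtain ⟨hγ0, hγ1⟩ := hγ
  obtain ⟨hν0, hν1⟩ := hν
  have hcp := hΨ.2.1
  have htp := hΨ.2.2
  have hσ : (blockwise (k := Bool) Ψ ρ).PosSemidef := cp_aux hcp ρ hρ.1
  obtain ⟨Z, hZ⟩ := exists_factor hσ
  let Zr (b : Bool) : Matrix e (Bool × e) ℂ := Matrix.of fun i k => Z (b, i) k
  have hZr : ∀ b b', Zr b * (Zr b')ᴴ = Ψ (block ρ b b') := by
    intro b b'
    ext i j
    have := congrFun (congrFun hZ (b, i)) (b', j)
    simp only [blockwise, of_apply, mul_apply, conjTranspose_apply] at this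
    simp only [Zr, mul_apply, conjTranspose_apply, of_apply]
    exact this.symm
  set A := Ψ (block ρ false false) with hAdef
  set C := Ψ (block ρ true true) with hCdef
  have hA : A.PosSemidef := by
    rw [hAdef, ← hZr]; exact posSemidef_self_mul_conjTranspose _
  have hC : C.PosSemidef := by
    rw [hCdef, ← hZr]; exact posSemidef_self_mul_conjTranspose _
  set p := (block ρ true true).trace.re with hp
  have htC : C.trace.re = p := by rw [hCdef, htp]
  have htA : A.trace.re = 1 - p := by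
    have h1 := trace_split_blocks ρ
    rw [hρ.2] at h1
    have h2 := congrArg Complex.re h1
    simp only [Complex.one_re, Complex.add_re] at h2
    rw [hAdef, htp]
    linarith
  have hp0 : 0 ≤ p := by rw [← htC]; exact trace_re_nonneg hC
  have hp1 : 0 ≤ 1 - p := by rw [← htA]; exact trace_re_nonneg hA
  -- the scalars
  have ha₀0 : 0 ≤ γ * ν := mul_nonneg hγ0 hν0
  have ha₀1 : γ * ν ≤ 1 := by nlinarith
  have hb₀0 : 0 ≤ γ * (1 - ν) := mul_nonneg hγ0 (by linarith)
  have hb₀1 : γ * (1 - ν) ≤ 1 := by nlinarith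
  set x := 1 - γ * ν with hx
  set y := (1 - γ) / x with hy
  have hx0 : 0 ≤ x := by rw [hx]; linarith
  have hy0 : 0 ≤ y := div_nonneg (by linarith) hx0
  have hxy : x * y = 1 - γ := by
    rcases hx0.eq_or_lt with h | h
    · have hγν : γ = 1 := by
        have : γ * ν = 1 := by rw [hx] at h; linarith
        nlinarith
      rw [← h, hγν]
      simp
    · rw [hy]
      field_simp
  have hκ0 : 0 ≤ 1 - γ * (1 - ν) - y := by
    rcases hx0.eq_or_lt with h | h
    · have : y = 0 := by rw [hy, ← h]; simp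
      rw [this]
      linarith
    · rw [hy, sub_nonneg, div_le_iff₀ h, hx]
      nlinarith [mul_nonneg ha₀0 hb₀0]
  set κ := 1 - γ * (1 - ν) - y with hκ
  -- the matrices
  set E : Matrix e (Bool × e) ℂ := ((Real.sqrt x : ℝ) : ℂ) • Zr false with hE
  set G : Matrix e (Bool × e) ℂ := ((Real.sqrt y : ℝ) : ℂ) • Zr true with hG
  set B : Matrix e e ℂ := ((γ * (1 - ν) : ℝ) : ℂ) • C with hB
  set D : Matrix e e ℂ := (κ : ℂ) • C + ((γ * ν : ℝ) : ℂ) • A with hD
  have hBp : B.PosSemidef := hC.smul (by exact_mod_cast hb₀0)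
  have hκC : ((κ : ℂ) • C).PosSemidef := hC.smul (by exact_mod_cast hκ0)
  have haA : (((γ * ν : ℝ) : ℂ) • A).PosSemidef := hA.smul (by exact_mod_cast ha₀0)
  have hDp : D.PosSemidef := hκC.add haA
  have hsqrtx : ((Real.sqrt x : ℝ) : ℂ) * ((Real.sqrt x : ℝ) : ℂ) = (x : ℂ) := by
    rw [← Complex.ofReal_mul, Real.mul_self_sqrt hx0]
  have hsqrty : ((Real.sqrt y : ℝ) : ℂ) * ((Real.sqrt y : ℝ) : ℂ) = (y : ℂ) := by
    rw [← Complex.ofReal_mul, Real.mul_self_sqrt hy0]
  have hsqrtxy : ((Real.sqrt x : ℝ) : ℂ) * ((Real.sqrt y : ℝ) : ℂ) =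
      ((Real.sqrt (1 - γ) : ℝ) : ℂ) := by
    rw [← Complex.ofReal_mul, ← Real.sqrt_mul hx0, hxy]
  have hEE : E * Eᴴ = (x : ℂ) • A := by
    rw [hE, conjTranspose_smul, Matrix.smul_mul, Matrix.mul_smul, hZr, smul_smul]
    simp only [Complex.star_def, Complex.conj_ofReal]
    rw [hsqrtx]
  have hGG : G * Gᴴ = (y : ℂ) • C := by
    rw [hG, conjTranspose_smul, Matrix.smul_mul, Matrix.mul_smul, hZr, smul_smul]
    simp only [Complex.star_def, Complex.conj_ofReal]
    rw [hsqrty]
  have hEG : E * Gᴴ = ((Real.sqrt (1 - γ) : ℝ) : ℂ) • Ψ (block ρ false true) := by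
    rw [hE, hG, conjTranspose_smul, Matrix.smul_mul, Matrix.mul_smul, hZr, smul_smul]
    simp only [Complex.star_def, Complex.conj_ofReal]
    rw [hsqrtxy]
  have hGE : G * Eᴴ = ((Real.sqrt (1 - γ) : ℝ) : ℂ) • Ψ (block ρ true false) := by
    rw [hE, hG, conjTranspose_smul, Matrix.smul_mul, Matrix.mul_smul, hZr, smul_smul]
    simp only [Complex.star_def, Complex.conj_ofReal]
    rw [mul_comm, hsqrtxy]
  -- the block matrix is the output
  have hObl : Obl E G B D = (qubitTensor (gadMap γ ν) Ψ ρ).submatrix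
      (Equiv.boolProdEquivSum e).symm (Equiv.boolProdEquivSum e).symm := by
    ext (i | i) (j | j)
    · simp only [Obl, fromBlocks_apply₁₁, submatrix_apply]
      rw [hEE]
      have := (qubitTensor_gad_apply γ ν Ψ ρ i j).1
      simp only [Equiv.boolProdEquivSum, Equiv.coe_fn_symm_mk, Sum.elim_inl]
      rw [this, hB, Matrix.add_apply, Matrix.smul_apply, Matrix.smul_apply, smul_eq_mul, smul_eq_mul, ← hAdef, ← hCdef,
        hx]
      push_cast
      ring
    · simp only [Obl, fromBlocks_apply₁₂, submatrix_apply]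
      rw [hEG]
      have := (qubitTensor_gad_apply γ ν Ψ ρ i j).2.2.1
      simp only [Equiv.boolProdEquivSum, Equiv.coe_fn_symm_mk, Sum.elim_inl, Sum.elim_inr]
      rw [this, Matrix.smul_apply, smul_eq_mul]
    · simp only [Obl, fromBlocks_apply₂₁, submatrix_apply]
      rw [hGE]
      have := (qubitTensor_gad_apply γ ν Ψ ρ i j).2.2.2
      simp only [Equiv.boolProdEquivSum, Equiv.coe_fn_symm_mk, Sum.elim_inl, Sum.elim_inr]
      rw [this, Matrix.smul_apply, smul_eq_mul]
    · simp only [Obl, fromBlocks_apply₂₂, submatrix_apply]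
      rw [hGG]
      have := (qubitTensor_gad_apply γ ν Ψ ρ i j).2.1
      simp only [Equiv.boolProdEquivSum, Equiv.coe_fn_symm_mk, Sum.elim_inr]
      rw [this, hD, Matrix.add_apply, Matrix.add_apply, Matrix.smul_apply, Matrix.smul_apply, Matrix.smul_apply, smul_eq_mul,
        smul_eq_mul, smul_eq_mul, ← hAdef, ← hCdef]
      have h1 : (κ : ℂ) + (y : ℂ) = ((1 - γ + γ * ν : ℝ) : ℂ) := by
        have : κ + y = 1 - γ + γ * ν := by rw [hκ]; ring
        exact_mod_cast this
      have h2 : ((1 - γ + γ * ν : ℝ) : ℂ) * C i j = (κ : ℂ) * C i j + (y : ℂ) * C i j := by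
        rw [← h1]; ring
      rw [h2]
      push_cast
      ring
  have hentropy : vnEntropy (Obl E G B D) = vnEntropy (qubitTensor (gadMap γ ν) Ψ ρ) := by
    rw [hObl]
    exact vnEntropy_submatrix_equiv _ _
  -- the traces
  have ta : (E * Eᴴ).trace.re = x * (1 - p) := by
    rw [hEE, trace_smul, smul_eq_mul, Complex.re_ofReal_mul, htA]
  have tb : B.trace.re = γ * (1 - ν) * p := by
    rw [hB, trace_smul, smul_eq_mul, Complex.re_ofReal_mul, htC]
  have tc : (G * Gᴴ).trace.re = y * p := by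
    rw [hGG, trace_smul, smul_eq_mul, Complex.re_ofReal_mul, htC]
  have te : D.trace.re = κ * p + γ * ν * (1 - p) := by
    rw [hD, trace_add, Complex.add_re, trace_smul, trace_smul, smul_eq_mul, smul_eq_mul,
      Complex.re_ofReal_mul, Complex.re_ofReal_mul, htA, htC]
  -- the eigenvalues of the scalar matrix
  set v := γ * ν * (1 - ν) + γ * (1 - γ) * (p - ν) ^ 2 with hv
  have hv0 : 0 ≤ v := by
    have h1 : 0 ≤ γ * ν * (1 - ν) := mul_nonneg ha₀0 (by linarith)
    have h2 : 0 ≤ γ * (1 - γ) * (p - ν) ^ 2 :=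
      mul_nonneg (mul_nonneg hγ0 (by linarith)) (sq_nonneg _)
    linarith
  have hv1 : 0 ≤ 1 - 4 * v := by
    have hid : 1 - 4 * v = (((1 - γ * ν) * (1 - p) + γ * (1 - ν) * p) -
        ((1 - γ * (1 - ν)) * p + γ * ν * (1 - p))) ^ 2 + 4 * ((1 - γ) * (p * (1 - p))) := by
      rw [hv]
      ring
    rw [hid]
    have : 0 ≤ (1 - γ) * (p * (1 - p)) :=
      mul_nonneg (by linarith) (mul_nonneg hp0 hp1)
    positivity
  set r := Real.sqrt (1 - 4 * v) with hr
  have hr0 : 0 ≤ r := Real.sqrt_nonneg _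
  have hr2 : r ^ 2 = 1 - 4 * v := Real.sq_sqrt hv1
  have hr1 : r ≤ 1 := by
    rw [hr]
    exact Real.sqrt_le_one.mpr (by linarith) |>.trans le_rfl
  have hsum : (1 + r) / 2 + (1 - r) / 2 = (E * Eᴴ).trace.re + B.trace.re + (G * Gᴴ).trace.re +
      D.trace.re := by
    rw [ta, tb, tc, te, hκ, hx]
    ring
  have hprod : (1 + r) / 2 * ((1 - r) / 2) = ((E * Eᴴ).trace.re + B.trace.re) *
      ((G * Gᴴ).trace.re + D.trace.re) - (E * Eᴴ).trace.re * (G * Gᴴ).trace.re := by
    rw [ta, tb, tc, te, hκ]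
    have hxy' : x * (1 - p) * (y * p) = (1 - γ) * (p * (1 - p)) := by
      rw [← hxy]; ring
    rw [hxy']
    have hid := gad_det_identity γ ν p
    have hlhs : (1 + r) / 2 * ((1 - r) / 2) = v := by
      have : (1 + r) / 2 * ((1 - r) / 2) = (1 - r ^ 2) / 4 := by ring
      rw [this, hr2]
      ring
    rw [hlhs, hv, ← hid, hx]
    ring
  have htree := tree_ec E G hBp hDp (l₁ := (1 + r) / 2) (l₂ := (1 - r) / 2) (by linarith)
    (by linarith) hsum hprod
  rw [hentropy] at htree
  -- the conditional entropies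
  have c1 : condS (E * Eᴴ) = x * condS A := by rw [hEE, condS_smul hA hx0]
  have c2 : condS B = γ * (1 - ν) * condS C := by rw [hB, condS_smul hC hb₀0]
  have c3 : condS (G * Gᴴ) = y * condS C := by rw [hGG, condS_smul hC hy0]
  have c4 : κ * condS C + γ * ν * condS A ≤ condS D := by
    have := condS_add hκC haA
    rw [condS_smul hC hκ0, condS_smul hA ha₀0] at this
    exact this
  have hF : Real.negMulLog ((1 + r) / 2) + Real.negMulLog ((1 - r) / 2) = gadF γ ν p := by
    unfold gadF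
    rw [Real.binEntropy_eq_negMulLog_add_negMulLog_one_sub]
    have : 1 - (1 + r) / 2 = (1 - r) / 2 := by ring
    rw [this]
  rw [c1, c2, c3] at htree
  have hxa : x + γ * ν = 1 := by rw [hx]; ring
  have hsumC : γ * (1 - ν) + y + κ = 1 := by rw [hκ]; ring
  have h1 : x * condS A + γ * ν * condS A = condS A := by
    rw [← add_mul, hxa, one_mul]
  have h2 : γ * (1 - ν) * condS C + y * condS C + κ * condS C = condS C := by
    rw [← add_mul, ← add_mul, hsumC, one_mul]
  linarith

end Crest.Agent.GADLib
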