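import Mathlib

/-!
The layer cake comparison behind the Frenkel type formula: all the measure theory of the proof.
-/

set_option autoImplicit false
set_option linter.unusedSectionVars false

namespace Crest.Agent.GADLib

open MeasureTheory Set
open scoped ENNReal

/-- The count of `i` with `s τ < α i`, as a real number. -/
noncomputable def N0 {ι : Type*} [Fintype ι] (α : ι → ℝ) (s τ : ℝ) : ℝ :=
  ∑ i, if s * τ < α i then 1 else 0

/-- The count of `k` with `s < x k τ`, as a real number. -/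
noncomputable def Nt {κ : Type*} [Fintype κ] (x : κ → ℝ → ℝ) (s τ : ℝ) : ℝ :=
  ∑ k, if s < x k τ then 1 else 0

/-- The integrand of the double integral. -/
noncomputable def Kern {ι κ : Type*} [Fintype ι] [Fintype κ] (φ : ℝ → ℝ) (α : ι → ℝ)
    (x : κ → ℝ → ℝ) (s τ : ℝ) : ℝ≥0∞ :=
  ENNReal.ofReal (N0 α s τ / (1 + τ) - φ τ * Nt x s τ)

/-- The primitive of `φ`. -/
noncomputable def prim (φ : ℝ → ℝ) (u : ℝ) : ℝ := ∫ τ in (0 : ℝ)..u, φ τ

variable {ι κ κ' : Type*} [Fintype ι] [Fintype κ] [Fintype κ']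

lemma measurable_ite_lt {f g : ℝ × ℝ → ℝ} (hf : Measurable f) (hg : Measurable g) :
    Measurable fun p => if f p < g p then (1 : ℝ) else 0 :=
  Measurable.ite (measurableSet_lt hf hg) measurable_const measurable_const

lemma measurable_kern (φ : ℝ → ℝ) (hφ : Measurable φ) (α : ι → ℝ) (x : κ → ℝ → ℝ)
    (hx : ∀ k, Measurable (x k)) : Measurable (Function.uncurry (Kern φ α x)) := by
  unfold Kern
  have h0 : Measurable fun p : ℝ × ℝ => N0 α p.1 p.2 := by
    unfold N0
    refine Finset.measurable_sum _ fun i _ => ?_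
    exact measurable_ite_lt (measurable_fst.mul measurable_snd) measurable_const
  have h1 : Measurable fun p : ℝ × ℝ => Nt x p.1 p.2 := by
    unfold Nt
    refine Finset.measurable_sum _ fun k _ => ?_
    exact measurable_ite_lt measurable_fst ((hx k).comp measurable_snd)
  have h2 : Measurable fun p : ℝ × ℝ => N0 α p.1 p.2 / (1 + p.2) - φ p.2 * Nt x p.1 p.2 :=
    (h0.div (measurable_const.add measurable_snd)).sub ((hφ.comp measurable_snd).mul h1)
  exact ENNReal.measurable_ofReal.comp h2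

/-- Tonelli for the kernel. -/
theorem lintegral_kern_swap (φ : ℝ → ℝ) (hφ : Measurable φ) (α : ι → ℝ) (x : κ → ℝ → ℝ)
    (hx : ∀ k, Measurable (x k)) :
    ∫⁻ s in Ioi 0, ∫⁻ τ in Ioi 0, Kern φ α x s τ =
      ∫⁻ τ in Ioi 0, ∫⁻ s in Ioi 0, Kern φ α x s τ :=
  lintegral_lintegral_swap (measurable_kern φ hφ α x hx).aemeasurable

/-- Indicator of a half line. -/
lemma integrableOn_ite_lt (c : ℝ) :
    IntegrableOn (fun s : ℝ => if s < c then (1 : ℝ) else 0) (Ioi 0) := by
  have : (fun s : ℝ => if s < c then (1 : ℝ) else 0) = (Iio c).indicator (fun _ => 1) := by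
    funext s
    simp [Set.indicator_apply]
  rw [this, integrableOn_indicator_iff measurableSet_Iio]
  have h : Iio c ∩ Ioi 0 = Ioo 0 c := by
    ext s; simp [and_comm]
  rw [h]
  exact integrableOn_const (by simp) (by simp)

lemma integral_ite_lt (c : ℝ) :
    ∫ s in Ioi (0 : ℝ), (if s < c then (1 : ℝ) else 0) = max c 0 := by
  have : (fun s : ℝ => if s < c then (1 : ℝ) else 0) = (Iio c).indicator (fun _ => 1) := by
    funext s
    simp [Set.indicator_apply]
  rw [this, setIntegral_indicator measurableSet_Iio]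
  have h : Ioi 0 ∩ Iio c = Ioo 0 c := by
    ext s; simp
  rw [h]
  simp only [integral_const, MeasurableSet.univ, measureReal_restrict_apply, univ_inter,
    smul_eq_mul, mul_one, Real.volume_real_Ioo]
  rw [sub_zero]

/-- The inner integral in `s`, at fixed `τ`. -/
theorem lintegral_kern_s (φ : ℝ → ℝ) (α : ι → ℝ) (hα : ∀ i, 0 ≤ α i) (x : κ → ℝ → ℝ) {τ : ℝ}
    (hτ : 0 < τ) (hφ1 : φ τ ≤ 1 / (1 + τ))
    (hcount : ∀ s, 0 < s → Nt x s τ ≤ N0 α s τ) :
    ∫⁻ s in Ioi 0, Kern φ α x s τ =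
      ENNReal.ofReal ((∑ i, α i) / (τ * (1 + τ)) - φ τ * ∑ k, max (x k τ) 0) := by
  have h1τ : 0 < 1 + τ := by linarith
  have hN0 : ∀ s, N0 α s τ = ∑ i, if s < α i / τ then (1 : ℝ) else 0 := by
    intro s
    unfold N0
    refine Finset.sum_congr rfl fun i _ => ?_
    have : s * τ < α i ↔ s < α i / τ := (lt_div_iff₀ hτ).symm
    simp [this]
  have hint0 : IntegrableOn (fun s => N0 α s τ) (Ioi 0) := by
    have : (fun s => N0 α s τ) = fun s => ∑ i, if s < α i / τ then (1 : ℝ) else 0 := funext hN0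
    rw [this]
    exact integrable_finsetSum _ fun i _ => integrableOn_ite_lt _
  have hint1 : IntegrableOn (fun s => Nt x s τ) (Ioi 0) := by
    unfold Nt
    exact integrable_finsetSum _ fun k _ => integrableOn_ite_lt _
  set f := fun s => N0 α s τ / (1 + τ) - φ τ * Nt x s τ with hf
  have hfint : IntegrableOn f (Ioi 0) :=
    (hint0.div_const _).sub (hint1.const_mul _)
  have hNt0 : ∀ s, 0 ≤ Nt x s τ := by
    intro s
    unfold Nt
    exact Finset.sum_nonneg fun k _ => by split_ifs <;> norm_num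
  have hfnn : 0 ≤ᵐ[volume.restrict (Ioi 0)] f := by
    filter_upwards [ae_restrict_mem measurableSet_Ioi] with s hs
    have h1 := hcount s hs
    have h2 := hNt0 s
    simp only [hf, Pi.zero_apply]
    have : φ τ * Nt x s τ ≤ 1 / (1 + τ) * N0 α s τ :=
      mul_le_mul hφ1 h1 h2 (by positivity)
    have h3 : N0 α s τ / (1 + τ) = 1 / (1 + τ) * N0 α s τ := by ring
    linarith
  have hval : ∫ s in Ioi 0, f s = (∑ i, α i) / (τ * (1 + τ)) - φ τ * ∑ k, max (x k τ) 0 := by
    simp only [hf]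
    rw [integral_sub (hint0.div_const _) (hint1.const_mul _), integral_div, integral_const_mul]
    congr 1
    · have : (fun s => N0 α s τ) = fun s => ∑ i, if s < α i / τ then (1 : ℝ) else 0 := funext hN0
      simp only [this]
      rw [integral_finsetSum _ fun i _ => integrableOn_ite_lt _]
      simp only [integral_ite_lt]
      have : ∀ i, max (α i / τ) 0 = α i / τ := fun i => max_eq_left (div_nonneg (hα i) hτ.le)
      simp only [this]
      rw [← Finset.sum_div, div_div]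
    · congr 1
      unfold Nt
      rw [integral_finsetSum _ fun i _ => integrableOn_ite_lt _]
      simp only [integral_ite_lt]
  rw [← hval]
  exact (ofReal_integral_eq_lintegral_ofReal hfint hfnn).symm

/-- The integral of `1/(1+τ)` up to a level. -/
lemma integral_ite_div (α : ℝ) (hα : 0 ≤ α) {s : ℝ} (hs : 0 < s) :
    IntegrableOn (fun τ : ℝ => (if s * τ < α then (1 : ℝ) else 0) / (1 + τ)) (Ioi 0) ∧
    ∫ τ in Ioi (0 : ℝ), (if s * τ < α then (1 : ℝ) else 0) / (1 + τ) = Real.log (1 + α / s) := by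
  have hind : (fun τ : ℝ => (if s * τ < α then (1 : ℝ) else 0) / (1 + τ)) =
      (Iio (α / s)).indicator (fun τ => 1 / (1 + τ)) := by
    funext τ
    have : s * τ < α ↔ τ < α / s := by
      rw [lt_div_iff₀ hs, mul_comm]
    by_cases h : τ < α / s
    · simp [this, h]
    · simp [this, h]
  have hset : Iio (α / s) ∩ Ioi 0 = Ioo 0 (α / s) := by
    ext τ; simp [and_comm]
  have hc : 0 ≤ α / s := div_nonneg hα hs.le
  have hcont : ContinuousOn (fun τ : ℝ => 1 / (1 + τ)) (Icc 0 (α / s)) := by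
    refine ContinuousOn.div continuousOn_const (continuousOn_const.add continuousOn_id) ?_
    intro τ hτ
    have := hτ.1
    positivity
  have hderiv : ∀ τ ∈ uIcc 0 (α / s), HasDerivAt (fun t => Real.log (1 + t)) (1 / (1 + τ)) τ := by
    intro τ hτ
    rw [uIcc_of_le hc] at hτ
    have h1 : 0 < 1 + τ := by linarith [hτ.1]
    have := ((hasDerivAt_id τ).const_add 1).log h1.ne'
    simpa using this
  have hII : IntervalIntegrable (fun τ : ℝ => 1 / (1 + τ)) volume 0 (α / s) := by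
    apply ContinuousOn.intervalIntegrable
    rwa [uIcc_of_le hc]
  constructor
  · rw [hind, integrableOn_indicator_iff measurableSet_Iio, hset]
    exact (hcont.integrableOn_Icc).mono_set Ioo_subset_Icc_self
  · rw [hind, setIntegral_indicator measurableSet_Iio]
    have h : Ioi 0 ∩ Iio (α / s) = Ioo 0 (α / s) := by
      ext τ; simp
    rw [h, ← integral_Ioc_eq_integral_Ioo, ← intervalIntegral.integral_of_le hc,
      intervalIntegral.integral_eq_sub_of_hasDerivAt hderiv hII]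
    simp

/-- The integral of `φ` below a level. -/
lemma integral_phi_ite {φ : ℝ → ℝ} (hφm : Measurable φ) (hφ0 : ∀ τ, 0 < τ → 0 ≤ φ τ)
    (hφ1 : ∀ τ, 0 < τ → φ τ ≤ 1 / (1 + τ)) {u : ℝ} (hu : 0 ≤ u) :
    IntegrableOn (fun τ : ℝ => φ τ * (if τ < u then (1 : ℝ) else 0)) (Ioi 0) ∧
    ∫ τ in Ioi (0 : ℝ), φ τ * (if τ < u then (1 : ℝ) else 0) = prim φ u := by
  have hind : (fun τ : ℝ => φ τ * (if τ < u then (1 : ℝ) else 0)) = (Iio u).indicator φ := by
    funext τ
    by_cases h : τ < u <;> simp [h]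
  have hbd : IntegrableOn φ (Ioo 0 u) := by
    refine Measure.integrableOn_of_bounded (M := 1) (by simp) hφm.aestronglyMeasurable ?_
    filter_upwards [ae_restrict_mem measurableSet_Ioo] with τ hτ
    have h0 := hφ0 τ hτ.1
    have h1 := hφ1 τ hτ.1
    have h2 : 1 / (1 + τ) ≤ 1 := by
      rw [div_le_one (by linarith [hτ.1])]
      linarith [hτ.1]
    rw [Real.norm_of_nonneg h0]
    linarith
  constructor
  · rw [hind, integrableOn_indicator_iff measurableSet_Iio]
    have hset : Iio u ∩ Ioi 0 = Ioo 0 u := by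
      ext τ; simp [and_comm]
    rwa [hset]
  · rw [hind, setIntegral_indicator measurableSet_Iio]
    have h : Ioi 0 ∩ Iio u = Ioo 0 u := by
      ext τ; simp
    rw [h, ← integral_Ioc_eq_integral_Ioo, prim, intervalIntegral.integral_of_le hu]

/-- The inner integral in `τ`, at fixed `s`. -/
theorem lintegral_kern_tau {φ : ℝ → ℝ} (hφm : Measurable φ) (hφ0 : ∀ τ, 0 < τ → 0 ≤ φ τ)
    (hφ1 : ∀ τ, 0 < τ → φ τ ≤ 1 / (1 + τ)) (α : ι → ℝ) (hα : ∀ i, 0 ≤ α i) (x : κ → ℝ → ℝ)
    (hx : ∀ k, Measurable (x k)) {s : ℝ} (hs : 0 < s)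
    (hcount : ∀ τ, 0 < τ → Nt x s τ ≤ N0 α s τ) :
    IntegrableOn (fun τ => φ τ * Nt x s τ) (Ioi 0) ∧
    ∫⁻ τ in Ioi 0, Kern φ α x s τ = ENNReal.ofReal
      (∑ i, Real.log (1 + α i / s) - ∫ τ in Ioi (0 : ℝ), φ τ * Nt x s τ) := by
  have hNt0 : ∀ τ, 0 ≤ Nt x s τ := by
    intro τ
    unfold Nt
    exact Finset.sum_nonneg fun k _ => by split_ifs <;> norm_num
  have hint0 : IntegrableOn (fun τ => N0 α s τ / (1 + τ)) (Ioi 0) := by
    have : (fun τ => N0 α s τ / (1 + τ)) =
        fun τ => ∑ i, (if s * τ < α i then (1 : ℝ) else 0) / (1 + τ) := by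
      funext τ
      unfold N0
      rw [Finset.sum_div]
    rw [this]
    exact integrable_finsetSum _ fun i _ => (integral_ite_div (α i) (hα i) hs).1
  have hval0 : ∫ τ in Ioi (0 : ℝ), N0 α s τ / (1 + τ) = ∑ i, Real.log (1 + α i / s) := by
    have : (fun τ => N0 α s τ / (1 + τ)) =
        fun τ => ∑ i, (if s * τ < α i then (1 : ℝ) else 0) / (1 + τ) := by
      funext τ
      unfold N0
      rw [Finset.sum_div]
    simp only [this]
    rw [integral_finsetSum _ fun i _ => (integral_ite_div (α i) (hα i) hs).1]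
    exact Finset.sum_congr rfl fun i _ => (integral_ite_div (α i) (hα i) hs).2
  have hmNt : Measurable fun τ => Nt x s τ := by
    unfold Nt
    refine Finset.measurable_sum _ fun k _ => ?_
    exact Measurable.ite (measurableSet_lt measurable_const (hx k)) measurable_const
      measurable_const
  have hbound : ∀ τ, 0 < τ → φ τ * Nt x s τ ≤ N0 α s τ / (1 + τ) := by
    intro τ hτ
    have h1 := hcount τ hτ
    have h2 := hNt0 τ
    have h0 : 0 ≤ 1 / (1 + τ) := by positivity
    have : φ τ * Nt x s τ ≤ 1 / (1 + τ) * N0 α s τ :=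
      mul_le_mul (hφ1 τ hτ) h1 h2 h0
    have h3 : N0 α s τ / (1 + τ) = 1 / (1 + τ) * N0 α s τ := by ring
    linarith
  have hint1 : IntegrableOn (fun τ => φ τ * Nt x s τ) (Ioi 0) := by
    refine Integrable.mono' hint0 (hφm.mul hmNt).aestronglyMeasurable ?_
    filter_upwards [ae_restrict_mem measurableSet_Ioi] with τ hτ
    rw [Real.norm_of_nonneg (mul_nonneg (hφ0 τ hτ) (hNt0 τ))]
    exact hbound τ hτ
  refine ⟨hint1, ?_⟩
  have hfnn : 0 ≤ᵐ[volume.restrict (Ioi 0)] fun τ => N0 α s τ / (1 + τ) - φ τ * Nt x s τ := by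
    filter_upwards [ae_restrict_mem measurableSet_Ioi] with τ hτ
    simp only [Pi.zero_apply]
    linarith [hbound τ hτ]
  have hsub : IntegrableOn (fun τ => N0 α s τ / (1 + τ) - φ τ * Nt x s τ) (Ioi 0) :=
    hint0.sub hint1
  have := ofReal_integral_eq_lintegral_ofReal hsub hfnn
  unfold Kern
  rw [← this, integral_sub hint0 hint1, hval0]

/-- The per-`s` lower bound for the inner integral. -/
theorem kern_tau_lower {φ : ℝ → ℝ} (hφm : Measurable φ) (hφ0 : ∀ τ, 0 < τ → 0 ≤ φ τ)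
    (hφ1 : ∀ τ, 0 < τ → φ τ ≤ 1 / (1 + τ)) (α : ι → ℝ) (hα : ∀ i, 0 ≤ α i) (x : κ → ℝ → ℝ)
    (hx : ∀ k, Measurable (x k)) (u : κ' → ℝ) (hu : ∀ k', 0 ≤ u k') {s : ℝ} (hs : 0 < s)
    (hcount : ∀ τ, 0 < τ → Nt x s τ ≤ N0 α s τ)
    (Hu : ∀ τ, 0 < τ → Nt x s τ ≤ ∑ k', if τ < u k' then (1 : ℝ) else 0) :
    ENNReal.ofReal (∑ i, Real.log (1 + α i / s) - ∑ k', prim φ (u k')) ≤
      ∫⁻ τ in Ioi 0, Kern φ α x s τ := by
  obtain ⟨hi, he⟩ := lintegral_kern_tau hφm hφ0 hφ1 α hα x hx hs hcount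
  rw [he]
  apply ENNReal.ofReal_le_ofReal
  have hmono : ∫ τ in Ioi (0 : ℝ), φ τ * Nt x s τ ≤ ∑ k', prim φ (u k') := by
    have hrhs : ∑ k', prim φ (u k') =
        ∫ τ in Ioi (0 : ℝ), ∑ k', φ τ * (if τ < u k' then (1 : ℝ) else 0) := by
      rw [integral_finsetSum _ fun k' _ => (integral_phi_ite hφm hφ0 hφ1 (hu k')).1]
      exact Finset.sum_congr rfl fun k' _ => (integral_phi_ite hφm hφ0 hφ1 (hu k')).2.symm
    rw [hrhs]
    refine setIntegral_mono_on hi
      (integrable_finsetSum _ fun k' _ => (integral_phi_ite hφm hφ0 hφ1 (hu k')).1)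
      measurableSet_Ioi fun τ hτ => ?_
    rw [← Finset.mul_sum]
    exact mul_le_mul_of_nonneg_left (Hu τ hτ) (hφ0 τ hτ)
  linarith

/-- The inner integral is measurable in `s`. -/
theorem measurable_kern_tau {φ : ℝ → ℝ} (hφm : Measurable φ) (α : ι → ℝ) (x : κ → ℝ → ℝ)
    (hx : ∀ k, Measurable (x k)) :
    Measurable fun s => ∫⁻ τ in Ioi 0, Kern φ α x s τ :=
  (measurable_kern φ hφm α x hx).lintegral_prod_right'

/-- The comparison of a general family with the scalar family. -/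
theorem xi_abstract {φ : ℝ → ℝ} (hφm : Measurable φ) (hφ0 : ∀ τ, 0 < τ → 0 ≤ φ τ)
    (hφ1 : ∀ τ, 0 < τ → φ τ ≤ 1 / (1 + τ)) (α : ι → ℝ) (hα : ∀ i, 0 ≤ α i) (x : κ → ℝ → ℝ)
    (hx : ∀ k, Measurable (x k)) {a b : ℝ}
    (ha : 0 ≤ a) (hb : 0 ≤ b) (hsum : ∑ i, α i = a)
    (hcount : ∀ s, 0 < s → ∀ τ, 0 < τ → Nt x s τ ≤ N0 α s τ)
    (htr : ∀ τ, 0 < τ → a / τ - b ≤ ∑ k, max (x k τ) 0) :
    ∫⁻ s in Ioi 0, ∫⁻ τ in Ioi 0, Kern φ α x s τ ≤
      ∫⁻ s in Ioi 0, ENNReal.ofReal (Real.log (1 + a / s) - prim φ (a / (s + b))) := by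
  -- the scalar family
  let αs : Unit → ℝ := fun _ => a
  let xs : Unit → ℝ → ℝ := fun _ τ => a / τ - b
  have hxs : ∀ k, Measurable (xs k) := fun _ => (measurable_const.div measurable_id).sub_const b
  have hαs : ∀ i, 0 ≤ αs i := fun _ => ha
  have hNts : ∀ s τ, 0 < s → 0 < τ →
      Nt xs s τ = if τ < a / (s + b) then (1 : ℝ) else 0 := by
    intro s τ hs hτ
    have hsb : 0 < s + b := by linarith
    have : s < a / τ - b ↔ τ < a / (s + b) := by
      rw [lt_sub_iff_add_lt, lt_div_iff₀ hτ, lt_div_iff₀ hsb, mul_comm]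
    simp [Nt, xs, this]
  have hcounts : ∀ s, 0 < s → ∀ τ, 0 < τ → Nt xs s τ ≤ N0 αs s τ := by
    intro s hs τ hτ
    simp only [Nt, N0, xs, αs, Fintype.sum_unique]
    by_cases h : s < a / τ - b
    · have h2 : s * τ < a := by
        have h3 : s + b < a / τ := by linarith
        rw [lt_div_iff₀ hτ] at h3
        nlinarith
      simp [h, h2]
    · simp only [h, if_false]
      split_ifs <;> norm_num
  calc ∫⁻ s in Ioi 0, ∫⁻ τ in Ioi 0, Kern φ α x s τ
      = ∫⁻ τ in Ioi 0, ∫⁻ s in Ioi 0, Kern φ α x s τ := lintegral_kern_swap φ hφm α x hx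
    _ = ∫⁻ τ in Ioi 0, ENNReal.ofReal (a / (τ * (1 + τ)) - φ τ * ∑ k, max (x k τ) 0) := by
        refine setLIntegral_congr_fun measurableSet_Ioi fun τ hτ => ?_
        have := lintegral_kern_s φ α hα x hτ (hφ1 τ hτ)
          (fun s hs => hcount s hs τ hτ)
        rw [hsum] at this
        exact this
    _ ≤ ∫⁻ τ in Ioi 0, ENNReal.ofReal (a / (τ * (1 + τ)) - φ τ * max (a / τ - b) 0) := by
        refine setLIntegral_mono' measurableSet_Ioi fun τ hτ => ?_
        apply ENNReal.ofReal_le_ofReal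
        have h1 : max (a / τ - b) 0 ≤ ∑ k, max (x k τ) 0 :=
          max_le (htr τ hτ) (Finset.sum_nonneg fun k _ => le_max_right _ _)
        have := mul_le_mul_of_nonneg_left h1 (hφ0 τ hτ)
        linarith
    _ = ∫⁻ τ in Ioi 0, ∫⁻ s in Ioi 0, Kern φ αs xs s τ := by
        refine setLIntegral_congr_fun measurableSet_Ioi fun τ hτ => ?_
        have := lintegral_kern_s φ αs hαs xs hτ (hφ1 τ hτ)
          (fun s hs => hcounts s hs τ hτ)
        simp only [αs, xs, Fintype.sum_unique] at this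
        exact this.symm
    _ = ∫⁻ s in Ioi 0, ∫⁻ τ in Ioi 0, Kern φ αs xs s τ :=
        (lintegral_kern_swap φ hφm αs xs hxs).symm
    _ = ∫⁻ s in Ioi 0, ENNReal.ofReal (Real.log (1 + a / s) - prim φ (a / (s + b))) := by
        refine setLIntegral_congr_fun measurableSet_Ioi fun s hs => ?_
        obtain ⟨hi, he⟩ := lintegral_kern_tau hφm hφ0 hφ1 αs hαs xs hxs hs (hcounts s hs)
        have hsb : 0 < s + b := by linarith [mem_Ioi.mp hs]
        have hprim := (integral_phi_ite hφm hφ0 hφ1 (div_nonneg ha hsb.le)).2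
        have hcongr : ∫ τ in Ioi (0 : ℝ), φ τ * Nt xs s τ = prim φ (a / (s + b)) := by
          rw [← hprim]
          refine setIntegral_congr_fun measurableSet_Ioi fun τ hτ => ?_
          rw [hNts s τ hs hτ]
        rw [he, hcongr]
        simp only [αs, Fintype.sum_unique]

end Crest.Agent.GADLib
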