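import Crest.Agent.Lib.GAD.Spec

/-!
The matrix pencil `A - τ (s + B)`: comparison of the eigenvalue counts of `Eᴴ (s + B)⁻¹ E` and of
`y E Eᴴ - B`.
-/

set_option autoImplicit false
set_option linter.unusedSectionVars false

namespace Crest.Agent.GADLib

open Matrix Finset
open scoped ComplexOrder

variable {I K : Type*} [Fintype I] [DecidableEq I] [Fintype K] [DecidableEq K]

/-- `s + B`. -/
noncomputable def Res (B : Matrix I I ℂ) (s : ℝ) : Matrix I I ℂ := (s : ℂ) • 1 + B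

/-- `Eᴴ (s + B)⁻¹ E`. -/
noncomputable def UU (E : Matrix I K ℂ) (B : Matrix I I ℂ) (s : ℝ) : Matrix K K ℂ :=
  Eᴴ * (Res B s)⁻¹ * E

/-- `y E Eᴴ - B`. -/
noncomputable def XX (E : Matrix I K ℂ) (B : Matrix I I ℂ) (y : ℝ) : Matrix I I ℂ :=
  (y : ℂ) • (E * Eᴴ) - B

lemma res_herm {B : Matrix I I ℂ} (hB : B.IsHermitian) (s : ℝ) : (Res B s).IsHermitian := by
  unfold Res
  refine IsHermitian.add ?_ hB
  unfold IsHermitian
  simp [conjTranspose_smul]

lemma res_posDef {B : Matrix I I ℂ} (hB : B.PosSemidef) {s : ℝ} (hs : 0 < s) :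
    (Res B s).PosDef := by
  unfold Res
  refine PosDef.add_posSemidef ?_ hB
  exact PosDef.one.smul (by simpa using hs)

lemma UU_herm (E : Matrix I K ℂ) {B : Matrix I I ℂ} (hB : B.IsHermitian) (s : ℝ) :
    (UU E B s).IsHermitian := by
  unfold UU IsHermitian
  have h : ((Res B s)⁻¹)ᴴ = (Res B s)⁻¹ := by
    rw [conjTranspose_nonsing_inv, (res_herm hB s).eq]
  simp [conjTranspose_mul, h, Matrix.mul_assoc]

lemma UU_posSemidef (E : Matrix I K ℂ) {B : Matrix I I ℂ} (hB : B.PosSemidef) {s : ℝ}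
    (hs : 0 < s) : (UU E B s).PosSemidef := by
  unfold UU
  exact (res_posDef hB hs).inv.posSemidef.conjTranspose_mul_mul_same E

lemma XX_herm (E : Matrix I K ℂ) {B : Matrix I I ℂ} (hB : B.IsHermitian) (y : ℝ) :
    (XX E B y).IsHermitian := by
  unfold XX
  refine IsHermitian.sub ?_ hB
  unfold IsHermitian
  simp [conjTranspose_smul, conjTranspose_mul]

lemma mulEEH_posSemidef (E : Matrix I K ℂ) : (E * Eᴴ).PosSemidef :=
  posSemidef_self_mul_conjTranspose E

lemma nsq_conjTranspose_mulVec (E : Matrix I K ℂ) (x : I → ℂ) :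
    nsq (Eᴴ *ᵥ x) = qf (E * Eᴴ) x := by
  have := qf_conj (Eᴴ) (1 : Matrix K K ℂ) x
  simpa [qf_one] using this.symm

/-- Comparison with the eigenvalues of `Eᴴ (s + B)⁻¹ E`. -/
theorem cnt_XX_le_cnt_UU (E : Matrix I K ℂ) {B : Matrix I I ℂ} (hB : B.PosSemidef) {y s : ℝ}
    (hy : 0 < y) (hs : 0 < s) :
    cnt (XX_herm E hB.isHermitian y) s ≤ cnt (UU_herm E hB.isHermitian s) (1 / y) := by
  refine cnt_le_of_map _ _ s (1 / y) (Eᴴ).mulVecLin fun x hx => ?_
  simp only [mulVecLin_apply]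
  set m := qf (E * Eᴴ) x with hm
  rw [nsq_conjTranspose_mulVec, ← hm]
  have hq : qf (UU E B s) (Eᴴ *ᵥ x) = qf (Res B s)⁻¹ (E *ᵥ (Eᴴ *ᵥ x)) := by
    unfold UU
    exact qf_conj E _ _
  rw [hq]
  have hdot : (star x ⬝ᵥ (E *ᵥ (Eᴴ *ᵥ x))).re = m := by
    rw [hm, mulVec_mulVec]; rfl
  have hcs := two_mul_re_le (res_posDef hB hs) x (E *ᵥ (Eᴴ *ᵥ x)) y
  rw [hdot] at hcs
  have hXq : qf (XX E B y) x = y * m - qf B x := by
    unfold XX
    rw [qf_sub, qf_smul]
  have hRq : qf (Res B s) x = s * nsq x + qf B x := by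
    unfold Res
    rw [qf_add, qf_smul, qf_one]
  rw [hXq] at hx
  rw [hRq] at hcs
  set q := qf (Res B s)⁻¹ (E *ᵥ (Eᴴ *ᵥ x)) with hqdef
  have h1 : y * m < y ^ 2 * q := by nlinarith
  have h2 : m < y * q := by
    have : y * m < y * (y * q) := by nlinarith
    exact lt_of_mul_lt_mul_left this hy.le
  rw [one_div, inv_mul_lt_iff₀ hy]
  exact h2

/-- Comparison with the eigenvalues of `E Eᴴ`. -/
theorem cnt_XX_le_cnt_A (E : Matrix I K ℂ) {B : Matrix I I ℂ} (hB : B.PosSemidef) {y s : ℝ}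
    (hy : 0 < y) :
    cnt (XX_herm E hB.isHermitian y) s ≤ cnt (mulEEH_posSemidef E).isHermitian (s / y) := by
  refine cnt_le_of_map _ _ s (s / y) LinearMap.id fun x hx => ?_
  simp only [LinearMap.id_coe, id_eq]
  have hXq : qf (XX E B y) x = y * qf (E * Eᴴ) x - qf B x := by
    unfold XX
    rw [qf_sub, qf_smul]
  rw [hXq] at hx
  have hB' := qf_nonneg hB x
  rw [div_mul_eq_mul_div, div_lt_iff₀ hy]
  linarith

/-- The eigenvalues of `y E Eᴴ - B` are monotone in `y`. -/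
theorem XX_eigenvalues_monotone (E : Matrix I K ℂ) {B : Matrix I I ℂ} (hB : B.IsHermitian)
    (i : I) : Monotone fun y : ℝ => (XX_herm E hB y).eigenvalues i := by
  intro y y' hyy
  refine eigenvalues_mono _ _ ?_ i
  have : XX E B y' - XX E B y = ((y' - y : ℝ) : ℂ) • (E * Eᴴ) := by
    unfold XX
    push_cast
    rw [sub_smul]
    abel
  rw [this]
  exact (mulEEH_posSemidef E).smul (by
    have : (0 : ℝ) ≤ y' - y := sub_nonneg.mpr hyy
    exact_mod_cast this)

/-- The trace of `y E Eᴴ - B`. -/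
lemma XX_sum_eigenvalues (E : Matrix I K ℂ) {B : Matrix I I ℂ} (hB : B.IsHermitian) (y : ℝ) :
    ∑ i, (XX_herm E hB y).eigenvalues i = y * (E * Eᴴ).trace.re - B.trace.re := by
  have h := (XX_herm E hB y).trace_eq_sum_eigenvalues
  have h' : (XX E B y).trace.re = ∑ i, (XX_herm E hB y).eigenvalues i := by
    rw [h]
    simp
  rw [← h']
  unfold XX
  simp [trace_sub, trace_smul]

end Crest.Agent.GADLib
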