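import Mathlib
import Crest.Prelude.Def_QState

/-!
Spectral toolkit for the generalized amplitude-damping additivity proof: unitary diagonalisation,
quadratic form expansions, doubly stochastic weights, counting eigenvalues above a threshold.
-/

set_option autoImplicit false
set_option linter.unusedSectionVars false

namespace Crest.Agent.GADLib

open Matrix Finset
open scoped ComplexOrder

variable {n m : Type*} [Fintype n] [DecidableEq n] [Fintype m] [DecidableEq m]

/-- The unitary of eigenvectors, as a matrix. -/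
noncomputable def evU {X : Matrix n n ℂ} (hX : X.IsHermitian) : Matrix n n ℂ :=
  (hX.eigenvectorUnitary : Matrix n n ℂ)

lemma evU_star_mul {X : Matrix n n ℂ} (hX : X.IsHermitian) : star (evU hX) * evU hX = 1 :=
  Unitary.coe_star_mul_self hX.eigenvectorUnitary

lemma evU_mul_star {X : Matrix n n ℂ} (hX : X.IsHermitian) : evU hX * star (evU hX) = 1 :=
  Unitary.coe_mul_star_self hX.eigenvectorUnitary

lemma spectral {X : Matrix n n ℂ} (hX : X.IsHermitian) :
    X = evU hX * diagonal (fun i => (hX.eigenvalues i : ℂ)) * star (evU hX) := by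
  have := hX.spectral_theorem
  rw [Unitary.conjStarAlgAut_apply] at this
  exact this

/-- Real part of the quadratic form. -/
noncomputable def qf (X : Matrix n n ℂ) (x : n → ℂ) : ℝ := (star x ⬝ᵥ X *ᵥ x).re

/-- Squared norm. -/
noncomputable def nsq (x : n → ℂ) : ℝ := ∑ i, Complex.normSq (x i)

lemma nsq_eq_re (x : n → ℂ) : nsq x = (star x ⬝ᵥ x).re := by
  simp only [nsq, dotProduct, Pi.star_apply, Complex.re_sum]
  refine Finset.sum_congr rfl fun i _ => ?_
  simp [Complex.normSq_apply, Complex.mul_re]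

lemma dotProduct_star_mulVec_diag (d : n → ℝ) (y : n → ℂ) :
    (star y ⬝ᵥ (diagonal (fun i => (d i : ℂ))) *ᵥ y).re = ∑ i, d i * Complex.normSq (y i) := by
  simp only [dotProduct, Pi.star_apply, mulVec_diagonal, Complex.re_sum]
  refine Finset.sum_congr rfl fun i _ => ?_
  simp [Complex.normSq_apply, Complex.mul_re, Complex.mul_im]
  ring

lemma star_star_mulVec (U : Matrix n n ℂ) (x : n → ℂ) :
    star (star U *ᵥ x) = star x ᵥ* U := by
  rw [star_mulVec, star_eq_conjTranspose, conjTranspose_conjTranspose]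

/-- Expansion of the quadratic form in the eigenbasis. -/
lemma qf_expand {X : Matrix n n ℂ} (hX : X.IsHermitian) (x : n → ℂ) :
    qf X x = ∑ i, hX.eigenvalues i * Complex.normSq ((star (evU hX) *ᵥ x) i) := by
  rw [← dotProduct_star_mulVec_diag]
  unfold qf
  conv_lhs => rw [spectral hX]
  rw [← mulVec_mulVec, ← mulVec_mulVec, dotProduct_mulVec, star_star_mulVec]

/-- The unitary of eigenvectors preserves the norm. -/
lemma nsq_expand {X : Matrix n n ℂ} (hX : X.IsHermitian) (x : n → ℂ) :
    nsq x = nsq (star (evU hX) *ᵥ x) := by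
  rw [nsq_eq_re, nsq_eq_re, star_star_mulVec, ← dotProduct_mulVec, mulVec_mulVec, evU_mul_star,
    one_mulVec]

lemma mulVec_star_evU {X : Matrix n n ℂ} (hX : X.IsHermitian) (y : n → ℂ) :
    star (evU hX) *ᵥ (evU hX *ᵥ y) = y := by
  rw [mulVec_mulVec, evU_star_mul, one_mulVec]

lemma qf_eq_of_real_sum (X : Matrix n n ℂ) (x : n → ℂ) :
    qf X x = (star x ⬝ᵥ X *ᵥ x).re := rfl

/-- Number of eigenvalues strictly above a threshold. -/
noncomputable def cnt {X : Matrix n n ℂ} (hX : X.IsHermitian) (t : ℝ) : ℕ :=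
  (univ.filter fun i => t < hX.eigenvalues i).card

/-- Comparison of counts through a linear map. -/
theorem cnt_le_of_map {X₁ : Matrix n n ℂ} {X₂ : Matrix m m ℂ} (h₁ : X₁.IsHermitian)
    (h₂ : X₂.IsHermitian) (t₁ t₂ : ℝ) (T : (n → ℂ) →ₗ[ℂ] (m → ℂ))
    (H : ∀ x, t₁ * nsq x < qf X₁ x → t₂ * nsq (T x) < qf X₂ (T x)) :
    cnt h₁ t₁ ≤ cnt h₂ t₂ := by
  classical
  by_contra hlt
  push Not at hlt
  set S₁ := univ.filter fun i => t₁ < h₁.eigenvalues i with hS₁
  set S₂ := univ.filter fun j => t₂ < h₂.eigenvalues j with hS₂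
  -- the extension of a vector indexed by S₁ by zero
  let ext : ({i // i ∈ S₁} → ℂ) →ₗ[ℂ] (n → ℂ) :=
    { toFun := fun c i => if hi : i ∈ S₁ then c ⟨i, hi⟩ else 0
      map_add' := by
        intro c d; funext i; by_cases hi : i ∈ S₁ <;> simp [hi]
      map_smul' := by
        intro a c; funext i; by_cases hi : i ∈ S₁ <;> simp [hi] }
  let restr : (m → ℂ) →ₗ[ℂ] ({j // j ∈ S₂} → ℂ) :=
    { toFun := fun y j => y j.1
      map_add' := by intros; rfl
      map_smul' := by intros; rfl }
  let L : ({i // i ∈ S₁} → ℂ) →ₗ[ℂ] ({j // j ∈ S₂} → ℂ) :=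
    restr ∘ₗ (star (evU h₂)).mulVecLin ∘ₗ T ∘ₗ (evU h₁).mulVecLin ∘ₗ ext
  have hker : LinearMap.ker L ≠ ⊥ := by
    apply LinearMap.ker_ne_bot_of_finrank_lt
    simpa [Module.finrank_fintype_fun_eq_card, cnt] using hlt
  obtain ⟨c, hcmem, hc⟩ := Submodule.exists_mem_ne_zero_of_ne_bot hker
  have hLc : L c = 0 := hcmem
  set y := ext c with hy
  set x := evU h₁ *ᵥ y with hx
  have hyne : y ≠ 0 := by
    intro h0
    apply hc
    funext ⟨i, hi⟩
    have := congrFun h0 i
    simpa [hy, ext, hi] using this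
  have hstar : star (evU h₁) *ᵥ x = y := mulVec_star_evU h₁ y
  have hqf1 : t₁ * nsq x < qf X₁ x := by
    rw [qf_expand h₁, nsq_expand h₁, hstar, nsq, Finset.mul_sum]
    have hle : ∀ i ∈ (univ : Finset n),
        t₁ * Complex.normSq (y i) ≤ h₁.eigenvalues i * Complex.normSq (y i) := by
      intro i _
      by_cases hi : i ∈ S₁
      · exact mul_le_mul_of_nonneg_right (le_of_lt (by simpa [hS₁] using hi))
          (Complex.normSq_nonneg _)
      · have : y i = 0 := by simp [hy, ext, hi]
        simp [this]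
    obtain ⟨i₀, hi₀⟩ : ∃ i, y i ≠ 0 := by
      by_contra hall
      push Not at hall
      exact hyne (funext hall)
    refine Finset.sum_lt_sum hle ⟨i₀, mem_univ _, ?_⟩
    have hi₀S : i₀ ∈ S₁ := by
      by_contra hn
      exact hi₀ (by simp [hy, ext, hn])
    exact mul_lt_mul_of_pos_right (by simpa [hS₁] using hi₀S) (Complex.normSq_pos.mpr hi₀)
  have hqf2 := H x hqf1
  -- contradiction: T x has no component on S₂
  set w := star (evU h₂) *ᵥ (T x) with hw
  have hw0 : ∀ j ∈ S₂, w j = 0 := by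
    intro j hj
    have := congrFun hLc ⟨j, hj⟩
    simpa [L, restr, hw, hx, hy, Function.comp] using this
  rw [qf_expand h₂, nsq_expand h₂, ← hw, nsq, Finset.mul_sum] at hqf2
  refine absurd hqf2 (not_lt.mpr (Finset.sum_le_sum fun j _ => ?_))
  by_cases hj : j ∈ S₂
  · simp [hw0 j hj]
  · have : h₂.eigenvalues j ≤ t₂ := by
      by_contra hcon
      exact hj (by simp [hS₂]; linarith [not_le.mp hcon])
    exact mul_le_mul_of_nonneg_right this (Complex.normSq_nonneg _)

/-! ### Quadratic form helpers -/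

lemma qf_add (X Y : Matrix n n ℂ) (x : n → ℂ) : qf (X + Y) x = qf X x + qf Y x := by
  simp [qf, add_mulVec, dotProduct_add]

lemma qf_sub (X Y : Matrix n n ℂ) (x : n → ℂ) : qf (X - Y) x = qf X x - qf Y x := by
  simp [qf, sub_mulVec, dotProduct_sub]

lemma qf_smul (c : ℝ) (X : Matrix n n ℂ) (x : n → ℂ) : qf ((c : ℂ) • X) x = c * qf X x := by
  simp [qf, smul_mulVec, dotProduct_smul]

lemma qf_one (x : n → ℂ) : qf (1 : Matrix n n ℂ) x = nsq x := by
  simp [qf, nsq_eq_re]

lemma qf_nonneg {X : Matrix n n ℂ} (hX : X.PosSemidef) (x : n → ℂ) : 0 ≤ qf X x := by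
  have := hX.dotProduct_mulVec_nonneg x
  exact (Complex.le_def.mp this).1

lemma qf_conj {k : Type*} [Fintype k] (M : Matrix n k ℂ) (Z : Matrix n n ℂ) (v : k → ℂ) :
    qf (Mᴴ * Z * M) v = qf Z (M *ᵥ v) := by
  unfold qf
  rw [← mulVec_mulVec, ← mulVec_mulVec, star_mulVec, dotProduct_mulVec]

lemma re_dot_comm (a b : n → ℂ) : (star a ⬝ᵥ b).re = (star b ⬝ᵥ a).re := by
  simp only [dotProduct, Pi.star_apply, Complex.re_sum]
  refine Finset.sum_congr rfl fun i _ => ?_
  simp [Complex.mul_re]
  ring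

/-- A Cauchy-Schwarz inequality for a positive definite matrix and its inverse, in additive form. -/
lemma two_mul_re_le {Y : Matrix n n ℂ} (hY : Y.PosDef) (x w : n → ℂ) (c : ℝ) :
    2 * c * (star x ⬝ᵥ w).re ≤ qf Y x + c ^ 2 * qf Y⁻¹ w := by
  have hu : IsUnit Y.det := (Matrix.isUnit_iff_isUnit_det _).mp hY.isUnit
  set y := Y⁻¹ *ᵥ w with hy
  have hYy : Y *ᵥ y = w := by
    rw [hy, mulVec_mulVec, Matrix.mul_nonsing_inv _ hu, one_mulVec]
  have hnn := qf_nonneg hY.posSemidef (x - (c : ℂ) • y)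
  have hherm : star y ᵥ* Y = star w := by
    have := star_mulVec Y y
    rw [hYy, hY.isHermitian.eq] at this
    exact this.symm
  have hexp : qf Y (x - (c : ℂ) • y) =
      qf Y x - 2 * c * (star x ⬝ᵥ w).re + c ^ 2 * qf Y⁻¹ w := by
    have h1 : Y *ᵥ (x - (c : ℂ) • y) = Y *ᵥ x - (c : ℂ) • w := by
      rw [mulVec_sub, mulVec_smul, hYy]
    have h2 : star (x - (c : ℂ) • y) = star x - (c : ℂ) • star y := by
      funext i; simp
    have h3 : star y ⬝ᵥ Y *ᵥ x = star w ⬝ᵥ x := by
      rw [dotProduct_mulVec, hherm]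
    have h4 : (star y ⬝ᵥ w).re = qf Y⁻¹ w := by
      rw [re_dot_comm]; rfl
    unfold qf at h4 ⊢
    rw [h1, h2, sub_dotProduct, dotProduct_sub, dotProduct_sub, smul_dotProduct, smul_dotProduct,
      dotProduct_smul, dotProduct_smul, h3]
    simp only [Complex.sub_re, smul_eq_mul, Complex.mul_re, Complex.ofReal_re,
      Complex.ofReal_im, zero_mul, sub_zero, Complex.mul_im, add_zero]
    rw [re_dot_comm w x, h4]
    ring
  rw [hexp] at hnn
  linarith

lemma cnt_eq_sorted {X : Matrix n n ℂ} (hX : X.IsHermitian) (t : ℝ) :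
    cnt hX t = (univ.filter fun k => t < hX.eigenvalues₀ k).card := by
  unfold cnt
  refine Finset.card_bij (fun a _ => (Fintype.equivOfCardEq (Fintype.card_fin _)).symm a) ?_ ?_ ?_
  · intro a ha
    simp only [mem_filter, mem_univ, true_and] at ha ⊢
    exact ha
  · intro a _ b _ hab
    exact (Fintype.equivOfCardEq (Fintype.card_fin _)).symm.injective hab
  · intro k hk
    refine ⟨(Fintype.equivOfCardEq (Fintype.card_fin _)) k, ?_, by simp⟩
    simp only [mem_filter, mem_univ, true_and] at hk ⊢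
    simpa [IsHermitian.eigenvalues] using hk

/-- Weyl monotonicity of the eigenvalues, with the labelling of Mathlib. -/
theorem eigenvalues_mono {X Y : Matrix n n ℂ} (hX : X.IsHermitian) (hY : Y.IsHermitian)
    (hXY : (Y - X).PosSemidef) (i : n) : hX.eigenvalues i ≤ hY.eigenvalues i := by
  classical
  by_contra hlt
  push Not at hlt
  set t := hY.eigenvalues i with ht
  have hc : cnt hX t ≤ cnt hY t := by
    refine cnt_le_of_map hX hY t t LinearMap.id fun x hx => ?_
    have h0 := qf_nonneg hXY x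
    rw [qf_sub] at h0
    simp only [LinearMap.id_coe, id_eq]
    linarith
  -- pass to the sorted eigenvalues
  set e := (Fintype.equivOfCardEq (Fintype.card_fin (Fintype.card n))) with he
  have hcntX := cnt_eq_sorted hX t
  have hcntY := cnt_eq_sorted hY t
  set k₀ := e.symm i with hk₀
  have hXk : t < hX.eigenvalues₀ k₀ := by simpa [IsHermitian.eigenvalues, he, hk₀] using hlt
  have hYk : hY.eigenvalues₀ k₀ = t := by simp [ht, IsHermitian.eigenvalues, he, hk₀]
  have h1 : (Finset.Iic k₀) ⊆ univ.filter fun k => t < hX.eigenvalues₀ k := by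
    intro k hk
    simp only [Finset.mem_Iic] at hk
    simp only [mem_filter, mem_univ, true_and]
    exact lt_of_lt_of_le hXk (hX.eigenvalues₀_antitone hk)
  have h2 : (univ.filter fun k => t < hY.eigenvalues₀ k) ⊆ Finset.Iio k₀ := by
    intro k hk
    simp only [mem_filter, mem_univ, true_and] at hk
    simp only [Finset.mem_Iio]
    by_contra hge
    push Not at hge
    have := hY.eigenvalues₀_antitone hge
    rw [hYk] at this
    linarith
  have h3 := Finset.card_le_card h1
  have h4 := Finset.card_le_card h2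
  simp only [Fin.card_Iic, Fin.card_Iio] at h3 h4
  rw [hcntX, hcntY] at hc
  omega

end Crest.Agent.GADLib
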