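import Crest.Agent.Lib.GAD.Key
import Crest.Agent.Lib.GAD.Power

set_option autoImplicit false
set_option linter.unusedSectionVars false
set_option linter.unusedSimpArgs false
set_option linter.unusedVariables false

namespace Crest.Agent.GADLib

open Matrix Crest.Quantum Crest.MathPhysics.AmpDamp
open scoped ComplexOrder Kronecker

variable {d e : Type} [Fintype d] [Fintype e] [DecidableEq d] [DecidableEq e]

/-- A channel sends positive semidefinite matrices to positive semidefinite matrices. -/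
lemma psd_of_channel {Ψ : Matrix d d ℂ → Matrix e e ℂ} (hΨ : IsChannel Ψ) {M : Matrix d d ℂ}
    (hM : M.PosSemidef) : (Ψ M).PosSemidef := by
  have hN : (M.submatrix (Prod.snd : Unit × d → d) Prod.snd).PosSemidef := hM.submatrix _
  have h := cp_aux hΨ.2.1 (k := Unit) _ hN
  have h2 := h.submatrix (fun i : e => ((), i))
  have h3 : ((blockwise (k := Unit) Ψ (M.submatrix (Prod.snd : Unit × d → d) Prod.snd)).submatrix
      (fun i : e => ((), i)) (fun i : e => ((), i))) = Ψ M := by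
    ext i j
    have : block (M.submatrix (Prod.snd : Unit × d → d) Prod.snd) () () = M := by
      ext x y
      simp [block]
    simp [blockwise, this]
  rw [h3] at h2
  exact h2

lemma density_of_channel {Ψ : Matrix d d ℂ → Matrix e e ℂ} (hΨ : IsChannel Ψ) {M : Matrix d d ℂ}
    (hM : IsDensity M) : IsDensity (Ψ M) :=
  ⟨psd_of_channel hΨ hM.1, by rw [hΨ.2.2 M]; exact hM.2⟩

lemma psd_smul {M : Matrix d d ℂ} (hM : M.PosSemidef) {t : ℝ} (ht : 0 ≤ t) :
    ((t : ℂ) • M).PosSemidef :=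
  hM.smul (by exact_mod_cast ht)

lemma psd_sum_smul {ι : Type} [Fintype ι] {w : ι → ℝ} {M : ι → Matrix d d ℂ}
    (hw : ∀ i, 0 ≤ w i) (hM : ∀ i, (M i).PosSemidef) :
    (∑ i, (w i : ℂ) • M i).PosSemidef :=
  posSemidef_sum _ fun i _ => psd_smul (hM i) (hw i)

lemma trace_sum_smul {ι : Type} [Fintype ι] (w : ι → ℝ) (M : ι → Matrix d d ℂ) :
    (∑ i, (w i : ℂ) • M i).trace = ∑ i, (w i : ℂ) * (M i).trace := by
  simp [Matrix.trace_sum, Matrix.trace_smul]

lemma density_sum_smul {ι : Type} [Fintype ι] {w : ι → ℝ} {M : ι → Matrix d d ℂ}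
    (hw : ∀ i, 0 ≤ w i) (h1 : ∑ i, w i = 1) (hM : ∀ i, IsDensity (M i)) :
    IsDensity (∑ i, (w i : ℂ) • M i) := by
  refine ⟨psd_sum_smul hw fun i => (hM i).1, ?_⟩
  rw [trace_sum_smul]
  simp only [(hM _).2, mul_one]
  exact_mod_cast h1

/-- Reindexing an ensemble over a general finite type to `Fin m`. -/
lemma exists_fin_ensemble {ι : Type} [Fintype ι] (w : ι → ℝ) (σ : ι → Matrix d d ℂ)
    (h0 : ∀ i, 0 ≤ w i) (h1 : ∑ i, w i = 1) (hσ : ∀ i, IsDensity (σ i))
    (Φ : Matrix d d ℂ → Matrix e e ℂ) :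
    ∃ (m : ℕ) (q : Fin m → ℝ) (ρ : Fin m → Matrix d d ℂ), IsEnsemble q ρ ∧
      holevoInfo Φ q ρ =
        vnEntropy (∑ i, (w i : ℂ) • Φ (σ i)) - ∑ i, w i * vnEntropy (Φ (σ i)) := by
  let E := Fintype.equivFin ι
  refine ⟨Fintype.card ι, w ∘ E.symm, σ ∘ E.symm, ⟨fun a => h0 _, ?_, fun a => hσ _⟩, ?_⟩
  · rw [← h1]
    exact Equiv.sum_comp E.symm w
  · unfold holevoInfo
    have e1 : ∑ a, (((w ∘ E.symm) a : ℝ) : ℂ) • Φ ((σ ∘ E.symm) a) = ∑ i, (w i : ℂ) • Φ (σ i) :=
      Equiv.sum_comp E.symm (fun i => (w i : ℂ) • Φ (σ i))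
    have e2 : ∑ a, (w ∘ E.symm) a * vnEntropy (Φ ((σ ∘ E.symm) a)) =
        ∑ i, w i * vnEntropy (Φ (σ i)) :=
      Equiv.sum_comp E.symm (fun i => w i * vnEntropy (Φ (σ i)))
    rw [e1, e2]

lemma trace_eq_blocks (M : Matrix (Bool × d) (Bool × d) ℂ) :
    M.trace = (block M false false).trace + (block M true true).trace := by
  simp [Matrix.trace, Fintype.sum_prod_type, block, Fintype.sum_bool]
  ring

lemma trace_re_of_psd {M : Matrix d d ℂ} (hM : M.PosSemidef) : (M.trace.re : ℂ) = M.trace := by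
  have h := hM.trace_nonneg
  have h2 := (Complex.le_def.1 h).2
  apply Complex.ext
  · simp
  · simpa using h2

lemma trace_re_nonneg_of_psd {M : Matrix d d ℂ} (hM : M.PosSemidef) : 0 ≤ M.trace.re := by
  have h := hM.trace_nonneg
  simpa using (Complex.le_def.1 h).1

lemma block_smul_sum {ι : Type} [Fintype ι] (w : ι → ℂ) (M : ι → Matrix (Bool × e) (Bool × e) ℂ)
    (s t : Bool) :
    block (∑ i, w i • M i) s t = ∑ i, w i • block (M i) s t := by
  ext x y
  simp [block, Matrix.sum_apply]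

lemma block_qubitTensor_ff (γ ν : ℝ) (Ψ : Matrix d d ℂ → Matrix e e ℂ)
    (ρ : Matrix (Bool × d) (Bool × d) ℂ) :
    block (qubitTensor (gadMap γ ν) Ψ ρ) false false =
      ((1 - γ * ν : ℝ) : ℂ) • Ψ (block ρ false false) +
        ((γ * (1 - ν) : ℝ) : ℂ) • Ψ (block ρ true true) := by
  ext x y
  simp [block, qubitTensor, qubitCoeff, gadMap, Fintype.sum_bool, Matrix.single_apply]
  try ring

lemma block_qubitTensor_tt (γ ν : ℝ) (Ψ : Matrix d d ℂ → Matrix e e ℂ)
    (ρ : Matrix (Bool × d) (Bool × d) ℂ) :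
    block (qubitTensor (gadMap γ ν) Ψ ρ) true true =
      ((γ * ν : ℝ) : ℂ) • Ψ (block ρ false false) +
        ((1 - γ + γ * ν : ℝ) : ℂ) • Ψ (block ρ true true) := by
  ext x y
  simp [block, qubitTensor, qubitCoeff, gadMap, Fintype.sum_bool, Matrix.single_apply]
  try ring

lemma block_add_of_density {γ ν : ℝ} {Ψ : Matrix d d ℂ → Matrix e e ℂ} (hΨ : IsChannel Ψ)
    (ρ : Matrix (Bool × d) (Bool × d) ℂ) :
    block (qubitTensor (gadMap γ ν) Ψ ρ) false false +
      block (qubitTensor (gadMap γ ν) Ψ ρ) true true =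
      Ψ (block ρ false false + block ρ true true) := by
  rw [block_qubitTensor_ff, block_qubitTensor_tt, hΨ.1.map_add]
  ext x y
  simp only [Matrix.add_apply, Matrix.smul_apply, smul_eq_mul]
  push_cast
  ring

lemma qubit_traces {γ ν : ℝ} {Ψ : Matrix d d ℂ → Matrix e e ℂ} (hΨ : IsChannel Ψ)
    {ρ : Matrix (Bool × d) (Bool × d) ℂ} (hρ : IsDensity ρ) :
    (block (qubitTensor (gadMap γ ν) Ψ ρ) true true).trace =
        (((1 - γ) * (block ρ true true).trace.re + γ * ν : ℝ) : ℂ) ∧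
    (block (qubitTensor (gadMap γ ν) Ψ ρ) false false).trace =
        ((1 - ((1 - γ) * (block ρ true true).trace.re + γ * ν) : ℝ) : ℂ) := by
  have h1 := trace_eq_blocks ρ
  rw [hρ.2] at h1
  have hp := trace_re_of_psd (block_posSemidef hρ.1 true)
  set p := (block ρ true true).trace.re with hpdef
  have hff : (block ρ false false).trace = ((1 - p : ℝ) : ℂ) := by
    push_cast
    rw [hp]
    rw [h1]
    ring
  have htt : (block ρ true true).trace = (p : ℂ) := hp.symm
  constructor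
  · rw [block_qubitTensor_tt, Matrix.trace_add, Matrix.trace_smul, Matrix.trace_smul,
      hΨ.2.2, hΨ.2.2, hff, htt]
    simp only [smul_eq_mul]
    push_cast
    ring
  · rw [block_qubitTensor_ff, Matrix.trace_add, Matrix.trace_smul, Matrix.trace_smul,
      hΨ.2.2, hΨ.2.2, hff, htt]
    simp only [smul_eq_mul]
    push_cast
    ring

/-- The Holevo information of the product channel is bounded by the two pieces. -/
theorem holevo_step {γ ν : ℝ} (hγ : γ ∈ Set.Icc (0 : ℝ) 1) (hν : ν ∈ Set.Icc (0 : ℝ) 1)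
    {Ψ : Matrix d d ℂ → Matrix e e ℂ} (hΨ : IsChannel Ψ) {m : ℕ} {q : Fin m → ℝ}
    {ρ : Fin m → Matrix (Bool × d) (Bool × d) ℂ} (hens : IsEnsemble q ρ) :
    holevoInfo (qubitTensor (gadMap γ ν) Ψ) q ρ ≤
      (Real.binEntropy ((1 - γ) * (∑ a, q a * (block (ρ a) true true).trace.re) + γ * ν) -
          ∑ a, q a * gadF γ ν (block (ρ a) true true).trace.re) +
      (vnEntropy (∑ a, (q a : ℂ) • Ψ (block (ρ a) false false + block (ρ a) true true)) -
          ∑ a, q a * (condS (Ψ (block (ρ a) false false)) + condS (Ψ (block (ρ a) true true)))) := by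
  obtain ⟨hq0, hq1, hρ⟩ := hens
  have hΦ := isChannel_qubitTensor_gadMap hγ hν hΨ
  set Φ := qubitTensor (gadMap γ ν) Ψ with hΦdef
  have hpsd : ∀ a, (Φ (ρ a)).PosSemidef := fun a => psd_of_channel hΦ (hρ a).1
  set ω := ∑ a, (q a : ℂ) • Φ (ρ a) with hω
  have hωpsd : ω.PosSemidef := psd_sum_smul hq0 hpsd
  have h1 := vnEntropy_le_blocks hωpsd
  set W0 := block ω false false with hW0
  set W1 := block ω true true with hW1
  have hW0psd : W0.PosSemidef := block_posSemidef hωpsd false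
  have hW1psd : W1.PosSemidef := block_posSemidef hωpsd true
  have hW0' : W0 = ∑ a, (q a : ℂ) • block (Φ (ρ a)) false false := by
    rw [hW0, hω, block_smul_sum]
  have hW1' : W1 = ∑ a, (q a : ℂ) • block (Φ (ρ a)) true true := by
    rw [hW1, hω, block_smul_sum]
  have hsum : W0 + W1 = ∑ a, (q a : ℂ) • Ψ (block (ρ a) false false + block (ρ a) true true) := by
    rw [hW0', hW1', ← Finset.sum_add_distrib]
    refine Finset.sum_congr rfl fun a _ => ?_
    rw [← smul_add, hΦdef, block_add_of_density hΨ]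
  set qbar := (1 - γ) * (∑ a, q a * (block (ρ a) true true).trace.re) + γ * ν with hqbar
  have htr1 : W1.trace = (qbar : ℂ) := by
    rw [hW1', trace_sum_smul]
    have : ∀ a, (q a : ℂ) * (block (Φ (ρ a)) true true).trace =
        ((q a * ((1 - γ) * (block (ρ a) true true).trace.re + γ * ν) : ℝ) : ℂ) := by
      intro a
      rw [hΦdef, (qubit_traces hΨ (hρ a)).1]
      push_cast
      ring
    simp only [this]
    rw [← Complex.ofReal_sum]
    congr 1
    rw [hqbar]
    have h3 : ∑ a, q a * ((1 - γ) * (block (ρ a) true true).trace.re + γ * ν) =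
        (1 - γ) * (∑ a, q a * (block (ρ a) true true).trace.re) + (∑ a, q a) * (γ * ν) := by
      rw [Finset.mul_sum, Finset.sum_mul, ← Finset.sum_add_distrib]
      refine Finset.sum_congr rfl fun a _ => ?_
      ring
    rw [h3, hq1]
    ring
  have htr0 : W0.trace = ((1 - qbar : ℝ) : ℂ) := by
    rw [hW0', trace_sum_smul]
    have : ∀ a, (q a : ℂ) * (block (Φ (ρ a)) false false).trace =
        ((q a * (1 - ((1 - γ) * (block (ρ a) true true).trace.re + γ * ν)) : ℝ) : ℂ) := by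
      intro a
      rw [hΦdef, (qubit_traces hΨ (hρ a)).2]
      push_cast
      ring
    simp only [this]
    rw [← Complex.ofReal_sum]
    congr 1
    rw [hqbar]
    have h3 : ∑ a, q a * (1 - ((1 - γ) * (block (ρ a) true true).trace.re + γ * ν)) =
        (∑ a, q a) * (1 - γ * ν) - (1 - γ) * (∑ a, q a * (block (ρ a) true true).trace.re) := by
      rw [Finset.mul_sum, Finset.sum_mul, ← Finset.sum_sub_distrib]
      refine Finset.sum_congr rfl fun a _ => ?_
      ring
    rw [h3, hq1]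
    ring
  have hcond := condS_add hW0psd hW1psd
  have hcond0 : condS W0 = vnEntropy W0 - Real.negMulLog (1 - qbar) := by
    unfold condS
    rw [htr0]
    simp only [Complex.ofReal_re]
  have hcond1 : condS W1 = vnEntropy W1 - Real.negMulLog qbar := by
    unfold condS
    rw [htr1]
    simp only [Complex.ofReal_re]
  have hcond2 : condS (W0 + W1) = vnEntropy (W0 + W1) := by
    unfold condS
    have : (W0 + W1).trace = 1 := by
      rw [Matrix.trace_add, htr0, htr1]
      push_cast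
      ring
    rw [this]
    simp
  have hbin : Real.binEntropy qbar = Real.negMulLog qbar + Real.negMulLog (1 - qbar) :=
    Real.binEntropy_eq_negMulLog_add_negMulLog_one_sub qbar
  have hkey : ∑ a, q a * (gadF γ ν (block (ρ a) true true).trace.re +
      (condS (Ψ (block (ρ a) false false)) + condS (Ψ (block (ρ a) true true)))) ≤
      ∑ a, q a * vnEntropy (Φ (ρ a)) := by
    refine Finset.sum_le_sum fun a _ => ?_
    apply mul_le_mul_of_nonneg_left _ (hq0 a)
    have := key_lemma hγ hν hΨ (hρ a)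
    linarith
  have hsplit : ∑ a, q a * (gadF γ ν (block (ρ a) true true).trace.re +
      (condS (Ψ (block (ρ a) false false)) + condS (Ψ (block (ρ a) true true)))) =
      ∑ a, q a * gadF γ ν (block (ρ a) true true).trace.re +
        ∑ a, q a * (condS (Ψ (block (ρ a) false false)) + condS (Ψ (block (ρ a) true true))) := by
    rw [← Finset.sum_add_distrib]
    refine Finset.sum_congr rfl fun a _ => ?_
    ring
  rw [hsplit] at hkey
  rw [hsum] at hcond2
  unfold holevoInfo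
  rw [← hsum] at hcond2 ⊢
  rw [hbin]
  linarith

/-! ### The `±` ensemble of pure qubit states -/

/-- The vector of the pure state. -/
noncomputable def psiV (p : ℝ) (b : Bool) : Bool → ℂ := fun s =>
  if s then (if b then -((Real.sqrt p : ℝ) : ℂ) else ((Real.sqrt p : ℝ) : ℂ))
  else ((Real.sqrt (1 - p) : ℝ) : ℂ)

/-- The pure state with excited population `p` and coherence of sign given by `b`. -/
noncomputable def psi (p : ℝ) (b : Bool) : Matrix Bool Bool ℂ :=
  vecMulVec (psiV p b) (star (psiV p b))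

lemma det_bool (M : Matrix Bool Bool ℂ) :
    M.det = M false false * M true true - M false true * M true false := by
  have h := Matrix.det_submatrix_equiv_self finTwoEquiv M
  rw [← h, Matrix.det_fin_two]
  simp [finTwoEquiv]

lemma psi_entries (p : ℝ) (hp : p ∈ Set.Icc (0 : ℝ) 1) (b : Bool) :
    psi p b false false = ((1 - p : ℝ) : ℂ) ∧ psi p b true true = (p : ℂ) ∧
    psi p b false true =
      ((if b then -(Real.sqrt (1 - p) * Real.sqrt p) else Real.sqrt (1 - p) * Real.sqrt p : ℝ) : ℂ) ∧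
    psi p b true false =
      ((if b then -(Real.sqrt (1 - p) * Real.sqrt p) else Real.sqrt (1 - p) * Real.sqrt p : ℝ) : ℂ) := by
  have h1 : (Real.sqrt (1 - p)) * (Real.sqrt (1 - p)) = 1 - p :=
    Real.mul_self_sqrt (by linarith [hp.2])
  have h2 : (Real.sqrt p) * (Real.sqrt p) = p := Real.mul_self_sqrt hp.1
  have h1c : ((Real.sqrt (1 - p) : ℝ) : ℂ) * ((Real.sqrt (1 - p) : ℝ) : ℂ) = ((1 - p : ℝ) : ℂ) := by
    rw [← Complex.ofReal_mul, h1]
  have h2c : ((Real.sqrt p : ℝ) : ℂ) * ((Real.sqrt p : ℝ) : ℂ) = (p : ℂ) := by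
    rw [← Complex.ofReal_mul, h2]
  cases b <;> refine ⟨?_, ?_, ?_, ?_⟩ <;>
    simp [psi, psiV, vecMulVec_apply, h1c, h2c, Complex.conj_ofReal] <;> try ring_nf

lemma psi_density (p : ℝ) (hp : p ∈ Set.Icc (0 : ℝ) 1) (b : Bool) : IsDensity (psi p b) := by
  refine ⟨posSemidef_vecMulVec_self_star _, ?_⟩
  obtain ⟨h1, h2, -, -⟩ := psi_entries p hp b
  simp only [Matrix.trace, Fintype.sum_bool, diag_apply]
  rw [h1, h2]
  push_cast
  ring

lemma gadMap_psi_det {γ ν p : ℝ} (hγ : γ ∈ Set.Icc (0 : ℝ) 1) (hp : p ∈ Set.Icc (0 : ℝ) 1)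
    (b : Bool) :
    (gadMap γ ν (psi p b)).det.re = γ * ν * (1 - ν) + γ * (1 - γ) * (p - ν) ^ 2 := by
  obtain ⟨h1, h2, h3, h4⟩ := psi_entries p hp b
  have hs : (Real.sqrt (1 - γ)) * (Real.sqrt (1 - γ)) = 1 - γ :=
    Real.mul_self_sqrt (by linarith [hγ.2])
  have ha : (Real.sqrt (1 - p)) * (Real.sqrt (1 - p)) = 1 - p :=
    Real.mul_self_sqrt (by linarith [hp.2])
  have hc : (Real.sqrt p) * (Real.sqrt p) = p := Real.mul_self_sqrt hp.1
  rw [det_bool]
  simp only [gadMap, of_apply]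
  simp only [true_and, and_self, Bool.false_eq_true, and_false, false_and, if_true, if_false,
    and_true, reduceCtorEq]
  rw [h1, h2, h3, h4]
  set s := Real.sqrt (1 - γ)
  set a := Real.sqrt (1 - p)
  set c := Real.sqrt p
  have hsq : (s * a * c) * (s * a * c) = (1 - γ) * (1 - p) * p := by
    calc (s * a * c) * (s * a * c) = (s * s) * (a * a) * (c * c) := by ring
      _ = _ := by rw [hs, ha, hc]
  cases b
  · simp only [Bool.false_eq_true, if_false]
    norm_cast
    linear_combination -hsq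
  · simp only [if_true]
    norm_cast
    linear_combination -hsq

lemma vnEntropy_gadMap_psi {γ ν p : ℝ} (hγ : γ ∈ Set.Icc (0 : ℝ) 1) (hν : ν ∈ Set.Icc (0 : ℝ) 1)
    (hp : p ∈ Set.Icc (0 : ℝ) 1) (b : Bool) :
    vnEntropy (gadMap γ ν (psi p b)) = gadF γ ν p := by
  have hd := density_of_channel (isChannel_gadMap hγ hν) (psi_density p hp b)
  rw [vnEntropy_qubit hd, gadMap_psi_det hγ hp]
  rfl

/-- The output of a `+` pure qubit state: its entropy is `gadF`. -/
theorem exists_pure_gad {γ ν : ℝ} (hγ : γ ∈ Set.Icc (0 : ℝ) 1) (hν : ν ∈ Set.Icc (0 : ℝ) 1)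
    {p : ℝ} (hp : p ∈ Set.Icc (0 : ℝ) 1) :
    ∃ ρ₁ : Matrix Bool Bool ℂ, IsDensity ρ₁ ∧ vnEntropy (gadMap γ ν ρ₁) = gadF γ ν p :=
  ⟨psi p false, psi_density p hp false, vnEntropy_gadMap_psi hγ hν hp false⟩

lemma gadMap_psi_avg {γ ν p : ℝ} (hp : p ∈ Set.Icc (0 : ℝ) 1) :
    gadMap γ ν (psi p false) + gadMap γ ν (psi p true) =
      diagonal (fun s : Bool =>
        ((2 * (if s then (1 - γ) * p + γ * ν else 1 - ((1 - γ) * p + γ * ν)) : ℝ) : ℂ)) := by
  obtain ⟨h1, h2, h3, h4⟩ := psi_entries p hp false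
  obtain ⟨h1', h2', h3', h4'⟩ := psi_entries p hp true
  ext s t
  cases s <;> cases t <;>
    simp [gadMap, h1, h2, h3, h4, h1', h2', h3', h4'] <;> ring

/-- The first piece is the Holevo information of a `±` ensemble of pure qubit states. -/
theorem exists_ensemble_gad {γ ν : ℝ} (hγ : γ ∈ Set.Icc (0 : ℝ) 1) (hν : ν ∈ Set.Icc (0 : ℝ) 1)
    {m : ℕ} (q : Fin m → ℝ) (hq0 : ∀ a, 0 ≤ q a) (hq1 : ∑ a, q a = 1) (p : Fin m → ℝ)
    (hp : ∀ a, p a ∈ Set.Icc (0 : ℝ) 1) :
    ∃ (m₁ : ℕ) (q₁ : Fin m₁ → ℝ) (ρ₁ : Fin m₁ → Matrix Bool Bool ℂ), IsEnsemble q₁ ρ₁ ∧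
      holevoInfo (gadMap γ ν) q₁ ρ₁ =
        Real.binEntropy ((1 - γ) * (∑ a, q a * p a) + γ * ν) - ∑ a, q a * gadF γ ν (p a) := by
  have hw1 : ∑ i : Fin m × Bool, q i.1 / 2 = 1 := by
    rw [Fintype.sum_prod_type]
    simp only [Fintype.sum_bool]
    rw [← hq1]
    refine Finset.sum_congr rfl fun a _ => ?_
    ring
  obtain ⟨m₁, q₁, ρ₁, hens, hinfo⟩ := exists_fin_ensemble (ι := Fin m × Bool)
    (fun i => q i.1 / 2) (fun i => psi (p i.1) i.2)
    (fun i => div_nonneg (hq0 i.1) (by norm_num)) hw1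
    (fun i => psi_density _ (hp i.1) _) (gadMap γ ν)
  refine ⟨m₁, q₁, ρ₁, hens, ?_⟩
  rw [hinfo]
  set qbar := (1 - γ) * (∑ a, q a * p a) + γ * ν with hqbar
  have e1 : ∑ i : Fin m × Bool, (((q i.1 / 2 : ℝ)) : ℂ) • gadMap γ ν (psi (p i.1) i.2) =
      diagonal (fun s : Bool => (((if s then qbar else 1 - qbar) : ℝ) : ℂ)) := by
    rw [Fintype.sum_prod_type]
    simp only [Fintype.sum_bool]
    have : ∀ a : Fin m, ((q a / 2 : ℝ) : ℂ) • gadMap γ ν (psi (p a) true) +
        ((q a / 2 : ℝ) : ℂ) • gadMap γ ν (psi (p a) false) =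
        diagonal (fun s : Bool => ((q a *
          (if s then (1 - γ) * p a + γ * ν else 1 - ((1 - γ) * p a + γ * ν)) : ℝ) : ℂ)) := by
      intro a
      rw [← smul_add, add_comm, gadMap_psi_avg (hp a)]
      ext s t
      by_cases hst : s = t
      · subst hst
        simp only [Matrix.smul_apply, diagonal_apply_eq, smul_eq_mul]
        push_cast
        ring
      · simp [Matrix.smul_apply, diagonal_apply_ne _ hst]
    simp only [this]
    ext s t
    by_cases hst : s = t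
    · subst hst
      rw [Matrix.sum_apply]
      simp only [diagonal_apply_eq]
      rw [← Complex.ofReal_sum]
      congr 1
      rw [hqbar]
      cases s
      · simp only [Bool.false_eq_true, if_false]
        have h3 : ∑ a, q a * (1 - ((1 - γ) * p a + γ * ν)) =
            (∑ a, q a) * (1 - γ * ν) - (1 - γ) * (∑ a, q a * p a) := by
          rw [Finset.mul_sum, Finset.sum_mul, ← Finset.sum_sub_distrib]
          refine Finset.sum_congr rfl fun a _ => ?_
          ring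
        rw [h3, hq1]
        ring
      · simp only [if_true]
        have h3 : ∑ a, q a * ((1 - γ) * p a + γ * ν) =
            (1 - γ) * (∑ a, q a * p a) + (∑ a, q a) * (γ * ν) := by
          rw [Finset.mul_sum, Finset.sum_mul, ← Finset.sum_add_distrib]
          refine Finset.sum_congr rfl fun a _ => ?_
          ring
        rw [h3, hq1]
        ring
    · rw [Matrix.sum_apply]
      simp [diagonal_apply_ne _ hst]
  have e2 : ∑ i : Fin m × Bool, (q i.1 / 2) * vnEntropy (gadMap γ ν (psi (p i.1) i.2)) =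
      ∑ a, q a * gadF γ ν (p a) := by
    rw [Fintype.sum_prod_type]
    simp only [Fintype.sum_bool]
    refine Finset.sum_congr rfl fun a _ => ?_
    rw [vnEntropy_gadMap_psi hγ hν (hp a), vnEntropy_gadMap_psi hγ hν (hp a)]
    ring
  rw [e1, e2, vnEntropy_diagonal, Fintype.sum_bool]
  simp only [if_true, Bool.false_eq_true, if_false]
  rw [Real.binEntropy_eq_negMulLog_add_negMulLog_one_sub]

/-! ### Normalised blocks -/

lemma exists_density [Nonempty d] : ∃ σ : Matrix d d ℂ, IsDensity σ := by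
  obtain ⟨i⟩ := ‹Nonempty d›
  refine ⟨vecMulVec (fun j => if j = i then (1 : ℂ) else 0)
    (star (fun j => if j = i then (1 : ℂ) else 0)), posSemidef_vecMulVec_self_star _, ?_⟩
  simp [Matrix.trace, vecMulVec_apply, apply_ite]

lemma exists_normalized [Nonempty d] {B : Matrix d d ℂ} (hB : B.PosSemidef) :
    ∃ σ : Matrix d d ℂ, IsDensity σ ∧ B = ((B.trace.re : ℝ) : ℂ) • σ := by
  have htr := trace_re_of_psd hB
  by_cases h : B.trace.re = 0
  · have h0 : B.trace = 0 := by rw [← htr, h]; simp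
    have hB0 : B = 0 := hB.trace_eq_zero_iff.1 h0
    obtain ⟨σ, hσ⟩ := exists_density (d := d)
    refine ⟨σ, hσ, ?_⟩
    rw [h, hB0]
    simp
  · have hne : ((B.trace.re : ℝ) : ℂ) ≠ 0 := by exact_mod_cast h
    refine ⟨((B.trace.re : ℝ) : ℂ)⁻¹ • B, ⟨?_, ?_⟩, ?_⟩
    · apply hB.smul
      have h1 : 0 < B.trace.re := lt_of_le_of_ne (trace_re_nonneg_of_psd hB) (Ne.symm h)
      have : (0 : ℂ) ≤ ((B.trace.re⁻¹ : ℝ) : ℂ) := by
        exact_mod_cast (inv_pos.2 h1).le
      simpa using this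
    · rw [Matrix.trace_smul, smul_eq_mul, htr]
      rw [← htr] at hne ⊢
      exact inv_mul_cancel₀ (by simpa using hne)
    · rw [smul_smul, mul_inv_cancel₀ hne, one_smul]

lemma condS_channel_normalized {Ψ : Matrix d d ℂ → Matrix e e ℂ} (hΨ : IsChannel Ψ)
    {B σ : Matrix d d ℂ} (hσ : IsDensity σ) (hB : B = ((B.trace.re : ℝ) : ℂ) • σ)
    (ht : 0 ≤ B.trace.re) :
    condS (Ψ B) = B.trace.re * vnEntropy (Ψ σ) := by
  have hdens := density_of_channel hΨ hσ
  have h1 : Ψ B = ((B.trace.re : ℝ) : ℂ) • Ψ σ := by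
    conv_lhs => rw [hB]
    exact hΨ.1.map_smul _ _
  rw [h1, condS_smul hdens.1 ht]
  congr 1
  unfold condS
  rw [hdens.2]
  simp

lemma sum_block_traces {ρ : Matrix (Bool × d) (Bool × d) ℂ} (hρ : IsDensity ρ) :
    (block ρ true true).trace.re + (block ρ false false).trace.re = 1 := by
  have h1 := trace_eq_blocks ρ
  rw [hρ.2] at h1
  have := congrArg Complex.re h1
  simp only [Complex.one_re, Complex.add_re] at this
  linarith

/-- The second piece is the Holevo information of the normalised diagonal blocks. -/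
theorem exists_ensemble_psi [Nonempty d] {Ψ : Matrix d d ℂ → Matrix e e ℂ} (hΨ : IsChannel Ψ)
    {m : ℕ} {q : Fin m → ℝ} {ρ : Fin m → Matrix (Bool × d) (Bool × d) ℂ}
    (hens : IsEnsemble q ρ) :
    ∃ (m₂ : ℕ) (q₂ : Fin m₂ → ℝ) (ρ₂ : Fin m₂ → Matrix d d ℂ), IsEnsemble q₂ ρ₂ ∧
      holevoInfo Ψ q₂ ρ₂ =
        vnEntropy (∑ a, (q a : ℂ) • Ψ (block (ρ a) false false + block (ρ a) true true)) -
          ∑ a, q a * (condS (Ψ (block (ρ a) false false)) + condS (Ψ (block (ρ a) true true))) := by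
  obtain ⟨hq0, hq1, hρ⟩ := hens
  have hblock : ∀ (a : Fin m) (b : Bool), (block (ρ a) b b).PosSemidef :=
    fun a b => block_posSemidef (hρ a).1 b
  choose σ hσ hB using fun (p : Fin m × Bool) => exists_normalized (hblock p.1 p.2)
  set t : Fin m × Bool → ℝ := fun p => (block (ρ p.1) p.2 p.2).trace.re with ht
  have ht0 : ∀ p, 0 ≤ t p := fun p => trace_re_nonneg_of_psd (hblock p.1 p.2)
  have hw1 : ∑ i : Fin m × Bool, q i.1 * t i = 1 := by
    rw [Fintype.sum_prod_type]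
    simp only [Fintype.sum_bool]
    rw [← hq1]
    refine Finset.sum_congr rfl fun a _ => ?_
    have := sum_block_traces (hρ a)
    rw [← mul_add]
    simp only [ht]
    rw [this, mul_one]
  obtain ⟨m₂, q₂, ρ₂, hens₂, hinfo⟩ := exists_fin_ensemble (ι := Fin m × Bool)
    (fun i => q i.1 * t i) σ (fun i => mul_nonneg (hq0 i.1) (ht0 i)) hw1 hσ Ψ
  refine ⟨m₂, q₂, ρ₂, hens₂, ?_⟩
  rw [hinfo]
  have hΨB : ∀ p : Fin m × Bool, Ψ (block (ρ p.1) p.2 p.2) = ((t p : ℝ) : ℂ) • Ψ (σ p) := by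
    intro p
    conv_lhs => rw [hB p]
    exact hΨ.1.map_smul _ _
  have e1 : ∑ i : Fin m × Bool, ((q i.1 * t i : ℝ) : ℂ) • Ψ (σ i) =
      ∑ a, (q a : ℂ) • Ψ (block (ρ a) false false + block (ρ a) true true) := by
    rw [Fintype.sum_prod_type]
    simp only [Fintype.sum_bool]
    refine Finset.sum_congr rfl fun a _ => ?_
    rw [hΨ.1.map_add, hΨB (a, false), hΨB (a, true), smul_add, smul_smul, smul_smul]
    push_cast
    rw [add_comm]
  have e2 : ∑ i : Fin m × Bool, (q i.1 * t i) * vnEntropy (Ψ (σ i)) =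
      ∑ a, q a * (condS (Ψ (block (ρ a) false false)) + condS (Ψ (block (ρ a) true true))) := by
    rw [Fintype.sum_prod_type]
    simp only [Fintype.sum_bool]
    refine Finset.sum_congr rfl fun a _ => ?_
    rw [condS_channel_normalized hΨ (hσ (a, false)) (hB (a, false)) (ht0 (a, false)),
      condS_channel_normalized hΨ (hσ (a, true)) (hB (a, true)) (ht0 (a, true))]
    simp only [ht]
    ring
  rw [e1, e2]

/-- The entropy of `Ψ` on a normalised diagonal block (third conjunct of S0535): some density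
matrix has output entropy at most the sum of the two `condS`. -/
theorem exists_state_psi [Nonempty d] {Ψ : Matrix d d ℂ → Matrix e e ℂ} (hΨ : IsChannel Ψ)
    {ρ : Matrix (Bool × d) (Bool × d) ℂ} (hρ : IsDensity ρ) :
    ∃ ρ₂ : Matrix d d ℂ, IsDensity ρ₂ ∧
      vnEntropy (Ψ ρ₂) ≤ condS (Ψ (block ρ false false)) + condS (Ψ (block ρ true true)) := by
  have hf := block_posSemidef hρ.1 false
  have ht := block_posSemidef hρ.1 true
  obtain ⟨σ0, hσ0, hB0⟩ := exists_normalized hf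
  obtain ⟨σ1, hσ1, hB1⟩ := exists_normalized ht
  have h0 := trace_re_nonneg_of_psd hf
  have h1 := trace_re_nonneg_of_psd ht
  have hs := sum_block_traces hρ
  rw [condS_channel_normalized hΨ hσ0 hB0 h0, condS_channel_normalized hΨ hσ1 hB1 h1]
  by_cases hle : vnEntropy (Ψ σ0) ≤ vnEntropy (Ψ σ1)
  · refine ⟨σ0, hσ0, ?_⟩
    have h3 := mul_nonneg h1 (sub_nonneg.2 hle)
    have h4 : (block ρ false false).trace.re = 1 - (block ρ true true).trace.re := by linarith
    rw [h4]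
    nlinarith
  · refine ⟨σ1, hσ1, ?_⟩
    push Not at hle
    have h3 := mul_nonneg h0 (sub_nonneg.2 hle.le)
    have h4 : (block ρ true true).trace.re = 1 - (block ρ false false).trace.re := by linarith
    rw [h4]
    nlinarith

/-! ### Product ensembles -/

lemma sum_coeff_gadMap (γ ν : ℝ) (X : Matrix Bool Bool ℂ) (a b : Bool) :
    ∑ s', ∑ t', qubitCoeff (gadMap γ ν) a b s' t' * X s' t' = gadMap γ ν X a b := by
  cases a <;> cases b <;>
    simp [qubitCoeff, gadMap, Fintype.sum_bool, Matrix.single_apply] <;> ring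

lemma qubitTensor_kronecker (γ ν : ℝ) {Ψ : Matrix d d ℂ → Matrix e e ℂ} (hΨ : IsChannel Ψ)
    (X : Matrix Bool Bool ℂ) (Y : Matrix d d ℂ) :
    qubitTensor (gadMap γ ν) Ψ (X ⊗ₖ Y) = gadMap γ ν X ⊗ₖ Ψ Y := by
  have hb : ∀ s t, block (X ⊗ₖ Y) s t = X s t • Y := by
    intro s t
    ext i j
    simp [block]
  ext ⟨a, i⟩ ⟨b, j⟩
  simp only [qubitTensor, of_apply, kroneckerMap_apply, hb]
  have h1 : ∀ s t, Ψ (X s t • Y) i j = X s t * Ψ Y i j := by
    intro s t
    rw [hΨ.1.map_smul]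
    simp
  simp only [h1]
  rw [← sum_coeff_gadMap γ ν X a b, Finset.sum_mul]
  refine Finset.sum_congr rfl fun s _ => ?_
  rw [Finset.sum_mul]
  refine Finset.sum_congr rfl fun t _ => ?_
  ring

lemma kronecker_density {X : Matrix Bool Bool ℂ} {Y : Matrix d d ℂ} (hX : IsDensity X)
    (hY : IsDensity Y) : IsDensity (X ⊗ₖ Y) := by
  refine ⟨hX.1.kronecker hY.1, ?_⟩
  rw [Matrix.trace_kronecker, hX.2, hY.2, one_mul]

/-- Product ensembles (second conjunct of S0535). -/
theorem exists_product_ensemble {γ ν : ℝ} (hγ : γ ∈ Set.Icc (0 : ℝ) 1)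
    (hν : ν ∈ Set.Icc (0 : ℝ) 1) {Ψ : Matrix d d ℂ → Matrix e e ℂ} (hΨ : IsChannel Ψ)
    {m₁ : ℕ} {q₁ : Fin m₁ → ℝ} {ρ₁ : Fin m₁ → Matrix Bool Bool ℂ}
    {m₂ : ℕ} {q₂ : Fin m₂ → ℝ} {ρ₂ : Fin m₂ → Matrix d d ℂ}
    (h₁ : IsEnsemble q₁ ρ₁) (h₂ : IsEnsemble q₂ ρ₂) :
    ∃ (m : ℕ) (q : Fin m → ℝ) (ρ : Fin m → Matrix (Bool × d) (Bool × d) ℂ), IsEnsemble q ρ ∧
      holevoInfo (gadMap γ ν) q₁ ρ₁ + holevoInfo Ψ q₂ ρ₂ ≤
        holevoInfo (qubitTensor (gadMap γ ν) Ψ) q ρ := by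
  obtain ⟨h10, h11, h1ρ⟩ := h₁
  obtain ⟨h20, h21, h2ρ⟩ := h₂
  have hG := isChannel_gadMap hγ hν
  have hw1 : ∑ i : Fin m₁ × Fin m₂, q₁ i.1 * q₂ i.2 = 1 := by
    rw [Fintype.sum_prod_type]
    simp only [← Finset.mul_sum, h21, mul_one, h11]
  obtain ⟨m, q, ρ, hens, hinfo⟩ := exists_fin_ensemble (ι := Fin m₁ × Fin m₂)
    (fun i => q₁ i.1 * q₂ i.2) (fun i => ρ₁ i.1 ⊗ₖ ρ₂ i.2)
    (fun i => mul_nonneg (h10 _) (h20 _)) hw1
    (fun i => kronecker_density (h1ρ _) (h2ρ _)) (qubitTensor (gadMap γ ν) Ψ)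
  refine ⟨m, q, ρ, hens, ?_⟩
  rw [hinfo]
  simp only [qubitTensor_kronecker γ ν hΨ]
  have hA : IsDensity (∑ i, (q₁ i : ℂ) • gadMap γ ν (ρ₁ i)) :=
    density_sum_smul h10 h11 fun i => density_of_channel hG (h1ρ i)
  have hB : IsDensity (∑ j, (q₂ j : ℂ) • Ψ (ρ₂ j)) :=
    density_sum_smul h20 h21 fun j => density_of_channel hΨ (h2ρ j)
  have e1 : ∑ i : Fin m₁ × Fin m₂, ((q₁ i.1 * q₂ i.2 : ℝ) : ℂ) • (gadMap γ ν (ρ₁ i.1) ⊗ₖ Ψ (ρ₂ i.2)) =
      (∑ i, (q₁ i : ℂ) • gadMap γ ν (ρ₁ i)) ⊗ₖ (∑ j, (q₂ j : ℂ) • Ψ (ρ₂ j)) := by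
    rw [Fintype.sum_prod_type]
    ext ⟨a, x⟩ ⟨b, y⟩
    simp only [Matrix.sum_apply, Matrix.smul_apply, kroneckerMap_apply, smul_eq_mul]
    rw [Finset.sum_mul_sum]
    refine Finset.sum_congr rfl fun i _ => Finset.sum_congr rfl fun j _ => ?_
    push_cast
    ring
  have e2 : ∑ i : Fin m₁ × Fin m₂, (q₁ i.1 * q₂ i.2) *
        vnEntropy (gadMap γ ν (ρ₁ i.1) ⊗ₖ Ψ (ρ₂ i.2)) =
      ∑ i, q₁ i * vnEntropy (gadMap γ ν (ρ₁ i)) + ∑ j, q₂ j * vnEntropy (Ψ (ρ₂ j)) := by
    have : ∀ i : Fin m₁ × Fin m₂, (q₁ i.1 * q₂ i.2) *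
        vnEntropy (gadMap γ ν (ρ₁ i.1) ⊗ₖ Ψ (ρ₂ i.2)) =
        (q₁ i.1 * vnEntropy (gadMap γ ν (ρ₁ i.1))) * q₂ i.2 +
          q₁ i.1 * (q₂ i.2 * vnEntropy (Ψ (ρ₂ i.2))) := by
      intro i
      rw [vnEntropy_kronecker (density_of_channel hG (h1ρ _)) (density_of_channel hΨ (h2ρ _))]
      ring
    simp only [this]
    rw [Finset.sum_add_distrib, Fintype.sum_prod_type, Fintype.sum_prod_type]
    simp only [← Finset.mul_sum, h21, mul_one]
    rw [← Finset.sum_mul, h11, one_mul]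
  rw [e1, e2, vnEntropy_kronecker hA hB]
  unfold holevoInfo
  apply le_of_eq
  ring

end Crest.Agent.GADLib
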