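import Crest.Agent.Lib.GAD.Pencil
import Crest.Agent.Lib.GAD.Jensen
import Crest.Agent.Lib.GAD.Layer
import Crest.Agent.Lib.GAD.Integral
import Crest.Agent.Lib.GAD.Dual
import Crest.Agent.Lib.GAD.Entropy

/-!
The entropy inequality for block matrices `Diag(B, D) + P Pᴴ`.
-/

set_option autoImplicit false
set_option linter.unusedSectionVars false

namespace Crest.Agent.GADLib

open Matrix Finset MeasureTheory Crest.Quantum
open scoped ComplexOrder ENNReal

variable {n I J K : Type*} [Fintype n] [DecidableEq n] [Fintype I] [DecidableEq I]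
  [Fintype J] [DecidableEq J] [Fintype K] [DecidableEq K]

/-- Sum of the logarithms `log (1 + λ / s)`. -/
noncomputable def ld {Y : Matrix n n ℂ} (hY : Y.IsHermitian) (s : ℝ) : ℝ :=
  ∑ i, Real.log (1 + hY.eigenvalues i / s)

/-- The determinant of a Hermitian matrix as a real number. -/
lemma det_eq_real {Y : Matrix n n ℂ} (hY : Y.IsHermitian) :
    Y.det = ((∏ i, hY.eigenvalues i : ℝ) : ℂ) := by
  rw [hY.det_eq_prod_eigenvalues]; simp

lemma det_Res {Y : Matrix n n ℂ} (hY : Y.IsHermitian) (s : ℝ) :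
    (Res Y s).det = ((∏ i, (s + hY.eigenvalues i) : ℝ) : ℂ) := by
  have h : Res Y s = evU hY * diagonal (fun i => ((s + hY.eigenvalues i : ℝ) : ℂ)) *
      star (evU hY) := by
    have hd : diagonal (fun i => ((s + hY.eigenvalues i : ℝ) : ℂ)) =
        (s : ℂ) • (1 : Matrix n n ℂ) + diagonal (fun i => (hY.eigenvalues i : ℂ)) := by
      ext i j
      by_cases hij : i = j
      · subst hij; simp
      · simp [hij]
    rw [hd, Matrix.mul_add, Matrix.add_mul, Matrix.mul_smul, Matrix.mul_one, Matrix.smul_mul,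
      evU_mul_star, ← spectral hY]
    rfl
  rw [h, Matrix.mul_assoc, det_mul_comm, Matrix.mul_assoc, evU_star_mul, Matrix.mul_one,
    det_diagonal]
  push_cast
  rfl

lemma ld_add_log {Y : Matrix n n ℂ} (hY : Y.PosSemidef) {s : ℝ} (hs : 0 < s) :
    Real.log ((Res Y s).det.re) = (Fintype.card n) * Real.log s + ld hY.isHermitian s := by
  rw [det_Res hY.isHermitian, Complex.ofReal_re, Real.log_prod]
  · unfold ld
    have : ∀ i, Real.log (s + hY.isHermitian.eigenvalues i) =
        Real.log s + Real.log (1 + hY.isHermitian.eigenvalues i / s) := by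
      intro i
      have h0 := hY.eigenvalues_nonneg i
      rw [← Real.log_mul hs.ne' (by positivity)]
      congr 1
      field_simp
    simp only [this, Finset.sum_add_distrib]
    simp [Finset.card_univ]
  · intro i _
    have h0 := hY.eigenvalues_nonneg i
    positivity

/-- The block matrix. -/
noncomputable def Obl (E : Matrix I K ℂ) (G : Matrix J K ℂ) (B : Matrix I I ℂ) (D : Matrix J J ℂ) :
    Matrix (I ⊕ J) (I ⊕ J) ℂ :=
  fromBlocks (B + E * Eᴴ) (E * Gᴴ) (G * Eᴴ) (D + G * Gᴴ)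

lemma Obl_eq (E : Matrix I K ℂ) (G : Matrix J K ℂ) (B : Matrix I I ℂ) (D : Matrix J J ℂ) :
    Obl E G B D = fromBlocks B 0 0 D + fromRows E G * (fromRows E G)ᴴ := by
  unfold Obl
  rw [conjTranspose_fromRows_eq_fromCols_conjTranspose, fromRows_mul_fromCols, fromBlocks_add]
  simp

lemma fromBlocks_diag_posSemidef {B : Matrix I I ℂ} {D : Matrix J J ℂ} (hB : B.PosSemidef)
    (hD : D.PosSemidef) : (fromBlocks B 0 0 D).PosSemidef := by
  rw [posSemidef_iff_dotProduct_mulVec]
  constructor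
  · unfold IsHermitian
    rw [fromBlocks_conjTranspose, hB.isHermitian.eq, hD.isHermitian.eq]
    simp
  · intro x
    rw [fromBlocks_mulVec]
    simp only [Matrix.zero_mulVec, add_zero, zero_add]
    have : star x ⬝ᵥ Sum.elim (B *ᵥ (x ∘ Sum.inl)) (D *ᵥ (x ∘ Sum.inr)) =
        star (x ∘ Sum.inl) ⬝ᵥ B *ᵥ (x ∘ Sum.inl) + star (x ∘ Sum.inr) ⬝ᵥ D *ᵥ (x ∘ Sum.inr) := by
      simp [dotProduct, Fintype.sum_sum_type]
    rw [this]
    exact add_nonneg (hB.dotProduct_mulVec_nonneg _) (hD.dotProduct_mulVec_nonneg _)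

lemma Obl_posSemidef (E : Matrix I K ℂ) (G : Matrix J K ℂ) {B : Matrix I I ℂ} {D : Matrix J J ℂ}
    (hB : B.PosSemidef) (hD : D.PosSemidef) : (Obl E G B D).PosSemidef := by
  rw [Obl_eq]
  exact (fromBlocks_diag_posSemidef hB hD).add (posSemidef_self_mul_conjTranspose _)

/-- The Schur complement identity. -/
lemma det_Res_Obl (E : Matrix I K ℂ) (G : Matrix J K ℂ) {B : Matrix I I ℂ} {D : Matrix J J ℂ}
    (hB : B.PosSemidef) (hD : D.PosSemidef) {s : ℝ} (hs : 0 < s) :
    (Res (Obl E G B D) s).det =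
      (Res B s).det * (Res D s).det * (1 + UU E B s + UU G D s).det := by
  set R := (Res B s)⁻¹ with hR
  set Q := (Res D s)⁻¹ with hQ
  have huB : IsUnit (Res B s).det := (Matrix.isUnit_iff_isUnit_det _).mp (res_posDef hB hs).isUnit
  have huD : IsUnit (Res D s).det := (Matrix.isUnit_iff_isUnit_det _).mp (res_posDef hD hs).isUnit
  set X := fromBlocks (Res B s) 0 0 (Res D s) with hX
  set X' := fromBlocks R 0 0 Q with hX'
  set P := fromRows E G with hP
  have hXX' : X * X' = 1 := by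
    rw [hX, hX', fromBlocks_multiply]
    simp [hR, hQ, Matrix.mul_nonsing_inv _ huB, Matrix.mul_nonsing_inv _ huD]
  have hsum : Res (Obl E G B D) s = X + P * Pᴴ := by
    unfold Res
    rw [Obl_eq, ← add_assoc]
    congr 1
    rw [hX, ← fromBlocks_one, fromBlocks_smul, fromBlocks_add]
    simp [Res]
  have hfac : Res (Obl E G B D) s = X * (1 + (X' * P) * Pᴴ) := by
    rw [hsum, Matrix.mul_add, Matrix.mul_one, ← Matrix.mul_assoc, ← Matrix.mul_assoc, hXX',
      Matrix.one_mul]
  rw [hfac, det_mul, hX, det_fromBlocks_zero₂₁, det_one_add_mul_comm]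
  congr 2
  have hPH : Pᴴ = fromCols Eᴴ Gᴴ := conjTranspose_fromRows_eq_fromCols_conjTranspose E G
  rw [hPH, hX', hP, fromBlocks_mul_fromRows, fromCols_mul_fromRows]
  unfold UU
  simp [Matrix.mul_assoc, add_assoc, hR, hQ]

/-- The logarithmic form of the identity. -/
lemma ld_Obl (E : Matrix I K ℂ) (G : Matrix J K ℂ) {B : Matrix I I ℂ} {D : Matrix J J ℂ}
    (hB : B.PosSemidef) (hD : D.PosSemidef) {s : ℝ} (hs : 0 < s) :
    ld (Obl_posSemidef E G hB hD).isHermitian s = ld hB.isHermitian s + ld hD.isHermitian s +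
      Real.log ((1 + UU E B s + UU G D s).det.re) := by
  have hO := Obl_posSemidef E G hB hD
  have hΩ : (1 + UU E B s + UU G D s).IsHermitian :=
    ((isHermitian_one.add (UU_herm E hB.isHermitian s))).add (UU_herm G hD.isHermitian s)
  have h1 := ld_add_log hO hs
  have h2 := ld_add_log hB hs
  have h3 := ld_add_log hD hs
  rw [det_Res_Obl E G hB hD hs] at h1
  have e1 := det_Res hB.isHermitian s
  have e2 := det_Res hD.isHermitian s
  have e3 := det_eq_real hΩ
  set d₁ := ∏ i, (s + hB.isHermitian.eigenvalues i) with hd₁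
  set d₂ := ∏ i, (s + hD.isHermitian.eigenvalues i) with hd₂
  set d₃ := ∏ i, hΩ.eigenvalues i with hd₃
  have hd₁pos : 0 < d₁ := Finset.prod_pos fun i _ => by
    have := hB.eigenvalues_nonneg i
    linarith
  have hd₂pos : 0 < d₂ := Finset.prod_pos fun i _ => by
    have := hD.eigenvalues_nonneg i
    linarith
  have hOdet := det_Res hO.isHermitian s
  have hOpos : 0 < ∏ i, (s + hO.isHermitian.eigenvalues i) := Finset.prod_pos fun i _ => by
    have := hO.eigenvalues_nonneg i
    linarith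
  rw [det_Res_Obl E G hB hD hs, e1, e2, e3] at hOdet
  have hprod : d₁ * d₂ * d₃ = ∏ i, (s + hO.isHermitian.eigenvalues i) := by
    exact_mod_cast hOdet
  have hd₃ne : d₃ ≠ 0 := by
    intro h0
    rw [h0, mul_zero] at hprod
    exact hOpos.ne hprod
  rw [e1, e2, e3] at h1
  rw [e1] at h2
  rw [e2] at h3
  simp only [Complex.ofReal_re] at h2 h3
  have h4 : ((d₁ : ℂ) * (d₂ : ℂ) * (d₃ : ℂ)).re = d₁ * d₂ * d₃ := by
    exact_mod_cast Complex.ofReal_re (d₁ * d₂ * d₃)
  rw [h4, Real.log_mul (mul_ne_zero hd₁pos.ne' hd₂pos.ne') hd₃ne,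
    Real.log_mul hd₁pos.ne' hd₂pos.ne', h2, h3] at h1
  rw [Fintype.card_sum] at h1
  rw [e3, Complex.ofReal_re]
  push_cast at h1
  linarith

/-- The integral representation of the entropy. -/
theorem integral_ld {Y : Matrix n n ℂ} (hY : Y.PosSemidef) :
    IntegrableOn (fun s => ld hY.isHermitian s - Y.trace.re / (1 + s)) (Set.Ioi 0) ∧
    ∫ s in Set.Ioi (0 : ℝ), (ld hY.isHermitian s - Y.trace.re / (1 + s)) =
      Y.trace.re + vnEntropy Y := by
  have htr : Y.trace.re = ∑ i, hY.isHermitian.eigenvalues i := by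
    rw [hY.isHermitian.trace_eq_sum_eigenvalues]; simp
  have hfun : (fun s => ld hY.isHermitian s - Y.trace.re / (1 + s)) =
      fun s => ∑ i, (Real.log (1 + hY.isHermitian.eigenvalues i / s) -
        hY.isHermitian.eigenvalues i / (1 + s)) := by
    funext s
    rw [Finset.sum_sub_distrib, htr, Finset.sum_div]
    rfl
  rw [hfun]
  constructor
  · exact integrable_finsetSum _ fun i _ => integrableOn_log_sub (hY.eigenvalues_nonneg i)
  · rw [integral_finsetSum _ fun i _ => integrableOn_log_sub (hY.eigenvalues_nonneg i)]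
    simp only [integral_log_sub (hY.eigenvalues_nonneg _)]
    rw [Finset.sum_add_distrib, ← htr, vnEntropy_eq_sum hY.isHermitian]

lemma trace_re_eq_sum {Y : Matrix n n ℂ} (hY : Y.IsHermitian) :
    Y.trace.re = ∑ i, hY.eigenvalues i := by
  rw [hY.trace_eq_sum_eigenvalues]; simp

lemma trace_re_nonneg {Y : Matrix n n ℂ} (hY : Y.PosSemidef) : 0 ≤ Y.trace.re := by
  rw [trace_re_eq_sum hY.isHermitian]
  exact Finset.sum_nonneg fun i _ => hY.eigenvalues_nonneg i

lemma cast_cnt {Y : Matrix n n ℂ} (hY : Y.IsHermitian) (t : ℝ) :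
    (cnt hY t : ℝ) = ∑ i, if t < hY.eigenvalues i then (1 : ℝ) else 0 := by
  unfold cnt
  rw [Finset.card_filter]
  push_cast
  rfl

/-- The eigenvalues of `(1/τ) E Eᴴ - B` as functions of `τ`. -/
noncomputable def xF (E : Matrix I K ℂ) {B : Matrix I I ℂ} (hB : B.IsHermitian) (i : I) (τ : ℝ) :
    ℝ := (XX_herm E hB (1 / τ)).eigenvalues i

lemma xF_measurable (E : Matrix I K ℂ) {B : Matrix I I ℂ} (hB : B.IsHermitian) (i : I) :
    Measurable (xF E hB i) :=
  (XX_eigenvalues_monotone E hB i).measurable.comp (measurable_const.div measurable_id)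

/-- The matrix comparison. -/
theorem xi_matrix (E : Matrix I K ℂ) {B : Matrix I I ℂ} (hB : B.PosSemidef) {φ : ℝ → ℝ}
    (hφm : Measurable φ) (hφ0 : ∀ τ, 0 < τ → 0 ≤ φ τ) (hφ1 : ∀ τ, 0 < τ → φ τ ≤ 1 / (1 + τ)) :
    ∃ L : ℝ → ℝ≥0∞, Measurable L ∧
      (∀ s, 0 < s → ENNReal.ofReal (ld (mulEEH_posSemidef E).isHermitian s -
        ∑ k, prim φ ((UU_herm E hB.isHermitian s).eigenvalues k)) ≤ L s) ∧
      ∫⁻ s in Set.Ioi 0, L s ≤ ∫⁻ s in Set.Ioi 0, ENNReal.ofReal
        (Real.log (1 + (E * Eᴴ).trace.re / s) - prim φ ((E * Eᴴ).trace.re / (s + B.trace.re))) := by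
  have hA := mulEEH_posSemidef E
  set α := fun i => hA.isHermitian.eigenvalues i with hαdef
  have hα : ∀ i, 0 ≤ α i := fun i => hA.eigenvalues_nonneg i
  set x := xF E hB.isHermitian with hxdef
  have hx : ∀ k, Measurable (x k) := fun k => xF_measurable E hB.isHermitian k
  have hcount : ∀ s, 0 < s → ∀ τ, 0 < τ → Nt x s τ ≤ N0 α s τ := by
    intro s hs τ hτ
    have h1 := cnt_XX_le_cnt_A E hB (y := 1 / τ) (s := s) (by positivity)
    have h2 : s / (1 / τ) = s * τ := by field_simp
    rw [h2] at h1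
    have h3 : (cnt (XX_herm E hB.isHermitian (1 / τ)) s : ℝ) ≤ (cnt hA.isHermitian (s * τ) : ℝ) := by
      exact_mod_cast h1
    rw [cast_cnt, cast_cnt] at h3
    exact h3
  have htr : ∀ τ, 0 < τ → (E * Eᴴ).trace.re / τ - B.trace.re ≤ ∑ k, max (x k τ) 0 := by
    intro τ hτ
    have h1 := XX_sum_eigenvalues E hB.isHermitian (1 / τ)
    have h2 : ∑ k, x k τ ≤ ∑ k, max (x k τ) 0 :=
      Finset.sum_le_sum fun k _ => le_max_left _ _
    have h3 : ∑ k, x k τ = 1 / τ * (E * Eᴴ).trace.re - B.trace.re := h1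
    rw [h3] at h2
    have h4 : 1 / τ * (E * Eᴴ).trace.re = (E * Eᴴ).trace.re / τ := by ring
    rw [h4] at h2
    exact h2
  refine ⟨fun s => ∫⁻ τ in Set.Ioi 0, Kern φ α x s τ, measurable_kern_tau hφm α x hx, ?_, ?_⟩
  · intro s hs
    refine kern_tau_lower hφm hφ0 hφ1 α hα x hx _
      (fun k => (UU_posSemidef E hB hs).eigenvalues_nonneg k) hs (hcount s hs) ?_
    intro τ hτ
    have h1 := cnt_XX_le_cnt_UU E hB (y := 1 / τ) (s := s) (by positivity) hs
    have h2 : 1 / (1 / τ) = τ := by field_simp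
    rw [h2] at h1
    have h3 : (cnt (XX_herm E hB.isHermitian (1 / τ)) s : ℝ) ≤
        (cnt (UU_herm E hB.isHermitian s) τ : ℝ) := by
      exact_mod_cast h1
    rw [cast_cnt, cast_cnt] at h3
    exact h3
  · refine xi_abstract hφm hφ0 hφ1 α hα x hx (trace_re_nonneg hA) (trace_re_nonneg hB)
      (trace_re_eq_sum hA.isHermitian).symm hcount htr

variable (E : Matrix I K ℂ) (G : Matrix J K ℂ) {B : Matrix I I ℂ} {D : Matrix J J ℂ}

lemma integral_five {α : Type*} [MeasurableSpace α] {μ : Measure α} {f g h k l : α → ℝ}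
    (hf : Integrable f μ) (hg : Integrable g μ) (hh : Integrable h μ) (hk : Integrable k μ)
    (hl : Integrable l μ) :
    ∫ s, (f s + g s + h s + k s - l s) ∂μ = ∫ s, f s ∂μ + ∫ s, g s ∂μ + ∫ s, h s ∂μ +
      ∫ s, k s ∂μ - ∫ s, l s ∂μ := by
  have h1 : Integrable (fun s => f s + g s) μ := hf.add hg
  have h2 : Integrable (fun s => f s + g s + h s) μ := h1.add hh
  have h3 : Integrable (fun s => f s + g s + h s + k s) μ := h2.add hk
  rw [integral_sub h3 hl, integral_add h2 hk, integral_add h1 hh, integral_add hf hg]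

lemma integral_six {α : Type*} [MeasurableSpace α] {μ : Measure α} {f g h k l m : α → ℝ}
    (hf : Integrable f μ) (hg : Integrable g μ) (hh : Integrable h μ) (hk : Integrable k μ)
    (hl : Integrable l μ) (hm : Integrable m μ) :
    ∫ s, (f s + g s + h s + k s - l s - m s) ∂μ = ∫ s, f s ∂μ + ∫ s, g s ∂μ + ∫ s, h s ∂μ +
      ∫ s, k s ∂μ - ∫ s, l s ∂μ - ∫ s, m s ∂μ := by
  have h1 : Integrable (fun s => f s + g s) μ := hf.add hg
  have h2 : Integrable (fun s => f s + g s + h s) μ := h1.add hh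
  have h3 : Integrable (fun s => f s + g s + h s + k s) μ := h2.add hk
  have h4 : Integrable (fun s => f s + g s + h s + k s - l s) μ := h3.sub hl
  rw [integral_sub h4 hm, integral_sub h3 hl, integral_add h2 hk, integral_add h1 hh,
    integral_add hf hg]

/-- The entropy inequality for block matrices. -/
theorem tree_ec (hB : B.PosSemidef) (hD : D.PosSemidef) {l₁ l₂ : ℝ} (hl₁ : 0 ≤ l₁) (hl₂ : 0 ≤ l₂)
    (hsum : l₁ + l₂ = (E * Eᴴ).trace.re + B.trace.re + (G * Gᴴ).trace.re + D.trace.re)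
    (hprod : l₁ * l₂ = ((E * Eᴴ).trace.re + B.trace.re) * ((G * Gᴴ).trace.re + D.trace.re) -
      (E * Eᴴ).trace.re * (G * Gᴴ).trace.re) :
    condS (E * Eᴴ) + condS B + condS (G * Gᴴ) + condS D + Real.negMulLog l₁ + Real.negMulLog l₂ ≤
      vnEntropy (Obl E G B D) := by
  have hA := mulEEH_posSemidef E
  have hC := mulEEH_posSemidef G
  have hO := Obl_posSemidef E G hB hD
  set a := (E * Eᴴ).trace.re with ha
  set b := B.trace.re with hb
  set c := (G * Gᴴ).trace.re with hc
  set e := D.trace.re with he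
  have ha0 : 0 ≤ a := trace_re_nonneg hA
  have hb0 : 0 ≤ b := trace_re_nonneg hB
  have hc0 : 0 ≤ c := trace_re_nonneg hC
  have he0 : 0 ≤ e := trace_re_nonneg hD
  have htO : (Obl E G B D).trace.re = a + b + c + e := by
    unfold Obl
    have : (fromBlocks (B + E * Eᴴ) (E * Gᴴ) (G * Eᴴ) (D + G * Gᴴ)).trace =
        (B + E * Eᴴ).trace + (D + G * Gᴴ).trace := by
      simp [trace, Fintype.sum_sum_type]
    rw [this, trace_add, trace_add]
    simp only [Complex.add_re]
    ring
  obtain ⟨iA, vA⟩ := integral_ld hA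
  obtain ⟨iB, vB⟩ := integral_ld hB
  obtain ⟨iC, vC⟩ := integral_ld hC
  obtain ⟨iD, vD⟩ := integral_ld hD
  obtain ⟨iO, vO⟩ := integral_ld hO
  rw [htO] at iO vO
  -- the matrix integrand
  set F : ℝ → ℝ := fun s =>
    (ld hA.isHermitian s - a / (1 + s)) + (ld hB.isHermitian s - b / (1 + s)) +
    (ld hC.isHermitian s - c / (1 + s)) + (ld hD.isHermitian s - e / (1 + s)) -
    (ld hO.isHermitian s - (a + b + c + e) / (1 + s)) with hF
  have iF : IntegrableOn F (Set.Ioi 0) := (((iA.add iB).add iC).add iD).sub iO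
  have vF : ∫ s in Set.Ioi (0 : ℝ), F s =
      vnEntropy (E * Eᴴ) + vnEntropy B + vnEntropy (G * Gᴴ) + vnEntropy D -
        vnEntropy (Obl E G B D) := by
    simp only [hF]
    rw [integral_five iA iB iC iD iO, vA, vB, vC, vD, vO]
    ring
  -- the scalar integrand
  have isc : ∀ y : ℝ, 0 ≤ y → IntegrableOn (fun s => Real.log (1 + y / s) - y / (1 + s)) (Set.Ioi 0) :=
    fun y hy => integrableOn_log_sub hy
  set j : ℝ → ℝ := fun s =>
    (Real.log (1 + a / s) - a / (1 + s)) + (Real.log (1 + b / s) - b / (1 + s)) +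
    (Real.log (1 + c / s) - c / (1 + s)) + (Real.log (1 + e / s) - e / (1 + s)) -
    (Real.log (1 + l₁ / s) - l₁ / (1 + s)) - (Real.log (1 + l₂ / s) - l₂ / (1 + s)) with hj
  have ij : IntegrableOn j (Set.Ioi 0) :=
    ((((isc a ha0).add (isc b hb0)).add (isc c hc0)).add (isc e he0)).sub (isc l₁ hl₁) |>.sub
      (isc l₂ hl₂)
  have vj : ∫ s in Set.Ioi (0 : ℝ), j s =
      Real.negMulLog a + Real.negMulLog b + Real.negMulLog c + Real.negMulLog e -
        Real.negMulLog l₁ - Real.negMulLog l₂ := by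
    simp only [hj]
    rw [integral_six (isc a ha0) (isc b hb0) (isc c hc0) (isc e he0) (isc l₁ hl₁) (isc l₂ hl₂),
      integral_log_sub ha0, integral_log_sub hb0, integral_log_sub hc0, integral_log_sub he0,
      integral_log_sub hl₁, integral_log_sub hl₂]
    linarith

  -- the two comparison functions
  obtain ⟨L₁, mL₁, hL₁, bL₁⟩ := xi_matrix E hB (phiD_measurable a b c e)
    (fun τ hτ => phiD_nonneg ha0 hb0 hc0 he0 hτ) (fun τ hτ => phiD_le ha0 hb0 hc0 he0 hτ)
  obtain ⟨L₂, mL₂, hL₂, bL₂⟩ := xi_matrix G hD (phiD_measurable c e a b)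
    (fun τ hτ => phiD_nonneg hc0 he0 ha0 hb0 hτ) (fun τ hτ => phiD_le hc0 he0 ha0 hb0 hτ)
  set j₁ : ℝ → ℝ := fun s => Real.log (1 + a / s) - prim (phiD a b c e) (a / (s + b)) with hj₁
  set j₂ : ℝ → ℝ := fun s => Real.log (1 + c / s) - prim (phiD c e a b) (c / (s + e)) with hj₂
  -- pointwise comparison of the matrix integrand
  have hpoint : ∀ s, 0 < s → ENNReal.ofReal (F s) ≤ L₁ s + L₂ s := by
    intro s hs
    have hU := UU_posSemidef E hB hs
    have hV := UU_posSemidef G hD hs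
    have hfied := logdet_ge_sum hU hV (g₁ := geeD a b c e) (g₂ := geeD c e a b)
      (fun u v hu hv => geeD_add_le ha0 hb0 hc0 he0 hu hv)
    have hld := ld_Obl E G hB hD hs
    have hFs : F s = (ld hA.isHermitian s - ∑ k, prim (phiD a b c e)
          ((UU_herm E hB.isHermitian s).eigenvalues k)) +
        (ld hC.isHermitian s - ∑ k, prim (phiD c e a b)
          ((UU_herm G hD.isHermitian s).eigenvalues k)) +
        ((∑ i, geeD a b c e (hU.isHermitian.eigenvalues i) +
          ∑ j, geeD c e a b (hV.isHermitian.eigenvalues j)) -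
          Real.log ((1 + UU E B s + UU G D s).det.re)) := by
      simp only [hF]
      rw [hld]
      have e1 : ∑ k, prim (phiD a b c e) ((UU_herm E hB.isHermitian s).eigenvalues k) =
          ∑ i, geeD a b c e (hU.isHermitian.eigenvalues i) := rfl
      have e2 : ∑ k, prim (phiD c e a b) ((UU_herm G hD.isHermitian s).eigenvalues k) =
          ∑ j, geeD c e a b (hV.isHermitian.eigenvalues j) := rfl
      rw [e1, e2]
      ring
    have hle : F s ≤ (ld hA.isHermitian s - ∑ k, prim (phiD a b c e)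
          ((UU_herm E hB.isHermitian s).eigenvalues k)) +
        (ld hC.isHermitian s - ∑ k, prim (phiD c e a b)
          ((UU_herm G hD.isHermitian s).eigenvalues k)) := by
      rw [hFs]
      linarith
    calc ENNReal.ofReal (F s) ≤ ENNReal.ofReal ((ld hA.isHermitian s - ∑ k, prim (phiD a b c e)
          ((UU_herm E hB.isHermitian s).eigenvalues k)) +
        (ld hC.isHermitian s - ∑ k, prim (phiD c e a b)
          ((UU_herm G hD.isHermitian s).eigenvalues k))) := ENNReal.ofReal_le_ofReal hle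
      _ ≤ _ := ENNReal.ofReal_add_le
      _ ≤ _ := add_le_add (hL₁ s hs) (hL₂ s hs)
  -- the scalar integrand splits
  have hj₁0 : ∀ s, 0 < s → 0 ≤ j₁ s := by
    intro s hs
    simp only [hj₁]
    have h1 : prim (phiD a b c e) (a / (s + b)) ≤ Real.log (1 + a / (s + b)) :=
      geeD_le_log hc0 he0 ha0 hb0 (by positivity)
    have h2 : a / (s + b) ≤ a / s := div_le_div_of_nonneg_left ha0 hs (by linarith)
    have h3 : Real.log (1 + a / (s + b)) ≤ Real.log (1 + a / s) :=
      Real.log_le_log (by positivity) (by linarith)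
    linarith
  have hj₂0 : ∀ s, 0 < s → 0 ≤ j₂ s := by
    intro s hs
    simp only [hj₂]
    have h1 : prim (phiD c e a b) (c / (s + e)) ≤ Real.log (1 + c / (s + e)) :=
      geeD_le_log ha0 hb0 hc0 he0 (by positivity)
    have h2 : c / (s + e) ≤ c / s := div_le_div_of_nonneg_left hc0 hs (by linarith)
    have h3 : Real.log (1 + c / (s + e)) ≤ Real.log (1 + c / s) :=
      Real.log_le_log (by positivity) (by linarith)
    linarith
  have hjsplit : ∀ s, 0 < s → j s = j₁ s + j₂ s := by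
    intro s hs
    have hcurve := geeD_add_curve ha0 hb0 hc0 he0 hs
    have hsb : 0 < s + b := by linarith
    have hse : 0 < s + e := by linarith
    have hkey : (1 + l₁ / s) * (1 + l₂ / s) =
        (1 + b / s) * (1 + e / s) * (1 + a / (s + b) + c / (s + e)) := by
      field_simp
      linear_combination (s * hsum + hprod)
    have hlog : Real.log (1 + l₁ / s) + Real.log (1 + l₂ / s) =
        Real.log (1 + b / s) + Real.log (1 + e / s) +
          Real.log (1 + a / (s + b) + c / (s + e)) := by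
      rw [← Real.log_mul (by positivity) (by positivity), hkey,
        Real.log_mul (by positivity) (by positivity),
        Real.log_mul (by positivity) (by positivity)]
    have e1 : prim (phiD a b c e) (a / (s + b)) = geeD a b c e (a / (s + b)) := rfl
    have e2 : prim (phiD c e a b) (c / (s + e)) = geeD c e a b (c / (s + e)) := rfl
    have hlin : a / (1 + s) + b / (1 + s) + c / (1 + s) + e / (1 + s) =
        l₁ / (1 + s) + l₂ / (1 + s) := by
      rw [← add_div, ← add_div, ← add_div, ← add_div, hsum]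
    simp only [hj, hj₁, hj₂, e1, e2]
    linarith
  have hjnn : 0 ≤ᵐ[volume.restrict (Set.Ioi 0)] j := by
    filter_upwards [ae_restrict_mem measurableSet_Ioi] with s hs
    rw [hjsplit s hs]
    exact add_nonneg (hj₁0 s hs) (hj₂0 s hs)
  -- the chain of inequalities
  have hlint : ∫⁻ s in Set.Ioi 0, ENNReal.ofReal (F s) ≤
      ENNReal.ofReal (∫ s in Set.Ioi (0 : ℝ), j s) := by
    calc ∫⁻ s in Set.Ioi 0, ENNReal.ofReal (F s)
        ≤ ∫⁻ s in Set.Ioi 0, (L₁ s + L₂ s) :=
          setLIntegral_mono' measurableSet_Ioi hpoint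
      _ = (∫⁻ s in Set.Ioi 0, L₁ s) + ∫⁻ s in Set.Ioi 0, L₂ s := lintegral_add_left mL₁ _
      _ ≤ (∫⁻ s in Set.Ioi 0, ENNReal.ofReal (j₁ s)) + ∫⁻ s in Set.Ioi 0, ENNReal.ofReal (j₂ s) :=
          add_le_add bL₁ bL₂
      _ ≤ ∫⁻ s in Set.Ioi 0, (ENNReal.ofReal (j₁ s) + ENNReal.ofReal (j₂ s)) :=
          le_lintegral_add _ _
      _ = ∫⁻ s in Set.Ioi 0, ENNReal.ofReal (j s) := by
          refine setLIntegral_congr_fun measurableSet_Ioi fun s hs => ?_
          rw [hjsplit s hs, ENNReal.ofReal_add (hj₁0 s hs) (hj₂0 s hs)]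
      _ = ENNReal.ofReal (∫ s in Set.Ioi (0 : ℝ), j s) :=
          (ofReal_integral_eq_lintegral_ofReal ij hjnn).symm
  have hjint0 : 0 ≤ ∫ s in Set.Ioi (0 : ℝ), j s := integral_nonneg_of_ae hjnn
  have hfinal : ∫ s in Set.Ioi (0 : ℝ), F s ≤ ∫ s in Set.Ioi (0 : ℝ), j s := by
    rw [integral_eq_lintegral_pos_part_sub_lintegral_neg_part iF]
    have h1 : (∫⁻ s in Set.Ioi 0, ENNReal.ofReal (F s)).toReal ≤
        (ENNReal.ofReal (∫ s in Set.Ioi (0 : ℝ), j s)).toReal :=
      ENNReal.toReal_mono ENNReal.ofReal_ne_top hlint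
    rw [ENNReal.toReal_ofReal hjint0] at h1
    have h2 : 0 ≤ (∫⁻ s in Set.Ioi 0, ENNReal.ofReal (-F s)).toReal := ENNReal.toReal_nonneg
    linarith
  rw [vF, vj] at hfinal
  unfold condS
  rw [← ha, ← hb, ← hc, ← he]
  linarith

end Crest.Agent.GADLib
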